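import Mathlib
import Vale.Agent.P200.Main

/-! Gradings by projections, Hilbert functions and the action of the group ring. -/

namespace Vale.Agent.P200G

open Module MvPolynomial TensorProduct

/-- A grading of a vector space, given by the projections onto the graded pieces. -/
structure Gr (F W G : Type*) [Field F] [AddCommGroup W] [Module F W] where
  π : G → W →ₗ[F] W
  idem : ∀ g w, π g (π g w) = π g w
  orth : ∀ g g' w, g ≠ g' → π g (π g' w) = 0
  sum : ∀ w, ∃ s : Finset G, ∑ g ∈ s, π g w = w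
  fd : ∀ g, FiniteDimensional F (LinearMap.range (π g))

section Basic

variable {F W G : Type*} [Field F] [AddCommGroup W] [Module F W]

/-- The graded piece. -/
def Gr.pc (γ : Gr F W G) (g : G) : Submodule F W := LinearMap.range (γ.π g)

/-- Homogeneous subspaces. -/
def Gr.Hg (γ : Gr F W G) (Z : Submodule F W) : Prop := ∀ g, ∀ z ∈ Z, γ.π g z ∈ Z

/-- The Hilbert function. -/
noncomputable def Gr.h (γ : Gr F W G) (Z : Submodule F W) : G → ℤ :=
  fun g => (finrank F (Z.map (γ.π g)) : ℤ)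

/-- Homogeneous endomorphisms of degree `δ`. -/
def Gr.Hom [Add G] (γ : Gr F W G) (φ : W →ₗ[F] W) (δ : G) : Prop :=
  ∀ g w, γ.π (g + δ) (φ w) = φ (γ.π g w)

/-- Subspaces stable under the variables. -/
def St {Y : Type*} (ev : MvPolynomial Y F →ₐ[F] Module.End F W) (Z : Submodule F W) : Prop :=
  ∀ p, ∀ z ∈ Z, ev p z ∈ Z

/-- The stable subspace generated by a set. -/
def gen {Y : Type*} (ev : MvPolynomial Y F →ₐ[F] Module.End F W) (s : Set W) : Submodule F W :=
  Submodule.span F {x | ∃ p, ∃ w ∈ s, x = ev p w}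

/-- Finite generation. -/
def FinG {Y : Type*} (ev : MvPolynomial Y F →ₐ[F] Module.End F W) : Prop :=
  ∃ s : Finset W, gen ev (s : Set W) = ⊤

/-- Subspaces stable under the action of `E`. -/
def ES (E : Type*) [SMul E W] (Z : Submodule F W) : Prop := ∀ e : E, ∀ z ∈ Z, e • z ∈ Z

theorem Gr.mem_pc (γ : Gr F W G) {g : G} {w : W} : w ∈ γ.pc g ↔ γ.π g w = w :=
  ⟨by rintro ⟨v, rfl⟩; exact γ.idem g v, fun h => ⟨w, h⟩⟩

theorem Gr.π_mem_pc (γ : Gr F W G) (g : G) (w : W) : γ.π g w ∈ γ.pc g := ⟨w, rfl⟩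

theorem Gr.π_of_mem_ne (γ : Gr F W G) {g g' : G} {w : W} (hw : w ∈ γ.pc g') (h : g ≠ g') :
    γ.π g w = 0 := by
  obtain ⟨v, rfl⟩ := hw
  exact γ.orth g g' v h

instance (γ : Gr F W G) (g : G) : FiniteDimensional F (γ.pc g) := γ.fd g

instance (γ : Gr F W G) (Z : Submodule F W) (g : G) : FiniteDimensional F (Z.map (γ.π g)) :=
  Submodule.finiteDimensional_of_le (S₂ := γ.pc g) (by rintro _ ⟨w, -, rfl⟩; exact ⟨w, rfl⟩)

theorem Gr.exists_supp (γ : Gr F W G) (w : W) :
    ∃ s : Finset G, ∑ g ∈ s, γ.π g w = w ∧ ∀ g ∉ s, γ.π g w = 0 := by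
  obtain ⟨s, hs⟩ := γ.sum w
  refine ⟨s, hs, fun g hg => ?_⟩
  rw [← hs, map_sum]
  exact Finset.sum_eq_zero fun g' hg' => γ.orth _ _ _ fun h => hg (h ▸ hg')

theorem Gr.mem_of_π_mem (γ : Gr F W G) {Z : Submodule F W} {w : W} (h : ∀ g, γ.π g w ∈ Z) :
    w ∈ Z := by
  obtain ⟨s, hs⟩ := γ.sum w
  rw [← hs]
  exact Submodule.sum_mem _ fun g _ => h g

theorem Gr.ext_π (γ : Gr F W G) {w : W} (h : ∀ g, γ.π g w = 0) : w = 0 :=
  γ.mem_of_π_mem (Z := ⊥) h

theorem Gr.Hg.map_eq_inf {γ : Gr F W G} {Z : Submodule F W} (hZ : γ.Hg Z) (g : G) :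
    Z.map (γ.π g) = Z ⊓ γ.pc g :=
  le_antisymm (by rintro _ ⟨z, hz, rfl⟩; exact ⟨hZ g z hz, z, rfl⟩)
    fun z hz => ⟨z, hz.1, γ.mem_pc.mp hz.2⟩

theorem Gr.hg_bot (γ : Gr F W G) : γ.Hg ⊥ := fun g z hz => by
  rw [(Submodule.mem_bot F).mp hz, map_zero]; exact zero_mem _

theorem Gr.hg_top (γ : Gr F W G) : γ.Hg ⊤ := fun _ _ _ => trivial

theorem Gr.Hg.inf {γ : Gr F W G} {Z Z' : Submodule F W} (h : γ.Hg Z) (h' : γ.Hg Z') :
    γ.Hg (Z ⊓ Z') := fun g z hz => ⟨h g z hz.1, h' g z hz.2⟩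

theorem Gr.Hg.sup {γ : Gr F W G} {Z Z' : Submodule F W} (h : γ.Hg Z) (h' : γ.Hg Z') :
    γ.Hg (Z ⊔ Z') := fun g z hz => by
  obtain ⟨x, hx, y, hy, rfl⟩ := Submodule.mem_sup.mp hz
  rw [map_add]
  exact Submodule.add_mem_sup (h g x hx) (h' g y hy)

theorem Gr.h_mono (γ : Gr F W G) {Z Z' : Submodule F W} (h : Z ≤ Z') (g : G) :
    γ.h Z g ≤ γ.h Z' g :=
  Int.ofNat_le.mpr (Submodule.finrank_mono (Submodule.map_mono h))

theorem Gr.h_bot (γ : Gr F W G) : γ.h ⊥ = 0 := by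
  funext g
  simp [Gr.h]

section Hom

variable [AddCommGroup G] {γ : Gr F W G}

theorem Gr.hom_of_mem {φ : W →ₗ[F] W} {δ : G} (h : ∀ g, ∀ w ∈ γ.pc g, φ w ∈ γ.pc (g + δ)) :
    γ.Hom φ δ := by
  intro g w
  obtain ⟨s, hs, hs'⟩ := γ.exists_supp w
  conv_lhs => rw [← hs]
  rw [map_sum, map_sum, Finset.sum_eq_single g]
  · exact γ.mem_pc.mp (h g _ (γ.π_mem_pc g w))
  · intro g' _ hg'
    exact γ.π_of_mem_ne (h g' _ (γ.π_mem_pc g' w)) fun h => hg' (add_right_cancel h).symm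
  · intro hg
    rw [hs' g hg, map_zero, map_zero]

theorem Gr.Hom.mem_pc {φ : W →ₗ[F] W} {δ : G} (h : γ.Hom φ δ) {g : G} {w : W}
    (hw : w ∈ γ.pc g) : φ w ∈ γ.pc (g + δ) := by
  rw [γ.mem_pc] at hw ⊢
  rw [h, hw]

theorem Gr.Hom.mul {φ ψ : Module.End F W} {δ δ' : G} (h : γ.Hom φ δ) (h' : γ.Hom ψ δ') :
    γ.Hom (φ * ψ) (δ + δ') := fun g w => by
  rw [Module.End.mul_apply, Module.End.mul_apply, ← h', ← h, add_assoc, add_comm δ']

theorem Gr.Hom.pow {φ : Module.End F W} {δ : G} (h : γ.Hom φ δ) (k : ℕ) :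
    γ.Hom (φ ^ k) (k • δ) := by
  induction k with
  | zero => intro g w; simp
  | succ k ih => rw [pow_succ, succ_nsmul]; exact ih.mul h

theorem Gr.Hg.map {Z : Submodule F W} (hZ : γ.Hg Z) {φ : W →ₗ[F] W} {δ : G} (h : γ.Hom φ δ) :
    γ.Hg (Z.map φ) := by
  rintro g _ ⟨z, hz, rfl⟩
  refine ⟨γ.π (g - δ) z, hZ _ z hz, ?_⟩
  rw [← h, sub_add_cancel]

theorem Gr.Hg.comap {Z : Submodule F W} (hZ : γ.Hg Z) {φ : W →ₗ[F] W} {δ : G} (h : γ.Hom φ δ) :
    γ.Hg (Z.comap φ) := fun g z hz => by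
  rw [Submodule.mem_comap, ← h]
  exact hZ _ _ hz

/-- The basic counting identity. -/
theorem Gr.h_pair {Z B : Submodule F W} (hZ : γ.Hg Z) (hB : γ.Hg B) {φ : W →ₗ[F] W} {δ : G}
    (h : γ.Hom φ δ) (g : G) :
    γ.h (B ⊔ Z.map φ) (g + δ) - γ.h B (g + δ) = γ.h Z g - γ.h (Z ⊓ B.comap φ) g := by
  have h1 : (B ⊔ Z.map φ).map (γ.π (g + δ)) =
      B.map (γ.π (g + δ)) ⊔ (Z.map (γ.π g)).map φ := by
    rw [Submodule.map_sup, ← Submodule.map_comp, ← Submodule.map_comp]
    congr 2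
    ext w
    exact h g w
  set B' := B.map (γ.π (g + δ)) with hB'
  set Z' := Z.map (γ.π g) with hZ'
  have h2 := Submodule.finrank_sup_add_finrank_inf_eq B' (Z'.map φ)
  let ψ : Z' →ₗ[F] W ⧸ B' := B'.mkQ ∘ₗ φ ∘ₗ Z'.subtype
  have h3 := LinearMap.finrank_range_add_finrank_ker ψ
  have h4 : (LinearMap.ker ψ).map Z'.subtype = (Z ⊓ B.comap φ).map (γ.π g) := by
    rw [(hZ.inf (hB.comap h)).map_eq_inf]
    ext w
    constructor
    · rintro ⟨⟨w, hw⟩, hk, rfl⟩
      have hw' := hw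
      rw [hZ', hZ.map_eq_inf] at hw'
      have hk' : φ w ∈ B' := (Submodule.Quotient.mk_eq_zero _).mp hk
      rw [hB', hB.map_eq_inf] at hk'
      exact ⟨⟨hw'.1, hk'.1⟩, hw'.2⟩
    · rintro ⟨⟨h1, h2⟩, h3⟩
      refine ⟨⟨w, w, h1, γ.mem_pc.mp h3⟩, ?_, rfl⟩
      exact (Submodule.Quotient.mk_eq_zero _).mpr ⟨φ w, h2, γ.mem_pc.mp (h.mem_pc h3)⟩
  have h5 : finrank F (LinearMap.ker ψ) = finrank F ((Z ⊓ B.comap φ).map (γ.π g)) := by
    rw [← h4, Submodule.finrank_map_subtype_eq]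
  let ψ' : (Z'.map φ) →ₗ[F] W ⧸ B' := B'.mkQ ∘ₗ (Z'.map φ).subtype
  have h6 := LinearMap.finrank_range_add_finrank_ker ψ'
  have h7 : LinearMap.range ψ' = LinearMap.range ψ := by
    simp only [ψ, ψ', LinearMap.range_comp, Submodule.range_subtype]
  have h8 : finrank F (LinearMap.ker ψ') = finrank F (B' ⊓ Z'.map φ : Submodule F W) := by
    have h9 : (LinearMap.ker ψ').map (Z'.map φ).subtype = B' ⊓ Z'.map φ := by
      simp only [ψ', LinearMap.ker_comp, Submodule.ker_mkQ, Submodule.map_comap_subtype, inf_comm]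
    rw [← Submodule.finrank_map_subtype_eq (Z'.map φ) (LinearMap.ker ψ'), h9]
  simp only [Gr.h]
  rw [h1, ← hB', ← hZ', ← h5]
  rw [h7, h8] at h6
  omega

end Hom

section St

variable {Y : Type*} {ev : MvPolynomial Y F →ₐ[F] Module.End F W}

theorem St.of_X {Z : Submodule F W} (h : ∀ u, ∀ z ∈ Z, ev (X u) z ∈ Z) : St ev Z := by
  intro p
  induction p using MvPolynomial.induction_on with
  | C a => intro z hz; rw [← algebraMap_eq, AlgHom.commutes]; exact Z.smul_mem a hz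
  | add p q hp hq => intro z hz; rw [map_add]; exact Z.add_mem (hp z hz) (hq z hz)
  | mul_X p u hp => intro z hz; rw [map_mul]; exact hp _ (h u z hz)

theorem ev_comm (p q : MvPolynomial Y F) (w : W) : ev p (ev q w) = ev q (ev p w) := by
  rw [← Module.End.mul_apply, ← map_mul, mul_comm, map_mul, Module.End.mul_apply]

theorem st_bot : St ev ⊥ := fun p z hz => by
  rw [(Submodule.mem_bot F).mp hz, map_zero]; exact zero_mem _

theorem st_top : St ev ⊤ := fun _ _ _ => trivial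

theorem St.inf {Z Z' : Submodule F W} (h : St ev Z) (h' : St ev Z') : St ev (Z ⊓ Z') :=
  fun p z hz => ⟨h p z hz.1, h' p z hz.2⟩

theorem St.sup {Z Z' : Submodule F W} (h : St ev Z) (h' : St ev Z') : St ev (Z ⊔ Z') :=
  fun p z hz => by
    obtain ⟨x, hx, y, hy, rfl⟩ := Submodule.mem_sup.mp hz
    rw [map_add]
    exact Submodule.add_mem_sup (h p x hx) (h' p y hy)

theorem St.map {Z : Submodule F W} (h : St ev Z) {φ : W →ₗ[F] W}
    (hφ : ∀ p w, φ (ev p w) = ev p (φ w)) : St ev (Z.map φ) := by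
  rintro p _ ⟨z, hz, rfl⟩
  exact ⟨ev p z, h p z hz, hφ p z⟩

theorem St.comap {Z : Submodule F W} (h : St ev Z) {φ : W →ₗ[F] W}
    (hφ : ∀ p w, φ (ev p w) = ev p (φ w)) : St ev (Z.comap φ) := fun p z hz => by
  rw [Submodule.mem_comap, hφ]
  exact h p _ hz

theorem st_gen (s : Set W) : St ev (gen ev s) := by
  intro p z hz
  induction hz using Submodule.span_induction with
  | mem x hx =>
    obtain ⟨q, w, hw, rfl⟩ := hx
    exact Submodule.subset_span ⟨p * q, w, hw, by rw [map_mul]; rfl⟩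
  | zero => simp
  | add x y _ _ hx hy => rw [map_add]; exact add_mem hx hy
  | smul a x _ hx => rw [map_smul]; exact Submodule.smul_mem _ _ hx

theorem subset_gen (s : Set W) : s ⊆ gen ev s := fun w hw =>
  Submodule.subset_span ⟨1, w, hw, by simp⟩

theorem St.gen_le {Z : Submodule F W} (h : St ev Z) {s : Set W} (hs : s ⊆ Z) : gen ev s ≤ Z := by
  rw [gen, Submodule.span_le]
  rintro _ ⟨p, w, hw, rfl⟩
  exact h p w (hs hw)

end St

end Basic

section Act

variable {G : Type*} [AddCommGroup G]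

/-- Translation of functions. -/
def tr (x : G) : Module.End ℤ (G → ℤ) where
  toFun h := fun g => h (g - x)
  map_add' _ _ := rfl
  map_smul' _ _ := rfl

/-- The group element as an element of the group ring. -/
noncomputable def og (x : G) : AddMonoidAlgebra ℤ G := AddMonoidAlgebra.single x 1

/-- The action of the group ring on functions by convolution. -/
noncomputable def act : AddMonoidAlgebra ℤ G →ₐ[ℤ] Module.End ℤ (G → ℤ) :=
  AddMonoidAlgebra.lift ℤ (Module.End ℤ (G → ℤ)) G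
    { toFun := fun x => tr x.toAdd
      map_one' := by ext h g; simp [tr]
      map_mul' := fun x y => by ext h g; simp [tr, sub_sub] }

/-- The coefficient function of an element of the group ring. -/
def cf (k : AddMonoidAlgebra ℤ G) : G → ℤ := fun g => k.coeff g

/-- Pairing of an element of the group ring with a function. -/
noncomputable def mom (f : G → ℤ) (k : AddMonoidAlgebra ℤ G) : ℤ :=
  k.coeff.sum fun g c => c * f g

/-- The ideal generated by the elements `1 - [χ u]`. -/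
noncomputable def Jd {Y : Type*} (χ : Y → G) : Ideal (AddMonoidAlgebra ℤ G) :=
  Ideal.span (Set.range fun u => 1 - og (χ u))

/-- The alternating sum over the parity. -/
def sd (h : G × ZMod 2 → ℤ) : G → ℤ := fun g => h (g, 0) - h (g, 1)

theorem act_og (x : G) (h : G → ℤ) (g : G) : act (og x) h g = h (g - x) := by
  simp [act, og, tr]

theorem og_add (x y : G) : og (x + y) = og x * og y := by
  simp [og, AddMonoidAlgebra.single_mul_single]

theorem og_zero : og (0 : G) = 1 := rfl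

theorem cf_add (k k' : AddMonoidAlgebra ℤ G) : cf (k + k') = cf k + cf k' := by
  funext g; simp [cf]

theorem cf_sub (k k' : AddMonoidAlgebra ℤ G) : cf (k - k') = cf k - cf k' := by
  funext g; simp [cf]

theorem cf_zero : cf (0 : AddMonoidAlgebra ℤ G) = 0 := by
  funext g; simp [cf]

omit [AddCommGroup G] in
theorem cf_injective : Function.Injective (cf : AddMonoidAlgebra ℤ G → G → ℤ) := fun _ _ h =>
  AddMonoidAlgebra.ext (Finsupp.ext fun g => congrFun h g)

theorem act_cf (k q : AddMonoidAlgebra ℤ G) : act k (cf q) = cf (k * q) := by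
  induction k using AddMonoidAlgebra.induction_on with
  | of x =>
    funext g
    change act (og x) (cf q) g = cf (og x * q) g
    rw [act_og]
    simp [cf, og, AddMonoidAlgebra.coeff_single_mul_apply, sub_eq_neg_add]
  | add k k' h h' => rw [map_add, LinearMap.add_apply, h, h', add_mul, cf_add]
  | smul c k h =>
    rw [map_smul, LinearMap.smul_apply, h, smul_mul_assoc]
    funext g
    simp only [cf, Pi.smul_apply, AddMonoidAlgebra.coeff_smul, Finsupp.smul_apply]

theorem mom_add (f : G → ℤ) (k k' : AddMonoidAlgebra ℤ G) :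
    mom f (k + k') = mom f k + mom f k' := by
  simp only [mom, AddMonoidAlgebra.coeff_add]
  exact Finsupp.sum_add_index' (by simp) (by simp [add_mul])

theorem mom_zero (f : G → ℤ) : mom f (0 : AddMonoidAlgebra ℤ G) = 0 := by simp [mom]

omit [AddCommGroup G] in
theorem mom_single (f : G → ℤ) (x : G) (c : ℤ) :
    mom f (AddMonoidAlgebra.single x c) = c * f x := by
  simp [mom]

omit [AddCommGroup G] in
theorem mom_eq_sum (f : G → ℤ) (k : AddMonoidAlgebra ℤ G) {s : Finset G}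
    (hs : ∀ g, cf k g ≠ 0 → g ∈ s) : mom f k = ∑ g ∈ s, cf k g * f g :=
  Finsupp.sum_of_support_subset _ (fun g hg => hs g (Finsupp.mem_support_iff.mp hg)) _ (by simp)

end Act

end Vale.Agent.P200G
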