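import Mathlib
import Vale.Agent.P200G.Defs

/-! The concrete objects: parameter ring, cyclic blocks, exterior operators. -/

namespace Vale.Agent.P200G

open Module MvPolynomial TensorProduct

universe u

section Pi

variable {F W G : Type*} [Field F] [AddCommGroup W] [Module F W] [AddCommGroup G]

/-- The grading on a finite product with shifts. -/
noncomputable def Gr.pi (γ : Gr F W G) {ι : Type*} [Fintype ι] (pos : ι → G) :
    Gr F (ι → W) G where
  π g := LinearMap.pi fun i => γ.π (g - pos i) ∘ₗ LinearMap.proj i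
  idem g w := funext fun i => γ.idem _ _
  orth g g' w h := funext fun i => γ.orth _ _ _ fun h' => h (sub_left_injective h')
  sum w := by
    classical
    choose s hs hs' using fun i => γ.exists_supp (w i)
    refine ⟨Finset.univ.biUnion fun i => (s i).image (· + pos i), funext fun i => ?_⟩
    rw [Finset.sum_apply]
    conv_rhs => rw [← hs i]
    symm
    refine Finset.sum_bij_ne_zero (fun g _ _ => g + pos i) (fun g hg _ => ?_)
      (fun g _ _ g' _ _ h => add_right_cancel h) (fun g _ hg => ⟨g - pos i, ?_, hg, by simp⟩)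
      (fun g _ _ => by simp)
    · exact Finset.mem_biUnion.mpr ⟨i, Finset.mem_univ _, Finset.mem_image_of_mem _ hg⟩
    · by_contra h
      exact hg (hs' i _ h)
  fd g := by
    refine Module.Finite.of_surjective (M := ∀ i, γ.pc (g - pos i))
      (LinearMap.codRestrict _ (LinearMap.pi fun i => (γ.pc (g - pos i)).subtype ∘ₗ
        LinearMap.proj i) fun v => ⟨fun i => v i, funext fun i => γ.mem_pc.mp (v i).2⟩) ?_
    rintro ⟨_, w, rfl⟩
    exact ⟨fun i => ⟨_, γ.π_mem_pc _ (w i)⟩, rfl⟩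

theorem Gr.pi_π (γ : Gr F W G) {ι : Type*} [Fintype ι] (pos : ι → G) (g : G) (w : ι → W) (i : ι) :
    (γ.pi pos).π g w i = γ.π (g - pos i) (w i) := rfl

theorem Gr.mem_pi_pc (γ : Gr F W G) {ι : Type*} [Fintype ι] (pos : ι → G) {g : G} {w : ι → W} :
    w ∈ (γ.pi pos).pc g ↔ ∀ i, w i ∈ γ.pc (g - pos i) := by
  simp only [Gr.mem_pc, funext_iff, Gr.pi_π]

end Pi

section Lam

variable (F W : Type*) {J : Type*} [Field F] [AddCommGroup W] [Module F W] [LinearOrder J]

/-- The Jordan-Wigner sign. -/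
def sgn (j : J) (S : Finset J) : F := (-1) ^ (S.filter (· < j)).card

/-- Contraction. -/
def io (j : J) : Module.End F (Finset J → W) where
  toFun f S := if j ∈ S then 0 else sgn F j S • f (insert j S)
  map_add' f g := by funext S; by_cases h : j ∈ S <;> simp [h]
  map_smul' c f := by funext S; by_cases h : j ∈ S <;> simp [h, smul_comm c]

/-- Exterior multiplication. -/
def ex (j : J) : Module.End F (Finset J → W) where
  toFun f S := if j ∈ S then sgn F j S • f (S.erase j) else 0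
  map_add' f g := by funext S; by_cases h : j ∈ S <;> simp [h]
  map_smul' c f := by funext S; by_cases h : j ∈ S <;> simp [h, smul_comm c]

end Lam

/-- Index type of the parameters. -/
abbrev Yt (τ a n : ℕ) : Type := Fin τ × Fin a × Fin n

/-- The grading group. -/
abbrev Gt (τ a : ℕ) : Type := (Fin τ × Fin a → ℤ) × ℤ

section Conc

variable {a n r : ℕ}

/-- The degree of a parameter. -/
def chi {τ : ℕ} [NeZero a] (u : Yt τ a n) : Gt τ a :=
  (Pi.single (u.1, u.2.1) 1 - Pi.single (u.1, u.2.1 + 1) 1, 1)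

/-- The degree of a basis vector. -/
def posn {τ : ℕ} (ν : Fin τ → Fin a) : Gt τ a := (fun x => if ν x.1 = x.2 then 1 else 0, 0)

/-- Rotation of the degrees of one block. -/
def rot {τ : ℕ} [NeZero a] (m : Fin τ) (g : Gt τ a) : Gt τ a :=
  (fun x => if x.1 = m then g.1 (x.1, x.2 - 1) else g.1 x, g.2)

/-- The monomial attached to a word. -/
noncomputable def mon (F : Type*) [CommSemiring F] (i : Fin a → Fin n) : MvPolynomial (Fin n) F :=
  ∏ j, X (i j)

/-- No nonzero combination of the functionals is a multiple of a point evaluation. -/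
def NoPt {F : Type u} [Field F] (a : ℕ) (φ : Fin r → MvPolynomial (Fin n) F →ₗ[F] F) : Prop :=
  ∀ (L : Type u) [Field L] [Algebra F L] (lam : Fin r → L) (c : L) (p : Fin n → L),
    (∀ i : Fin a → Fin n, ∑ k, lam k * algebraMap F L (φ k (mon F i)) = c * ∏ j, p (i j)) →
      lam = 0

/-- The functionals are in echelon form with respect to monomials. -/
def Ech {F : Type*} [Field F] (a : ℕ) (φ : Fin r → MvPolynomial (Fin n) F →ₗ[F] F) : Prop :=
  ∃ α : Fin r → Fin a → Fin n, ∀ k l, φ k (mon F (α l)) = if k = l then 1 else 0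

/-- The binomial rule for `ζ`-commuting elements. -/
def QB {F : Type u} [Field F] (ζ : F) (a : ℕ) : Prop :=
  ζ ^ a = 1 ∧ ∀ (B : Type u) [Ring B] [Algebra F B] (x y : B), x * y = ζ • (y * x) →
    (x + y) ^ a = x ^ a + y ^ a

/-- The value of a functional on the `a`-th power of the linear form with coefficients `e`. -/
noncomputable def TT {K D : Type*} [Field K] [Ring D] (a : ℕ) (κ : K →+* D) (e : Fin n → D)
    (ψ : MvPolynomial (Fin n) K →ₗ[K] K) : D :=
  ∑ i : Fin a → Fin n, κ (ψ (mon K i)) * (List.ofFn fun j => e (i j)).prod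

variable {F : Type*} [Field F]

/-- The value of a functional on the sum of the products of generic linear forms. -/
noncomputable def Om (τ a : ℕ) (ψ : MvPolynomial (Fin n) F →ₗ[F] F) : MvPolynomial (Yt τ a n) F :=
  ∑ m, ∑ i : Fin a → Fin n, C (ψ (mon F i)) * ∏ j, X (m, j, i j)

/-- The coefficient of `X (m, 0, i)` in `Om`. -/
noncomputable def xi (τ a : ℕ) [NeZero a] (ψ : MvPolynomial (Fin n) F →ₗ[F] F)
    (x : Fin τ × Fin n) : MvPolynomial (Yt τ a n) F :=
  ∑ i : Fin a → Fin n with i 0 = x.2, C (ψ (mon F i)) * ∏ j ∈ Finset.univ.erase 0, X (x.1, j, i j)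

/-- The ideal of constraints. -/
noncomputable def idl (τ a : ℕ) (φ : Fin r → MvPolynomial (Fin n) F →ₗ[F] F) :
    Ideal (MvPolynomial (Yt τ a n) F) := Ideal.span (Set.range fun k => Om τ a (φ k))

/-- The shift of the parameters. -/
def shY {τ : ℕ} [NeZero a] (s : Fin τ → Fin a) (u : Yt τ a n) : Yt τ a n :=
  (u.1, u.2.1 + s u.1, u.2.2)

theorem rename_Om {τ : ℕ} [NeZero a] (s : Fin τ → Fin a) (ψ : MvPolynomial (Fin n) F →ₗ[F] F) :
    rename (shY s) (Om τ a ψ) = Om τ a ψ := by
  simp only [Om, map_sum, map_mul, rename_C, map_prod, rename_X]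
  refine Finset.sum_congr rfl fun m _ => ?_
  refine Fintype.sum_equiv (Equiv.arrowCongr (Equiv.addRight (s m)) (Equiv.refl _)) _ _ fun i => ?_
  congr 1
  · congr 2
    exact Fintype.prod_equiv (Equiv.addRight (s m)) _ _ fun j => by simp
  · exact Fintype.prod_equiv (Equiv.addRight (s m)) _ _ fun j => by simp [shY]

/-- The invariants of weight zero. -/
noncomputable def Zinv (F : Type*) [Field F] (τ a n : ℕ) [NeZero a] :
    Subalgebra F (MvPolynomial (Yt τ a n) F) :=
  Algebra.adjoin F {p | ∃ d : ℕ, p.IsWeightedHomogeneous chi ((0, (d : ℤ)) : Gt τ a) ∧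
    ∀ s, rename (shY s) p = p}

variable (E : Type*) [DivisionRing E] [Algebra F E] (τ a : ℕ)
  (φ : Fin r → MvPolynomial (Fin n) F →ₗ[F] F)

/-- The parameter ring. -/
def Rq : Type _ := MvPolynomial (Yt τ a n) F ⧸ idl τ a φ

noncomputable instance : CommRing (Rq τ a φ) :=
  inferInstanceAs (CommRing (MvPolynomial (Yt τ a n) F ⧸ idl τ a φ))

noncomputable instance : Algebra F (Rq τ a φ) :=
  inferInstanceAs (Algebra F (MvPolynomial (Yt τ a n) F ⧸ idl τ a φ))

/-- The quotient map. -/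
noncomputable def mkR : MvPolynomial (Yt τ a n) F →ₐ[F] Rq τ a φ := Ideal.Quotient.mkₐ F _

theorem mkR_surj : Function.Surjective (mkR τ a φ) := Ideal.Quotient.mk_surjective

theorem mkR_eq_zero {p : MvPolynomial (Yt τ a n) F} : mkR τ a φ p = 0 ↔ p ∈ idl τ a φ :=
  Ideal.Quotient.eq_zero_iff_mem

/-- A linear map vanishing on the constraints descends to the parameter ring. -/
theorem exists_liftR {V : Type*} [AddCommGroup V] [Module F V]
    (f : MvPolynomial (Yt τ a n) F →ₗ[F] V) (hf : ∀ p ∈ idl τ a φ, f p = 0) :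
    ∃ f' : Rq τ a φ →ₗ[F] V, ∀ p, f' (mkR τ a φ p) = f p :=
  ⟨((LinearMap.ker (mkR τ a φ).toLinearMap).liftQ f fun p hp =>
      hf p ((mkR_eq_zero τ a φ).mp hp)) ∘ₗ
    ((mkR τ a φ).toLinearMap.quotKerEquivOfSurjective (mkR_surj τ a φ)).symm.toLinearMap,
    fun p => by
      have := LinearMap.quotKerEquivOfSurjective_symm_apply (mkR τ a φ).toLinearMap
        (mkR_surj τ a φ) p
      simp only [AlgHom.toLinearMap_apply] at this
      simp [this]
      rfl⟩

/-- The coefficient ring. -/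
abbrev Ar : Type _ := E ⊗[F] Rq τ a φ

/-- The map from the polynomial ring. -/
noncomputable def evA : MvPolynomial (Yt τ a n) F →ₐ[F] Ar E τ a φ :=
  Algebra.TensorProduct.includeRight.comp (mkR τ a φ)

/-- The map from the division ring. -/
noncomputable def inE : E →ₐ[F] Ar E τ a φ := Algebra.TensorProduct.includeLeft

/-- The span of a set of monomials. -/
noncomputable def Asp (T : Set (Yt τ a n →₀ ℕ)) : Submodule F (Ar E τ a φ) :=
  Submodule.span F {x | ∃ e : E, ∃ α ∈ T, x = inE E τ a φ e * evA E τ a φ (monomial α 1)}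

/-- The action of the polynomial ring on row vectors. -/
noncomputable def evV :
    MvPolynomial (Yt τ a n) F →ₐ[F] Module.End F ((Fin τ → Fin a) → Ar E τ a φ) :=
  (Algebra.lsmul F F ((Fin τ → Fin a) → Ar E τ a φ)).comp (evA E τ a φ)

variable [NeZero a]

/-- The shift automorphism of the parameter ring. -/
noncomputable def shR (s : Fin τ → Fin a) : Rq τ a φ →ₐ[F] Rq τ a φ :=
  Ideal.quotientMapₐ (idl τ a φ) (rename (shY s)) (by
    rw [idl, Ideal.span_le]
    rintro _ ⟨k, rfl⟩
    exact Ideal.mem_comap.mpr (by rw [rename_Om]; exact Ideal.subset_span ⟨k, rfl⟩))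

theorem shR_mkR (s : Fin τ → Fin a) (p : MvPolynomial (Yt τ a n) F) :
    shR τ a φ s (mkR τ a φ p) = mkR τ a φ (rename (shY s) p) := rfl

/-- The shift automorphism. -/
noncomputable def shA (s : Fin τ → Fin a) : Ar E τ a φ →ₐ[F] Ar E τ a φ :=
  Algebra.TensorProduct.map (AlgHom.id F E) (shR τ a φ s)

/-- The twisting factors. -/
def cy {τ a : ℕ} (ζ : F) (m : Fin τ) (ν : Fin τ → Fin a) : F :=
  ζ ^ ∑ k with k < m, (ν k : ℕ)

/-- The twisting factors of the commuting shifts. -/
def cz {τ a : ℕ} (ζ : F) (m : Fin τ) (ν : Fin τ → Fin a) : F :=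
  ζ ^ ∑ k with m < k, (ν k : ℕ)

/-- The coefficients of one cyclic block. -/
noncomputable def gam (ζ : F) (m : Fin τ) (i : Fin n) :
    Matrix (Fin τ → Fin a) (Fin τ → Fin a) (Ar E τ a φ) :=
  Matrix.of fun ν ν' =>
    if ν' = ν + Pi.single m 1 then cy ζ m ν • evA E τ a φ (X (m, ν m, i)) else 0

/-- The coefficients of the linear form. -/
noncomputable def ee (ζ : F) (i : Fin n) :
    Matrix (Fin τ → Fin a) (Fin τ → Fin a) (Ar E τ a φ) := ∑ m, gam E τ a φ ζ m i

/-- The semilinear shift on row vectors. -/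
noncomputable def Sm (ζ : F) (m : Fin τ) : Module.End F ((Fin τ → Fin a) → Ar E τ a φ) where
  toFun v ν := cz ζ m (ν - Pi.single m 1) • shA E τ a φ (Pi.single m 1) (v (ν - Pi.single m 1))
  map_add' v v' := by funext ν; simp
  map_smul' c v := by funext ν; simp [smul_comm c]

/-- The homogeneous equivariant matrices of degree `d`. -/
noncomputable def Hd (ζ : F) (d : ℕ) :
    Submodule F (Matrix (Fin τ → Fin a) (Fin τ → Fin a) (Ar E τ a φ)) where
  carrier := {b | (∀ ν ν', b ν ν' ∈ Asp E τ a φ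
      {α | Finsupp.weight chi α = posn ν - posn ν' + ((0, (d : ℤ)) : Gt τ a)}) ∧
    ∀ m ν ν', cz ζ m ν • b (ν + Pi.single m 1) (ν' + Pi.single m 1) =
      cz ζ m ν' • shA E τ a φ (Pi.single m 1) (b ν ν')}
  add_mem' := by
    rintro b b' ⟨h1, h2⟩ ⟨h1', h2'⟩
    exact ⟨fun ν ν' => add_mem (h1 ν ν') (h1' ν ν'), fun m ν ν' => by
      simp only [Matrix.add_apply, smul_add, map_add, h2, h2']⟩
  zero_mem' := ⟨fun ν ν' => zero_mem _, fun m ν ν' => by simp⟩
  smul_mem' := by
    rintro c b ⟨h1, h2⟩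
    exact ⟨fun ν ν' => Submodule.smul_mem _ c (h1 ν ν'), fun m ν ν' => by
      simp only [Matrix.smul_apply, map_smul, smul_comm _ c, h2]⟩

omit [NeZero a] in
theorem evA_comm (p : MvPolynomial (Yt τ a n) F) (x : Ar E τ a φ) :
    evA E τ a φ p * x = x * evA E τ a φ p := by
  induction x using TensorProduct.induction_on with
  | zero => simp
  | tmul e y => simp [evA, mul_comm]
  | add x y hx hy => rw [mul_add, add_mul, hx, hy]

omit [NeZero a] in
theorem inE_mul (e : E) (x : Ar E τ a φ) : inE E τ a φ e * x = e • x := by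
  induction x using TensorProduct.induction_on with
  | zero => simp
  | tmul e' y => simp [inE, smul_tmul']
  | add x y hx hy => rw [mul_add, smul_add, hx, hy]

omit [NeZero a] in
theorem inE_mul_evA (e : E) (p : MvPolynomial (Yt τ a n) F) :
    inE E τ a φ e * evA E τ a φ p = e ⊗ₜ[F] mkR τ a φ p := by
  simp [inE, evA]

omit [NeZero a] in
theorem evV_apply (p : MvPolynomial (Yt τ a n) F) (v : (Fin τ → Fin a) → Ar E τ a φ)
    (ν : Fin τ → Fin a) : evV E τ a φ p v ν = evA E τ a φ p * v ν := rfl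

omit [NeZero a] in
theorem evA_Om (k : Fin r) : evA E τ a φ (Om τ a (φ k)) = 0 := by
  have : mkR τ a φ (Om τ a (φ k)) = 0 := (mkR_eq_zero τ a φ).mpr (Ideal.subset_span ⟨k, rfl⟩)
  rw [evA, AlgHom.comp_apply, this, map_zero]

theorem shA_inE (s : Fin τ → Fin a) (e : E) : shA E τ a φ s (inE E τ a φ e) = inE E τ a φ e := by
  simp [shA, inE]

theorem shA_evA (s : Fin τ → Fin a) (p : MvPolynomial (Yt τ a n) F) :
    shA E τ a φ s (evA E τ a φ p) = evA E τ a φ (rename (shY s) p) := by
  simp [shA, evA, shR_mkR]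

omit [NeZero a] in
theorem Asp_mono {T T' : Set (Yt τ a n →₀ ℕ)} (h : T ⊆ T') : Asp E τ a φ T ≤ Asp E τ a φ T' :=
  Submodule.span_mono (by rintro _ ⟨e, α, hα, rfl⟩; exact ⟨e, α, h hα, rfl⟩)

omit [NeZero a] in
theorem Asp_mul {T T' T'' : Set (Yt τ a n →₀ ℕ)} (h : ∀ α ∈ T, ∀ β ∈ T', α + β ∈ T'')
    {x y : Ar E τ a φ} (hx : x ∈ Asp E τ a φ T) (hy : y ∈ Asp E τ a φ T') :
    x * y ∈ Asp E τ a φ T'' := by
  have := Submodule.mul_mem_mul hx hy
  rw [Asp, Asp, Submodule.span_mul_span] at this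
  refine Submodule.span_mono ?_ this
  rintro _ ⟨_, ⟨e, α, hα, rfl⟩, _, ⟨e', β, hβ, rfl⟩, rfl⟩
  refine ⟨e * e', α + β, h α hα β hβ, ?_⟩
  simp only
  rw [inE_mul_evA, inE_mul_evA, inE_mul_evA, Algebra.TensorProduct.tmul_mul_tmul, ← map_mul,
    monomial_mul, one_mul]

omit [NeZero a] in
theorem evA_mem_Asp {T : Set (Yt τ a n →₀ ℕ)} {p : MvPolynomial (Yt τ a n) F}
    (h : ∀ α ∈ p.support, α ∈ T) : evA E τ a φ p ∈ Asp E τ a φ T := by
  rw [p.as_sum, map_sum]
  refine Submodule.sum_mem _ fun α hα => ?_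
  rw [← mul_one (coeff α p), ← smul_eq_mul, ← smul_monomial, map_smul]
  exact Submodule.smul_mem _ _ (Submodule.subset_span ⟨1, α, h α hα, by simp⟩)

omit [NeZero a] in
theorem inE_mem_Asp {T : Set (Yt τ a n →₀ ℕ)} (h : (0 : Yt τ a n →₀ ℕ) ∈ T) (e : E) :
    inE E τ a φ e ∈ Asp E τ a φ T :=
  Submodule.subset_span ⟨e, 0, h, by simp⟩

theorem shA_mem_Asp (s : Fin τ → Fin a) {T T' : Set (Yt τ a n →₀ ℕ)}
    (h : ∀ α ∈ T, α.mapDomain (shY s) ∈ T') {x : Ar E τ a φ} (hx : x ∈ Asp E τ a φ T) :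
    shA E τ a φ s x ∈ Asp E τ a φ T' := by
  induction hx using Submodule.span_induction with
  | mem x hx =>
    obtain ⟨e, α, hα, rfl⟩ := hx
    rw [map_mul, shA_inE, shA_evA, rename_monomial]
    exact Submodule.subset_span ⟨e, _, h α hα, rfl⟩
  | zero => simp
  | add x y _ _ hx hy => rw [map_add]; exact add_mem hx hy
  | smul c x _ hx => rw [map_smul]; exact Submodule.smul_mem _ _ hx

end Conc

end Vale.Agent.P200G
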