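import Mathlib
import Vale.Agent.P200G.Defs2

/-! Statements of the steps of the proof. -/

namespace Vale.Agent.P200G

open Module MvPolynomial TensorProduct Vale.Agent.P200

universe u

/-! ### Part A: Hilbert functions -/

/-- Stable subspaces of a finitely generated module are finitely generated; kernels of powers
stabilize. -/
def NoethStm : Prop :=
  ∀ (F W : Type u) (Y : Type) [Field F] [AddCommGroup W] [Module F W] [Fintype Y]
    (ev : MvPolynomial Y F →ₐ[F] Module.End F W), FinG ev →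
    (∀ Z, St ev Z → ∃ s : Finset W, gen ev (s : Set W) = Z) ∧
    ∀ (B : Submodule F W) (p : MvPolynomial Y F), St ev B →
      ∃ k : ℕ, ∀ z, ev (p ^ (k + 1)) z ∈ B → ev (p ^ k) z ∈ B

/-- Subquotients killed by all variables. -/
def BaseStm : Prop :=
  ∀ (F W : Type u) (G Y : Type) [Field F] [AddCommGroup W] [Module F W] [AddCommGroup G]
    [Fintype Y] (γ : Gr F W G) (ev : MvPolynomial Y F →ₐ[F] Module.End F W), FinG ev →
    ∀ Z B : Submodule F W, γ.Hg Z → γ.Hg B → St ev Z → St ev B → B ≤ Z →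
    (∀ u, ∀ z ∈ Z, ev (X u) z ∈ B) →
    ∃ k : AddMonoidAlgebra ℤ G, cf k = γ.h Z - γ.h B ∧ 0 ≤ mom 1 k ∧
      (∀ s : Finset W, (s : Set W) ⊆ Z → Z ≤ B ⊔ gen ev (s : Set W) → mom 1 k ≤ s.card) ∧
      (¬ Z ≤ B → 0 < mom 1 k)

/-- The numerator of the Hilbert series of a module with support of codimension `N`. -/
def SuppStm : Prop :=
  ∀ (F W : Type u) (G Y : Type) [Field F] [AddCommGroup W] [Module F W] [AddCommGroup G]
    [Fintype Y] [DecidableEq Y] (γ : Gr F W G) (ev : MvPolynomial Y F →ₐ[F] Module.End F W)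
    (χ : Y → G), FinG ev → (∀ u, γ.Hom (ev (X u)) (χ u)) →
    ∀ (A : Finset Y) (N : ℕ) (Z B : Submodule F W), γ.Hg Z → γ.Hg B → St ev Z → St ev B → B ≤ Z →
    (∀ u ∉ A, ∀ z ∈ Z, ev (X u) z ∈ B) →
    (∀ σ ⊆ A, A.card < σ.card + N → ∃ p : MvPolynomial Y F, p ≠ 0 ∧ p.vars ⊆ σ ∧
      ∀ z ∈ Z, ev p z ∈ B) →
    ∃ k ∈ Jd χ ^ N, act (∏ u ∈ A, (1 - og (χ u))) (γ.h Z - γ.h B) = cf k

/-- The rank over the polynomial ring. -/
def RankStm : Prop :=
  ∀ (F W : Type u) (Y : Type) [Field F] [AddCommGroup W] [Module F W]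
    [Fintype Y] (γ : Gr F W ℤ) (ev : MvPolynomial Y F →ₐ[F] Module.End F W),
    FinG ev → (∀ u, γ.Hom (ev (X u)) 1) →
    ∀ (Z B : Submodule F W), γ.Hg Z → γ.Hg B → St ev Z → St ev B → B ≤ Z →
    ∃ q : AddMonoidAlgebra ℤ ℤ,
      act ((1 - og (1 : ℤ)) ^ Fintype.card Y) (γ.h Z - γ.h B) = cf q ∧ 0 ≤ mom 1 q ∧
      (∀ s : Finset W, (s : Set W) ⊆ Z → Z ≤ B ⊔ gen ev (s : Set W) → mom 1 q ≤ s.card) ∧
      ∀ v ∈ Z, Z ≤ B ⊔ gen ev {v} → (∀ p, ev p v ∈ B → p = 0) → 0 < mom 1 q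

/-- The double complex. -/
def DblStm : Prop :=
  ∀ (F E V : Type u) (G Y J : Type) [Field F] [DivisionRing E] [Algebra F E] [AddCommGroup V]
    [Module F V] [Module E V] [IsScalarTower F E V] [AddCommGroup G] [Fintype Y] [DecidableEq Y]
    (Γ : Gr F V (G × ZMod 2)) (ev : MvPolynomial Y F →ₐ[F] Module.End F V) (χ : Y → G)
    (r N : ℕ) (δ : G) (d : Module.End F V) (s : Fin r → Module.End F V) (w : J → Y)
    (ε : J → Module.End F V) (A : Finset Y) (M : Submodule F V),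
    FinG ev → (∀ u, Γ.Hom (ev (X u)) (χ u, 0)) →
    (∀ g (e : E) v, Γ.π g (e • v) = e • Γ.π g v) → (∀ u ∉ A, ∃ j, w j = u) →
    Γ.Hom d (0, 1) → (∀ k, Γ.Hom (s k) (δ, 1)) →
    (∀ p v, d (ev p v) = ev p (d v)) → (∀ k p v, s k (ev p v) = ev p (s k v)) →
    (∀ (e : E) v, d (e • v) = e • d v) → (∀ k (e : E) v, s k (e • v) = e • s k v) →
    d * d = 0 → (∀ k, s k * s k = 0) → (∀ k l, s k * s l + s l * s k = 0) →
    (∀ k, d * s k + s k * d = 0) → (∀ j k, ε j * s k + s k * ε j = 0) →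
    (∀ j, d * ε j + ε j * d = ev (X (w j))) →
    Γ.Hg M → St ev M → ES E M → (∀ v ∈ M, d v ∈ M) → (∀ k, ∀ v ∈ M, s k v ∈ M) →
    (∀ j, ∀ v ∈ M, ε j v ∈ M) →
    (∀ σ ⊆ A, A.card < σ.card + N → ∃ p : MvPolynomial Y F, p ≠ 0 ∧ p.vars ⊆ σ ∧
      ∀ k, ∃ ι : Module.End F V, (∀ v ∈ M, ι v ∈ M) ∧
        ∀ l, ι * s l + s l * ι = if l = k then ev p else 0) →
    ∃ κ η : AddMonoidAlgebra ℤ G,
      act (∏ u ∈ A, (1 - og (χ u))) (sd (Γ.h M)) = cf ((1 - og (-δ)) ^ r * κ + η) ∧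
      η ∈ Jd χ ^ N ∧ ∀ g, (finrank F E : ℤ) ∣ cf κ g

/-- The anticommutation relations. -/
def CarStm : Prop :=
  ∀ (F W : Type u) (J : Type) [Field F] [AddCommGroup W] [Module F W] [LinearOrder J] (i j : J),
    io F W i * io F W j + io F W j * io F W i = 0 ∧ io F W i * io F W i = 0 ∧
    ex F W i * ex F W j + ex F W j * ex F W i = 0 ∧ ex F W i * ex F W i = 0 ∧
    io F W i * ex F W j + ex F W j * io F W i = if i = j then 1 else 0

/-- The grading on the exterior algebra with coefficients. -/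
def LamStm : Prop :=
  ∀ (F W : Type u) (G J : Type) [Field F] [AddCommGroup W] [Module F W] [AddCommGroup G]
    [Fintype J] [LinearOrder J] (γ : Gr F W G) (c : J → G),
    ∃ Γ : Gr F (Finset J → W) (G × ZMod 2),
      (∀ g f S, Γ.π g f S =
        if g.2 = (S.card : ZMod 2) then γ.π (g.1 - ∑ j ∈ S, c j) (f S) else 0) ∧
      (∀ j, Γ.Hom (io F W j) (-c j, 1)) ∧ (∀ j, Γ.Hom (ex F W j) (c j, 1)) ∧
      ∀ M : Submodule F W, γ.Hg M →
        sd (Γ.h (Submodule.pi Set.univ fun _ => M)) = act (∏ j, (1 - og (c j))) (γ.h M)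

/-- Modules over a complete intersection which is linear in some of the variables. -/
def TateStm : Prop :=
  ∀ (F E W : Type u) (G Y J : Type) [Field F] [DivisionRing E] [Algebra F E] [AddCommGroup W]
    [Module F W] [Module E W] [IsScalarTower F E W] [AddCommGroup G] [Fintype Y] [DecidableEq Y]
    [Fintype J] (γ : Gr F W G) (ev : MvPolynomial Y F →ₐ[F] Module.End F W) (χ : Y → G)
    (r N : ℕ) (δ : G) (w : J → Y) (ξ : Fin r → J → MvPolynomial Y F) (M : Submodule F W),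
    FinG ev → (∀ u, γ.Hom (ev (X u)) (χ u)) →
    (∀ g (e : E) v, γ.π g (e • v) = e • γ.π g v) → (∀ p (e : E) v, ev p (e • v) = e • ev p v) →
    Function.Injective w → (∀ k j, γ.Hom (ev (ξ k j)) (δ - χ (w j))) →
    (∀ k, ev (∑ j, ξ k j * X (w j)) = 0) → γ.Hg M → St ev M → ES E M →
    (∀ σ : Finset Y, (∀ j, w j ∉ σ) → Fintype.card Y < σ.card + Fintype.card J + N →
      ∃ p : MvPolynomial Y F, p ≠ 0 ∧ p.vars ⊆ σ ∧
        ∀ k, ∃ c : J → MvPolynomial Y F, ∀ l, ∑ j, c j * ξ l j = if l = k then p else 0) →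
    ∃ κ η : AddMonoidAlgebra ℤ G,
      act (∏ u, (1 - og (χ u))) (γ.h M) = cf ((1 - og (-δ)) ^ r * κ + η) ∧
      η ∈ Jd χ ^ N ∧ ∀ g, (finrank F E : ℤ) ∣ cf κ g

/-- Passing to a coarser grading. -/
def CoarseStm : Prop :=
  ∀ (F W : Type u) (G Y : Type) [Field F] [AddCommGroup W] [Module F W] [AddCommGroup G]
    [Fintype Y] (γ : Gr F W G) (γ' : Gr F W ℤ) (dg : G →+ ℤ) (χ : Y → G) (M : Submodule F W),
    (∀ g, γ.pc g ≤ γ'.pc (dg g)) → (∀ u, dg (χ u) = 1) → γ.Hg M →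
    γ'.Hg M ∧ ∀ k : AddMonoidAlgebra ℤ G, act (∏ u, (1 - og (χ u))) (γ.h M) = cf k →
      ∃ k' : AddMonoidAlgebra ℤ ℤ, act ((1 - og (1 : ℤ)) ^ Fintype.card Y) (γ'.h M) = cf k' ∧
        ∀ f : ℤ → ℤ, mom f k' = mom (fun g => f (dg g)) k

/-- Moments of low degree vanish on powers of the augmentation ideal; finite differences. -/
def PolyStm : Prop :=
  ∀ (G : Type) [AddCommGroup G],
    (∀ (Y ι : Type) (χ : Y → G) (N : ℕ) (t : Finset ι) (θ : ι → G →+ ℤ), t.card < N →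
      ∀ η ∈ Jd χ ^ N, mom (fun g => ∏ i ∈ t, θ i g) η = 0) ∧
    ∀ (dg : G →+ ℤ) (δ : G) (f : G → ℤ) (r : ℕ) (κ : AddMonoidAlgebra ℤ G),
      (∀ g, f (g - δ) = f g) →
      mom (fun g => f g * dg g ^ r) ((1 - og (-δ)) ^ r * κ) = dg δ ^ r * r.factorial * mom f κ

/-- Cyclic invariance gives one factor `a` for each block. -/
def DetectStm : Prop :=
  ∀ (τ a n r : ℕ) [NeZero a] (h : Gt τ a → ℤ) (K : AddMonoidAlgebra ℤ (Gt τ a)),
    act (∏ u : Yt τ a n, (1 - og (chi u))) h = cf K → (∀ m g, h (rot m g) = h g) →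
    (∀ g, h g ≠ 0 → ∀ m, ∑ j, g.1 (m, j) = 1) →
    mom (fun g => g.2 ^ r) K = (a : ℤ) ^ τ * mom (fun g => (∏ m, g.1 (m, 0)) * g.2 ^ r) K

/-! ### Part B: the codimension of the degeneracy locus -/

/-- A point of the degeneracy locus with algebraically independent coordinates. -/
def CodimAStm : Prop :=
  ∀ (F : Type u) (Y J : Type) [Field F] [DecidableEq Y] [Fintype J] (r : ℕ)
    (ξ : Fin r → J → MvPolynomial Y F) (σ : Finset Y),
    (¬ ∃ p : MvPolynomial Y F, p ≠ 0 ∧ p.vars ⊆ σ ∧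
        ∀ k, ∃ c : J → MvPolynomial Y F, ∀ l, ∑ j, c j * ξ l j = if l = k then p else 0) →
    ∃ (L : Type u) (_ : Field L) (_ : Algebra F L) (η : Y → L) (lam : Fin r → L),
      AlgebraicIndependent F (fun u : σ => η u) ∧ lam ≠ 0 ∧
      ∀ j, ∑ l, lam l * aeval η (ξ l j) = 0

/-- The functional is a multiple of a point evaluation in degree `d`. -/
def IsEv {L : Type*} [Field L] {n : ℕ} (d : ℕ) (ψ : MvPolynomial (Fin n) L →ₗ[L] L) : Prop :=
  ∃ (c : L) (p : Fin n → L), ∀ q : MvPolynomial (Fin n) L, q.IsHomogeneous d → ψ q = c * eval p q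

/-- The functional vanishes in degree `d`. -/
def IsZ {L : Type*} [Field L] {n : ℕ} (d : ℕ) (ψ : MvPolynomial (Fin n) L →ₗ[L] L) : Prop :=
  ∀ q : MvPolynomial (Fin n) L, q.IsHomogeneous d → ψ q = 0

/-- The functional `ψ (ℓ * ·)` for the linear form `ℓ` with coefficients `v`. -/
noncomputable def cat {L : Type*} [Field L] {n : ℕ} (ψ : MvPolynomial (Fin n) L →ₗ[L] L)
    (v : Fin n → L) : MvPolynomial (Fin n) L →ₗ[L] L :=
  ψ ∘ₗ LinearMap.mulLeft L (∑ i, v i • (X i : MvPolynomial (Fin n) L))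

/-- All two by two minors of the catalecticant matrix in degree `d + 1` vanish. -/
def Rk1 {L : Type*} [Field L] {n : ℕ} (d : ℕ) (ψ : MvPolynomial (Fin n) L →ₗ[L] L) : Prop :=
  ∀ (β β' : Fin n →₀ ℕ) (i j : Fin n), β.degree = d → β'.degree = d →
    ψ (monomial β 1 * X i) * ψ (monomial β' 1 * X j) =
      ψ (monomial β 1 * X j) * ψ (monomial β' 1 * X i)

/-- Catalecticant rank at most one. -/
def CatStm : Prop :=
  ∀ (L : Type u) [Field L] (n d : ℕ) (ψ : MvPolynomial (Fin n) L →ₗ[L] L),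
    (Rk1 d ψ ↔ IsEv (d + 1) ψ) ∧ ((∀ v, Rk1 (d + 1) (cat ψ v)) → Rk1 (d + 2) ψ)

/-- Gains in transcendence degree. -/
def GainStm : Prop :=
  ∀ (F L : Type u) [Field F] [Field L] [Algebra F L] (n : ℕ) (T : Set L) (v : Fin n → L),
    (∀ p : MvPolynomial (Fin n) L, p ≠ 0 →
      (∀ α, p.coeff α ∈ (AlgebraicIndependent.matroid F L).closure T) → eval v p = 0 →
      (AlgebraicIndependent.matroid F L).eRk (T ∪ Set.range v) + 1 ≤
        (AlgebraicIndependent.matroid F L).eRk T + n) ∧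
    ∀ c c' : Fin n → L, (∀ i, c i ∈ (AlgebraicIndependent.matroid F L).closure T) →
      (∀ i, c' i ∈ (AlgebraicIndependent.matroid F L).closure T) →
      (∃ i j, c i * c' j ≠ c j * c' i) → ∑ i, c i * v i = 0 → ∑ i, c' i * v i = 0 →
      (AlgebraicIndependent.matroid F L).eRk (T ∪ Set.range v) + 2 ≤
        (AlgebraicIndependent.matroid F L).eRk T + n

/-- One block imposes two conditions. -/
def CodimBStm : Prop :=
  ∀ (F L : Type u) [Field F] [Field L] [Algebra F L] (n d : ℕ) (T : Set L)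
    (ψ : MvPolynomial (Fin n) L →ₗ[L] L) (v : Fin d → Fin n → L),
    (∀ α, ψ (monomial α 1) ∈ (AlgebraicIndependent.matroid F L).closure T) →
    ¬ IsEv (d + 1) ψ →
    (∀ i, ψ ((∏ j, ∑ i', v j i' • (X i' : MvPolynomial (Fin n) L)) * X i) = 0) →
    (AlgebraicIndependent.matroid F L).eRk (T ∪ {x | ∃ j i, x = v j i}) + 2 ≤
      (AlgebraicIndependent.matroid F L).eRk T + (d * n : ℕ)

/-- The degeneracy locus has large codimension. -/
def CodimStm : Prop :=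
  ∀ (F : Type u) [Field F] (τ a n r : ℕ) [NeZero a] (φ : Fin r → MvPolynomial (Fin n) F →ₗ[F] F),
    NoPt a φ → 2 * r + 1 ≤ τ → ∀ σ : Finset (Yt τ a n), (∀ m i, (m, 0, i) ∉ σ) →
    τ * (a * n) < σ.card + τ * n + (r + τ + 1) →
    ∃ p : MvPolynomial (Yt τ a n) F, p ≠ 0 ∧ p.vars ⊆ σ ∧
      ∀ k, ∃ c : Fin τ × Fin n → MvPolynomial (Yt τ a n) F,
        ∀ l, ∑ x, c x * xi τ a (φ l) x = if l = k then p else 0

/-! ### Part C: the concrete algebra -/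

/-- Quotients by polynomials with pure powers as leading forms are free. -/
def MonicStm : Prop :=
  ∀ (Z : Type u) [CommRing Z] (r a : ℕ) (Ω : Fin r → MvPolynomial (Fin r) Z),
    (∀ k, ∀ α ∈ (Ω k - X k ^ a).support, α.degree < a) →
    (∀ p, ∃ v : MvPolynomial (Fin r) Z, (∀ α ∈ v.support, ∀ k, α k < a) ∧
      p - v ∈ Ideal.span (Set.range Ω)) ∧
    ∀ v : MvPolynomial (Fin r) Z, (∀ α ∈ v.support, ∀ k, α k < a) →
      v ∈ Ideal.span (Set.range Ω) → v = 0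

/-- A linear Noether normalization of the parameter ring. -/
def ThetaStm : Prop :=
  ∀ (F : Type u) [Field F] (τ a n r : ℕ) [NeZero a] (φ : Fin r → MvPolynomial (Fin n) F →ₗ[F] F),
    Ech a φ → r ≤ τ →
    ∃ (Y' : Type) (_ : Fintype Y') (z : Y' → MvPolynomial (Yt τ a n) F)
      (s : Finset (MvPolynomial (Yt τ a n) F)),
      Fintype.card Y' + r = Fintype.card (Yt τ a n) ∧ (∀ u, (z u).IsHomogeneous 1) ∧
      s.card ≤ a ^ r ∧
      (∀ p : MvPolynomial Y' F, p ≠ 0 → ∀ x, aeval z p * x ∈ idl τ a φ → x ∈ idl τ a φ) ∧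
      ∀ x, ∃ c : MvPolynomial (Yt τ a n) F → MvPolynomial Y' F,
        x - ∑ b ∈ s, aeval z (c b) * b ∈ idl τ a φ

/-- Gradings of the coefficient ring. -/
def GrAStm : Prop :=
  ∀ (F E : Type u) (G : Type) [Field F] [DivisionRing E] [Algebra F E] [FiniteDimensional F E]
    [AddCommGroup G] (τ a n r : ℕ) (φ : Fin r → MvPolynomial (Fin n) F →ₗ[F] F)
    (χ : Yt τ a n → G) (δ : G), (∀ m (i : Fin a → Fin n), ∑ j, χ (m, j, i j) = δ) →
    (∀ g, {α : Yt τ a n →₀ ℕ | Finsupp.weight χ α = g}.Finite) →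
    ∃ γ : Gr F (Ar E τ a φ) G, (∀ g, γ.pc g = Asp E τ a φ {α | Finsupp.weight χ α = g}) ∧
      ∀ g (e : E) x, γ.π g (e • x) = e • γ.π g x

/-- Invariance and support of the Hilbert function of a shift invariant subspace. -/
def InvStm : Prop :=
  ∀ (F E : Type u) [Field F] [DivisionRing E] [Algebra F E] (τ a n r : ℕ) [NeZero a]
    (φ : Fin r → MvPolynomial (Fin n) F →ₗ[F] F) (ζ : F) (γ : Gr F (Ar E τ a φ) (Gt τ a))
    (M : Submodule F ((Fin τ → Fin a) → Ar E τ a φ)), ζ ^ a = 1 →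
    (∀ g, γ.pc g = Asp E τ a φ {α | Finsupp.weight chi α = g}) → (γ.pi posn).Hg M →
    (∀ m, ∀ v ∈ M, Sm E τ a φ ζ m v ∈ M) →
    (∀ m g, (γ.pi posn).h M (rot m g) = (γ.pi posn).h M g) ∧
      ∀ g, (γ.pi posn).h M g ≠ 0 → ∀ m, ∑ j, g.1 (m, j) = 1

/-- Divisibility of the rank. -/
def VDivStm : Prop :=
  ∀ (F E : Type u) [Field F] [DivisionRing E] [Algebra F E] [FiniteDimensional F E]
    (τ a n r : ℕ) [NeZero a] (φ : Fin r → MvPolynomial (Fin n) F →ₗ[F] F) (ζ : F)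
    (γ : Gr F (Ar E τ a φ) (Gt τ a)) (γ' : Gr F (Ar E τ a φ) ℤ)
    (M : Submodule F ((Fin τ → Fin a) → Ar E τ a φ)), NoPt a φ → 2 * r + 1 ≤ τ → ζ ^ a = 1 →
    (∀ g, γ.pc g = Asp E τ a φ {α | Finsupp.weight chi α = g}) →
    (∀ g (e : E) x, γ.π g (e • x) = e • γ.π g x) →
    (∀ g, γ'.pc g = Asp E τ a φ {α | Finsupp.weight (fun _ => (1 : ℤ)) α = g}) →
    (γ.pi posn).Hg M → St (evV E τ a φ) M → ES E M → (∀ m, ∀ v ∈ M, Sm E τ a φ ζ m v ∈ M) →
    (γ'.pi fun _ => 0).Hg M ∧ ∀ (c : ℕ) (q : AddMonoidAlgebra ℤ ℤ),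
      c + r = Fintype.card (Yt τ a n) →
      act ((1 - og (1 : ℤ)) ^ c) ((γ'.pi fun _ => 0).h M) = cf q →
      ((finrank F E * a ^ τ * a ^ r : ℕ) : ℤ) ∣ mom 1 q

/-- Rank of subspaces of the module of row vectors. -/
def VRankStm : Prop :=
  ∀ (F E : Type u) [Field F] [DivisionRing E] [Algebra F E] [FiniteDimensional F E]
    (τ a n r : ℕ) [NeZero a] (φ : Fin r → MvPolynomial (Fin n) F →ₗ[F] F)
    (γ' : Gr F (Ar E τ a φ) ℤ), Ech a φ → r ≤ τ →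
    (∀ g, γ'.pc g = Asp E τ a φ {α | Finsupp.weight (fun _ => (1 : ℤ)) α = g}) →
    ∃ c : ℕ, c + r = Fintype.card (Yt τ a n) ∧
      ∀ Z B : Submodule F ((Fin τ → Fin a) → Ar E τ a φ),
        (γ'.pi fun _ => 0).Hg Z → (γ'.pi fun _ => 0).Hg B → St (evV E τ a φ) Z →
        St (evV E τ a φ) B → B ≤ Z →
        ∃ q : AddMonoidAlgebra ℤ ℤ, act ((1 - og (1 : ℤ)) ^ c)
            ((γ'.pi fun _ => 0).h Z - (γ'.pi fun _ => 0).h B) = cf q ∧ 0 ≤ mom 1 q ∧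
          (Z = ⊤ → mom 1 q ≤ ((finrank F E * a ^ τ * a ^ r : ℕ) : ℤ)) ∧
          (B = ⊥ → Z ≠ ⊥ → 0 < mom 1 q)

/-- No homogeneous zero divisors. -/
def HomDomStm : Prop :=
  ∀ (F E : Type u) [Field F] [DivisionRing E] [Algebra F E] [FiniteDimensional F E]
    (τ a n r : ℕ) [NeZero a] (φ : Fin r → MvPolynomial (Fin n) F →ₗ[F] F) (ζ : F),
    Ech a φ → NoPt a φ → 2 * r + 1 ≤ τ → ζ ^ a = 1 →
    ∀ d d', ∀ b ∈ Hd E τ a φ ζ d, ∀ b' ∈ Hd E τ a φ ζ d', b * b' = 0 → b = 0 ∨ b' = 0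

/-- Membership and multiplicativity properties of the homogeneous equivariant matrices. -/
def HdStm : Prop :=
  ∀ (F E : Type u) [Field F] [DivisionRing E] [Algebra F E] [FiniteDimensional F E]
    (τ a n r : ℕ) [NeZero a] (φ : Fin r → MvPolynomial (Fin n) F →ₗ[F] F) (ζ : F), ζ ^ a = 1 →
    (∀ d d', ∀ b ∈ Hd E τ a φ ζ d, ∀ b' ∈ Hd E τ a φ ζ d', b * b' ∈ Hd E τ a φ ζ (d + d')) ∧
    (∀ e : E, Matrix.scalar _ (inE E τ a φ e) ∈ Hd E τ a φ ζ 0) ∧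
    (∀ i, ee E τ a φ ζ i ∈ Hd E τ a φ ζ 1) ∧
    (∀ (d : ℕ) (p : MvPolynomial (Yt τ a n) F),
      p.IsWeightedHomogeneous chi ((0, (d : ℤ)) : Gt τ a) → (∀ s, rename (shY s) p = p) →
      Matrix.scalar _ (evA E τ a φ p) ∈ Hd E τ a φ ζ d) ∧
    iSupIndep (Hd E τ a φ ζ)

/-- A graded subalgebra without homogeneous zero divisors. -/
def GrDomStm : Prop :=
  ∀ (F B : Type u) [Field F] [Ring B] [Algebra F B] (H : ℕ → Submodule F B),
    (∀ d d', ∀ b ∈ H d, ∀ b' ∈ H d', b * b' ∈ H (d + d')) → (1 : B) ∈ H 0 → iSupIndep H →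
    (∀ d d', ∀ b ∈ H d, ∀ b' ∈ H d', b * b' = 0 → b = 0 ∨ b' = 0) →
    ∃ C : Subalgebra F B, Subalgebra.toSubmodule C = ⨆ d, H d ∧
      ∀ b ∈ C, ∀ b' ∈ C, b * b' = 0 → b = 0 ∨ b' = 0

/-- Existence of the root of unity. -/
def QBStm : Prop :=
  ∀ (K F : Type u) [Field K] [IsAlgClosed K] [Field F] [Algebra K F] (a : ℕ), 0 < a →
    ∃ ζ : F, QB ζ a

/-- The power of the linear form. -/
def BlockStm : Prop :=
  ∀ (F E : Type u) [Field F] [DivisionRing E] [Algebra F E] (τ a n r : ℕ) [NeZero a]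
    (φ : Fin r → MvPolynomial (Fin n) F →ₗ[F] F) (ζ : F), QB ζ a →
    (∀ (e : E) i, Matrix.scalar _ (inE E τ a φ e) * ee E τ a φ ζ i =
      ee E τ a φ ζ i * Matrix.scalar _ (inE E τ a φ e)) ∧
    ∀ ψ : MvPolynomial (Fin n) F →ₗ[F] F,
      TT a (algebraMap F _) (ee E τ a φ ζ) ψ = Matrix.scalar _ (evA E τ a φ (Om τ a ψ))

/-- The value of a functional on the power of a linear form. -/
def PowStm : Prop :=
  ∀ (K D : Type u) [Field K] [Ring D] [Algebra K D] (a n : ℕ) (e : Fin n → D),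
    (∑ i, e i ⊗ₜ[K] (X i : MvPolynomial (Fin n) K)) ^ a =
      ∑ i : Fin a → Fin n, (List.ofFn fun j => e (i j)).prod ⊗ₜ[K] mon K i

/-- Independence properties. -/
def IndepStm : Prop :=
  ∀ (F E : Type u) [Field F] [DivisionRing E] [Algebra F E] (τ a n r : ℕ) [NeZero a]
    (φ : Fin r → MvPolynomial (Fin n) F →ₗ[F] F) (ζ : F), 2 ≤ a → 1 ≤ τ → ζ ^ a = 1 →
    Nontrivial (Ar E τ a φ) ∧
    (∀ c : Fin n → E, ∑ i, Matrix.scalar _ (inE E τ a φ (c i)) * ee E τ a φ ζ i = 0 → c = 0) ∧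
    ∀ (q : ℕ) (ψ : Fin q → MvPolynomial (Fin n) F →ₗ[F] F) (g : Fin q → MvPolynomial (Fin n) F),
      (∀ l, (g l).IsHomogeneous a) → (∀ k l, φ k (g l) = 0) →
      (∀ l l', ψ l (g l') = if l = l' then 1 else 0) →
      ∀ c : Fin q → E, ∑ l, inE E τ a φ (c l) * evA E τ a φ (Om τ a (ψ l)) = 0 → c = 0

/-- Weight spaces are finite over the invariants. -/
def FinPStm : Prop :=
  ∀ (F : Type u) [Field F] (τ a n : ℕ) [NeZero a] (x : Fin τ × Fin a → ℤ),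
    ∃ s : Finset (MvPolynomial (Yt τ a n) F), ∀ α : Yt τ a n →₀ ℕ,
      (Finsupp.weight chi α).1 = x →
      monomial α (1 : F) ∈ Submodule.span (Zinv F τ a n) (s : Set (MvPolynomial (Yt τ a n) F))

/-- The division ring of fractions of a domain which is finite over a central subring. -/
def PackStm : Prop :=
  ∀ (K F B : Type u) [Field K] [Field F] [Algebra K F] [Ring B] [Algebra F B] [Nontrivial B]
    (C Z : Subalgebra F B) (s : Finset B), Z ≤ C → (∀ z ∈ Z, ∀ b, z * b = b * z) →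
    (∀ b ∈ C, ∀ b' ∈ C, b * b' = 0 → b = 0 ∨ b' = 0) →
    (∀ b ∈ C, ∃ c : B → B, (∀ y, c y ∈ Z) ∧ b = ∑ y ∈ s, c y * y) →
    ∃ (E' : DivExt K) (j : C →+* E'.D), Function.Injective j ∧
      ∀ x : K, E'.κ x = j (algebraMap F C (algebraMap K F x))

/-- The matrices are finite over the invariants. -/
def FinBStm : Prop :=
  ∀ (F E : Type u) [Field F] [DivisionRing E] [Algebra F E] [FiniteDimensional F E]
    (τ a n r : ℕ) [NeZero a] (φ : Fin r → MvPolynomial (Fin n) F →ₗ[F] F) (ζ : F),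
    ∃ s : Finset (Matrix (Fin τ → Fin a) (Fin τ → Fin a) (Ar E τ a φ)),
      ∀ b ∈ ⨆ d, Hd E τ a φ ζ d, ∃ c : _ → MvPolynomial (Yt τ a n) F,
        (∀ y, c y ∈ Zinv F τ a n) ∧ b = ∑ y ∈ s, Matrix.scalar _ (evA E τ a φ (c y)) * y

/-- The properties of the coefficients of a new linear form over a subring `T`. -/
structure NewRow {K D : Type*} [Field K] [Ring D] {n r : ℕ} (a : ℕ) (κ : K →+* D)
    (φ : Fin r → MvPolynomial (Fin n) K →ₗ[K] K) (T : Set D) (e : Fin n → D) : Prop where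
  comm : ∀ c ∈ T, ∀ i, c * e i = e i * c
  zero : ∀ k, TT a κ e (φ k) = 0
  ind : ∀ c : Fin n → D, (∀ i, c i ∈ T) → ∑ i, c i * e i = 0 → c = 0
  inda : ∀ (q : ℕ) (ψ : Fin q → MvPolynomial (Fin n) K →ₗ[K] K)
    (g : Fin q → MvPolynomial (Fin n) K), (∀ l, (g l).IsHomogeneous a) → (∀ k l, φ k (g l) = 0) →
    (∀ l l', ψ l (g l') = if l = l' then 1 else 0) →
    ∀ c : Fin q → D, (∀ l, c l ∈ T) → ∑ l, c l * TT a κ e (ψ l) = 0 → c = 0

/-- One step over the centre. -/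
def StepFStm : Prop :=
  ∀ (K : Type u) [Field K] (E : DivExt K) (a n r : ℕ)
    (φ : Fin r → MvPolynomial (Fin n) E.F →ₗ[E.F] E.F) (ζ : E.F), 2 ≤ a → QB ζ a →
    Ech a φ → NoPt a φ →
    ∃ (E' : DivExt K) (j : E.D →+* E'.D) (e : Fin n → E'.D), (∀ x, j (E.κ x) = E'.κ x) ∧
      NewRow a (j.comp (algebraMap E.F E.D)) φ (Set.range j) e

/-- One step of the tower. -/
def StepStm : Prop :=
  ∀ (K : Type u) [Field K] [IsAlgClosed K] (E : DivExt K) (a n r : ℕ)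
    (φ : Fin r → MvPolynomial (Fin n) K →ₗ[K] K), 2 ≤ a → Ech a φ → NoPt a φ →
    ∃ (E' : DivExt K) (j : E.D →+* E'.D) (e : Fin n → E'.D), (∀ x, j (E.κ x) = E'.κ x) ∧
      NewRow a E'.κ φ (Set.range j) e

/-- The tower. -/
def TowerStm : Prop :=
  ∀ (K : Type u) [Field K] [IsAlgClosed K] (a n r s : ℕ)
    (φ : Fin r → MvPolynomial (Fin n) K →ₗ[K] K), 2 ≤ a → Ech a φ → NoPt a φ →
    ∃ (E : DivExt K) (e : Fin s → Fin n → E.D) (T : Fin s → Subfield E.D),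
      (∀ i x, E.κ x ∈ T i) ∧ (∀ i i' j, i' < i → e i' j ∈ T i) ∧
      ∀ i, NewRow a E.κ φ (T i) (e i)

end Vale.Agent.P200G
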