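import Mathlib
import Vale.Agent.P200G.Stm

/-! Statements of the steps of the proof: from the tower to the monomial ideal. -/

namespace Vale.Agent.P200G

open Module MvPolynomial TensorProduct Vale.Agent.P200

universe u

/-- A new row is not in the span of fewer than `q` old rows. -/
def RowStm : Prop :=
  ∀ (D : Type u) [DivisionRing D] (q m s : ℕ) (v₀ : Fin m → Fin q → D) (v : Fin s → Fin q → D)
    (T : Fin s → Subfield D), m + s ≤ q → LinearIndependent D v₀ →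
    (∀ i k j, v₀ k j ∈ T i) → (∀ i i' j, i' < i → v i' j ∈ T i) →
    (∀ i, ∀ c ∈ T i, ∀ j, c * v i j = v i j * c) →
    (∀ i, ∀ c : Fin q → D, (∀ j, c j ∈ T i) → ∑ j, c j * v i j = 0 → c = 0) →
    LinearIndependent D (Fin.append v₀ v)

/-- A regular sequence of maximal length generates everything in large degree. -/
def ColenStm : Prop :=
  ∀ (K : Type u) [Field K] (n : ℕ) (f : Fin n → MvPolynomial (Fin n) K) (dg : Fin n → ℕ),
    (∀ i, (f i).IsHomogeneous (dg i)) → (∀ i, 1 ≤ dg i) →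
    RingTheory.Sequence.IsWeaklyRegular (MvPolynomial (Fin n) K) (List.ofFn f) →
    (∃ d₀, ∀ d ≥ d₀, ∀ p : MvPolynomial (Fin n) K, p.IsHomogeneous d →
      p ∈ Ideal.span (Set.range f)) ∧
    ∀ i, f i ∉ Ideal.span (f '' {j | j < i})

/-- Equations of a base point free linear system. -/
def EchStm : Prop :=
  ∀ (K : Type u) [Field K] (n a : ℕ) (I : Ideal (MvPolynomial (Fin n) K))
    (f : Fin n → MvPolynomial (Fin n) K) (dg : Fin n → ℕ), 1 ≤ a →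
    (∀ i, (f i).IsHomogeneous (dg i)) → (∀ i, dg i ≤ a) → (∀ i, f i ∈ I) →
    (∀ j, ∃ d, (X j : MvPolynomial (Fin n) K) ^ d ∈ Ideal.span (Set.range f)) →
    ∃ (r : ℕ) (φ : Fin r → MvPolynomial (Fin n) K →ₗ[K] K), Ech a φ ∧ NoPt a φ ∧
      ∀ g : MvPolynomial (Fin n) K, g.IsHomogeneous a → (g ∈ I ↔ ∀ k, φ k g = 0)

/-- Linear algebra: dual bases, base change and completion by coordinate vectors. -/
def DualStm : Prop :=
  ∀ (K D S : Type u) [Field K] [DivisionRing D] [Algebra K D] [CommRing S] [Algebra K S],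
    (∀ (P Q : Submodule K S) (s : ℕ) (w : Fin s → S), Q ≤ P →
      P ≤ Q ⊔ Submodule.span K (Set.range w) →
      ∃ q ≤ s, ∃ (g : Fin q → S) (ψ : Fin q → S →ₗ[K] K), (∀ l, g l ∈ P) ∧
        (∀ l l', ψ l (g l') = if l = l' then 1 else 0) ∧ ∀ p ∈ P, p - ∑ l, ψ l p • g l ∈ Q) ∧
    (∀ (P Q : Submodule K S) (q : ℕ) (g : Fin q → S) (ψ : Fin q → S →ₗ[K] K),
      (∀ p ∈ P, p - ∑ l, ψ l p • g l ∈ Q) → ∀ x ∈ P.baseChange D,
        x - ∑ l, ev (D := D) (ψ l) x • ((1 : D) ⊗ₜ[K] g l) ∈ Q.baseChange D) ∧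
    (∀ (m n : ℕ) (v : Fin m → Fin n → K), LinearIndependent K v →
      LinearIndependent D fun i j => algebraMap K D (v i j)) ∧
    ∀ (m : ℕ) (v : Fin m → Fin (m + 2) → D), LinearIndependent D v →
      ∃ j₀ j₁ : Fin (m + 2), Submodule.span D
        (Set.range v ∪ {Pi.single j₀ 1, Pi.single j₁ 1}) = ⊤

/-- Commuting linear forms with division ring coefficients. `f i` for `i < c` is the regular
sequence, `f i` for `c ≤ i` are linear forms. -/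
structure Forms {K D : Type*} [Field K] [DivisionRing D] [Algebra K D] {n : ℕ} (c a : ℕ)
    (f : Fin n → MvPolynomial (Fin n) K) (y : Fin n → D ⊗[K] MvPolynomial (Fin n) K) : Prop where
  comm : ∀ i j, y i * y j = y j * y i
  deg : ∀ i, y i ∈ (homogeneousSubmodule (Fin n) K 1).baseChange D
  span : ∀ j, (1 : D) ⊗ₜ[K] (X j : MvPolynomial (Fin n) K) ∈ Submodule.span D (Set.range y)
  lin : ∀ i : Fin n, c ≤ i.val → y i = (1 : D) ⊗ₜ[K] f i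
  pow : ∀ i : Fin n, 2 ≤ i.val → i.val < c →
    y i ^ a ∈ (idealDeg (Ideal.span (Set.range f)) a).baseChange D
  back : ∀ k : Fin n, 2 ≤ k.val → k.val < c → (1 : D) ⊗ₜ[K] f k ∈
    (idealDeg (Ideal.span (f '' {j | j.val < 2 ∨ c ≤ j.val})) a).baseChange D ⊔
      Submodule.span D ((fun i => y i ^ a) '' {i | 2 ≤ i.val ∧ i.val < c})

/-- Existence of the commuting linear forms. -/
def FormsStm : Prop :=
  ∀ (K : Type u) [Field K] [IsAlgClosed K] (n c a : ℕ) (f : Fin n → MvPolynomial (Fin n) K)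
    (dg : Fin n → ℕ), 2 ≤ c → c ≤ n → 2 ≤ a → (∀ i, (f i).IsHomogeneous (dg i)) →
    (∀ i, 1 ≤ dg i) → (∀ i, dg i ≤ a) → (∀ i : Fin n, 2 ≤ i.val → i.val < c → dg i = a) →
    (∀ i : Fin n, c ≤ i.val → dg i = 1) →
    RingTheory.Sequence.IsWeaklyRegular (MvPolynomial (Fin n) K) (List.ofFn f) →
    ∃ (D : Type u) (_ : DivisionRing D) (_ : Algebra K D)
      (y : Fin n → D ⊗[K] MvPolynomial (Fin n) K), Forms c a f y

/-- Multiplication by a monomial on the left vector space spanned by the monomials. -/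
noncomputable def sh (D : Type*) [DivisionRing D] {M : Type*} [Add M] (x : M) :
    (M →₀ D) →ₗ[D] (M →₀ D) := Finsupp.lmapDomain D D (· + x)

/-- A graded family of subspaces of the span of the monomials in two variables, closed under
multiplication by the variables. -/
def Cl2 {D : Type*} [DivisionRing D] (U : ℕ → Submodule D (ℕ × ℕ →₀ D)) : Prop :=
  ∀ d, ∀ p ∈ U d, sh D ((1, 0) : ℕ × ℕ) p ∈ U (d + 1) ∧ sh D ((0, 1) : ℕ × ℕ) p ∈ U (d + 1)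

/-- The forms of degree `d` in two variables. -/
noncomputable def V2 (D : Type*) [DivisionRing D] (d : ℕ) : Submodule D (ℕ × ℕ →₀ D) :=
  Finsupp.supported D D {x : ℕ × ℕ | x.1 + x.2 = d}

/-- The numerical conditions in two variables (`v d` is the dimension of the ideal). -/
structure Num2 (a₁ a₂ : ℕ) (v : ℕ → ℕ) : Prop where
  le : ∀ d, v d ≤ d + 1
  mac : ∀ d, 0 < v d → v d + 1 ≤ v (d + 1)
  fst : 0 < v a₁
  snd : ∀ d, a₂ ≤ d + 1 → v d ≤ d → v d + 2 ≤ v (d + 1)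

/-- Left ideals in two variables containing two forms of finite colength. -/
def TwoVarStm : Prop :=
  ∀ (D : Type u) [DivisionRing D] (a₁ a₂ d₀ : ℕ) (J : ℕ → Submodule D (ℕ × ℕ →₀ D))
    (f₁ f₂ : ℕ × ℕ →₀ D), 1 ≤ a₁ → a₁ ≤ a₂ → (∀ d, J d ≤ V2 D d) → Cl2 J → f₁ ∈ J a₁ → f₂ ∈ J a₂ →
    (∀ U : ℕ → Submodule D (ℕ × ℕ →₀ D), Cl2 U → f₁ ∈ U a₁ → f₂ ∈ U a₂ →
      ∀ d ≥ d₀, V2 D d ≤ U d) →
    Num2 a₁ a₂ fun d => finrank D (J d)

/-- The hypotheses on a graded left ideal in commuting variables. -/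
structure IdD {D : Type*} [DivisionRing D] {m : ℕ} (c a a₁ a₂ d₀ : ℕ)
    (N : ℕ → Submodule D ((Fin (m + 2) →₀ ℕ) →₀ D)) (f₁ f₂ : (Fin (m + 2) →₀ ℕ) →₀ D) : Prop where
  deg : ∀ d, N d ≤ Finsupp.supported D D {γ | γ.degree = d}
  cl : ∀ d i, ∀ p ∈ N d, sh D (Finsupp.single i 1) p ∈ N (d + 1)
  mem₁ : f₁ ∈ N a₁
  mem₂ : f₂ ∈ N a₂
  pow : ∀ i : Fin (m + 2), 2 ≤ i.val → i.val < c → Finsupp.single (Finsupp.single i a) (1 : D) ∈
    N a ⊔ Finsupp.supported D D {γ | γ.degree = a ∧ ∃ j : Fin (m + 2), c ≤ j.val ∧ γ j ≠ 0}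
  col : ∀ U : ℕ → Submodule D ((Fin (m + 2) →₀ ℕ) →₀ D),
    (∀ d i, ∀ p ∈ U d, sh D (Finsupp.single i 1) p ∈ U (d + 1)) → f₁ ∈ U a₁ → f₂ ∈ U a₂ →
    (∀ (γ : Fin (m + 2) →₀ ℕ) (j : Fin (m + 2)), 2 ≤ j.val → γ j ≠ 0 →
      Finsupp.single γ (1 : D) ∈ U γ.degree) →
    ∀ γ : Fin (m + 2) →₀ ℕ, d₀ ≤ γ.degree → Finsupp.single γ (1 : D) ∈ U γ.degree

/-- Slicing along the monomials in the last variables. -/
def SliceStm : Prop :=
  ∀ (D : Type u) [DivisionRing D] (m c a a₁ a₂ d₀ : ℕ)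
    (N : ℕ → Submodule D ((Fin (m + 2) →₀ ℕ) →₀ D)) (f₁ f₂ : (Fin (m + 2) →₀ ℕ) →₀ D),
    IdD c a a₁ a₂ d₀ N f₁ f₂ →
    ∃ (J : (Fin m →₀ ℕ) → ℕ → Submodule D (ℕ × ℕ →₀ D)) (g₁ g₂ : ℕ × ℕ →₀ D),
      (∀ β d, J β d ≤ V2 D d) ∧ (∀ β, Cl2 (J β)) ∧ (∀ β β' d, β ≤ β' → J β d ≤ J β' d) ∧
      g₁ ∈ J 0 a₁ ∧ g₂ ∈ J 0 a₂ ∧
      (∀ U : ℕ → Submodule D (ℕ × ℕ →₀ D), Cl2 U → g₁ ∈ U a₁ → g₂ ∈ U a₂ →
        ∀ d ≥ d₀, V2 D d ≤ U d) ∧
      (∀ i : Fin m, i.val + 2 < c → J (Finsupp.single i a) 0 ≠ ⊥) ∧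
      ∀ d, finrank D (N d) =
        ∑ k ∈ Finset.range (d + 1), ∑ β ∈ monos m k, finrank D (J β (d - k))

open Classical in
/-- The monomial ideal with prescribed slices. -/
def LppStm : Prop :=
  ∀ (m a₁ a₂ : ℕ) (v : (Fin m →₀ ℕ) → ℕ → ℕ), 1 ≤ a₁ → a₁ ≤ a₂ → (∀ β, Num2 a₁ a₂ (v β)) →
    (∀ β β' d, β ≤ β' → v β d ≤ v β' d) →
    ∃ 𝓜 : Set (Fin (m + 2) →₀ ℕ), IsUpperSet 𝓜 ∧
      (∀ d, ((monos (m + 2) d).filter (· ∈ 𝓜)).card =
        ∑ k ∈ Finset.range (d + 1), ∑ β ∈ monos m k, v β (d - k)) ∧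
      Finsupp.single 0 a₁ ∈ 𝓜 ∧ Finsupp.single 1 a₂ ∈ 𝓜 ∧
      ∀ (i : Fin m) (b : ℕ), 0 < v (Finsupp.single i b) 0 → Finsupp.single i.succ.succ b ∈ 𝓜

/-- Transport to the span of the monomials in the commuting linear forms. -/
def TransStm : Prop :=
  ∀ (K D : Type u) [Field K] [DivisionRing D] [Algebra K D] (m c a d₀ : ℕ)
    (f : Fin (m + 2) → MvPolynomial (Fin (m + 2)) K) (dg : Fin (m + 2) → ℕ)
    (y : Fin (m + 2) → D ⊗[K] MvPolynomial (Fin (m + 2)) K)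
    (I : Ideal (MvPolynomial (Fin (m + 2)) K)), 2 ≤ c → 1 ≤ a →
    (∀ i, (f i).IsHomogeneous (dg i)) → (∀ i : Fin (m + 2), 2 ≤ i.val → i.val < c → dg i = a) →
    (∀ i : Fin (m + 2), c ≤ i.val → dg i = 1) →
    (∀ d ≥ d₀, ∀ p : MvPolynomial (Fin (m + 2)) K, p.IsHomogeneous d →
      p ∈ Ideal.span (Set.range f)) →
    Forms c a f y → (∀ i : Fin (m + 2), i.val < c → f i ∈ I) →
    ∃ (N : ℕ → Submodule D ((Fin (m + 2) →₀ ℕ) →₀ D)) (f₁ f₂ : (Fin (m + 2) →₀ ℕ) →₀ D),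
      IdD c a (dg 0) (dg 1) d₀ N f₁ f₂ ∧ ∀ d, finrank D (N d) = finrank K (idealDeg I d)

open Classical in
/-- The theorem over an algebraically closed field. -/
def ClosedStm : Prop :=
  ∀ (K : Type u) [Field K] [IsAlgClosed K] (n c : ℕ) (hc : c ≤ n) (a : Fin c → ℕ)
    (f : Fin c → MvPolynomial (Fin n) K), 2 ≤ c → (∀ i, 2 ≤ a i) → Monotone a →
    (∀ i j : Fin c, 2 ≤ i.val → 2 ≤ j.val → a i = a j) → (∀ i, (f i).IsHomogeneous (a i)) →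
    RingTheory.Sequence.IsWeaklyRegular (MvPolynomial (Fin n) K) (List.ofFn f) →
    ∀ I : Ideal (MvPolynomial (Fin n) K), (∀ i, f i ∈ I) →
    ∃ 𝓜 : Set (Fin n →₀ ℕ), IsUpperSet 𝓜 ∧
      (∀ d, ((monos n d).filter (· ∈ 𝓜)).card = finrank K (idealDeg I d)) ∧
      ∀ i : Fin c, Finsupp.single (Fin.castLE hc i) (a i) ∈ 𝓜

end Vale.Agent.P200G
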