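import Mathlib
import Vale.Agent.P200G.Stm2

/-! The power of the linear form built from cyclic blocks. -/

namespace Vale.Agent.P200G

open Module MvPolynomial TensorProduct

universe u

namespace BlockAux

section Wsh

variable {N P : Type*} [AddCommGroup N] [Fintype N] [DecidableEq N] [CommRing P]

/-- Weighted shifts. -/
def wsh (g : N) (c : N → P) : Matrix N N P := Matrix.of fun ν ν' => if ν' = ν + g then c ν else 0

theorem wsh_mul (g g' : N) (c c' : N → P) :
    wsh g c * wsh g' c' = wsh (g + g') fun ν => c ν * c' (ν + g) := by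
  ext ν ν'
  rw [Matrix.mul_apply, Finset.sum_eq_single (ν + g) (fun j _ hj => by simp [wsh, hj]) (by simp)]
  simp [wsh, add_assoc]

omit [Fintype N] in
theorem wsh_one : wsh (0 : N) (fun _ => (1 : P)) = 1 := by
  ext ν ν'
  simp [wsh, Matrix.one_apply, eq_comm]

end Wsh

variable {F : Type u} [Field F] {τ a n : ℕ} [NeZero a] {ζ : F}

theorem val_nsmul (k : ℕ) : ((k • (1 : Fin a) : Fin a) : ℕ) = k % a := by
  induction k with
  | zero => simp
  | succ k ih => rw [succ_nsmul, Fin.val_add, ih, Fin.val_one', ← Nat.add_mod]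

omit [NeZero a] in
theorem cy_add (h : ζ ^ a = 1) (m : Fin τ) (ν g : Fin τ → Fin a) :
    cy ζ m (ν + g) = cy ζ m ν * cy ζ m g := by
  simp only [cy, ← Finset.prod_pow_eq_pow_sum, ← Finset.prod_mul_distrib]
  refine Finset.prod_congr rfl fun k _ => ?_
  rw [Pi.add_apply, Fin.val_add, ← pow_eq_pow_mod _ h, pow_add]

theorem cy_single (h : ζ ^ a = 1) (m m' : Fin τ) :
    cy ζ m' (Pi.single m 1 : Fin τ → Fin a) = if m < m' then ζ else 1 := by
  have e : ∀ k, ζ ^ (((Pi.single m 1 : Fin τ → Fin a) k : Fin a) : ℕ) = if k = m then ζ else 1 := by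
    intro k
    split_ifs with hk
    · rw [hk, Pi.single_eq_same, Fin.val_one', ← pow_eq_pow_mod _ h, pow_one]
    · rw [Pi.single_eq_of_ne hk, Fin.val_zero, pow_zero]
  simp [cy, ← Finset.prod_pow_eq_pow_sum, e]

theorem cy_nsmul (h : ζ ^ a = 1) (m : Fin τ) (k : ℕ) :
    cy ζ m (k • (Pi.single m 1 : Fin τ → Fin a)) = 1 := by
  induction k with
  | zero => simp [cy]
  | succ k ih => rw [succ_nsmul, cy_add h, ih, cy_single h, if_neg (lt_irrefl m), one_mul]

/-- The block over the polynomial ring. -/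
noncomputable def gP (ζ : F) (m : Fin τ) (i : Fin n) :
    Matrix (Fin τ → Fin a) (Fin τ → Fin a) (MvPolynomial (Yt τ a n) F) :=
  wsh (Pi.single m 1) fun ν => cy ζ m ν • X (m, ν m, i)

theorem gP_comm (h : ζ ^ a = 1) {m m' : Fin τ} (hm : m < m') (i i' : Fin n) :
    gP (a := a) ζ m i * gP ζ m' i' = ζ • (gP ζ m' i' * gP ζ m i) := by
  unfold gP
  rw [wsh_mul, wsh_mul, add_comm (Pi.single m' 1)]
  ext1 ν ν'
  simp only [wsh, Matrix.smul_apply, Matrix.of_apply, cy_add h, cy_single h, if_pos hm,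
    if_neg hm.not_gt, Pi.add_apply, Pi.single_eq_of_ne hm.ne, Pi.single_eq_of_ne hm.ne', add_zero,
    smul_eq_C_mul, map_mul, map_one]
  split_ifs
  · ring
  · simp

theorem gP_word (h : ζ ^ a = 1) (m : Fin τ) : ∀ (k : ℕ) (i : Fin k → Fin n),
    (List.ofFn fun j => gP (a := a) ζ m (i j)).prod = wsh (k • Pi.single m 1)
      fun ν => cy ζ m ν ^ k • ∏ j : Fin k, X (m, ν m + (j : ℕ) • (1 : Fin a), i j)
  | 0, _ => by simp [wsh_one]
  | k + 1, i => by
    rw [List.ofFn_succ', List.prod_concat, gP_word h m k fun j => i j.castSucc, gP, wsh_mul,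
      succ_nsmul]
    congr 1
    funext ν
    rw [cy_add h, cy_nsmul h, mul_one, Fin.prod_univ_castSucc, smul_mul_smul_comm, pow_succ]
    simp

theorem sum_pow {B : Type u} [Ring B] [Algebra F B] (hQ : QB ζ a) (t : Fin τ → B)
    (h : ∀ m m', m < m' → t m * t m' = ζ • (t m' * t m)) (s : Finset (Fin τ)) :
    (∑ m ∈ s, t m) ^ a = ∑ m ∈ s, t m ^ a := by
  induction s using Finset.induction_on_max with
  | empty => simp [NeZero.ne a]
  | insert m s hm ih =>
    have hs : m ∉ s := fun h => lt_irrefl _ (hm m h)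
    rw [Finset.sum_insert hs, Finset.sum_insert hs, add_comm, hQ.2, ih, add_comm]
    rw [Finset.sum_mul, Finset.mul_sum, Finset.smul_sum]
    exact Finset.sum_congr rfl fun k hk => h k m (hm k hk)

theorem TT_sum (hPow : PowStm.{u}) {B : Type u} [Ring B] [Algebra F B] (hQ : QB ζ a)
    (g : Fin τ → Fin n → B) (h : ∀ m m', m < m' → ∀ i i', g m i * g m' i' = ζ • (g m' i' * g m i))
    (ψ : MvPolynomial (Fin n) F →ₗ[F] F) :
    TT a (algebraMap F B) (fun i => ∑ m, g m i) ψ = ∑ m, TT a (algebraMap F B) (g m) ψ := by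
  have e : ∀ e : Fin n → B, TT a (algebraMap F B) e ψ = TensorProduct.rid F B
      (ψ.lTensor B ((∑ i, e i ⊗ₜ[F] (X i : MvPolynomial (Fin n) F)) ^ a)) := fun e => by
    rw [hPow F B a n e]
    simp [TT, Algebra.smul_def]
  have e2 := sum_pow hQ (fun m => ∑ i, g m i ⊗ₜ[F] (X i : MvPolynomial (Fin n) F))
    (fun m m' hm => by
      simp only [Finset.sum_mul, Finset.mul_sum, Finset.smul_sum,
        Algebra.TensorProduct.tmul_mul_tmul]
      rw [Finset.sum_comm]
      refine Finset.sum_congr rfl fun i _ => Finset.sum_congr rfl fun i' _ => ?_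
      rw [h m m' hm, mul_comm (X _), smul_tmul']) Finset.univ
  simp only [e, sum_tmul]
  rw [Finset.sum_comm, e2, map_sum, map_sum]

theorem TT_P (hPow : PowStm.{u}) (hQ : QB ζ a) (ψ : MvPolynomial (Fin n) F →ₗ[F] F) :
    TT a (algebraMap F _) (fun i => ∑ m : Fin τ, gP (a := a) ζ m i) ψ =
      Matrix.scalar _ (Om τ a ψ) := by
  have e1 : ∀ j : Fin a, (j : ℕ) • (1 : Fin a) = j := fun j =>
    Fin.ext (by rw [val_nsmul, Nat.mod_eq_of_lt j.2])
  have e2 : ∀ m : Fin τ, a • (Pi.single m 1 : Fin τ → Fin a) = 0 := fun m => by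
    rw [← Pi.single_nsmul, show a • (1 : Fin a) = 0 from Fin.ext (by simp [val_nsmul]),
      Pi.single_zero]
  have e3 : ∀ (m : Fin τ) (ν : Fin τ → Fin a), cy ζ m ν ^ a = 1 := fun m ν => by
    rw [cy, ← pow_mul, mul_comm, pow_mul, hQ.1, one_pow]
  rw [TT_sum hPow hQ _ fun m m' hm => gP_comm hQ.1 hm]
  ext1 ν ν'
  simp only [TT, gP_word hQ.1, e1, e2, e3, one_smul, ← Algebra.smul_def, Matrix.sum_apply,
    Matrix.smul_apply, wsh, Matrix.of_apply, add_zero, Matrix.scalar_apply, Matrix.diagonal_apply,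
    eq_comm (a := ν')]
  split_ifs
  · rw [← rename_Om ν ψ]
    simp [Om, shY, smul_eq_C_mul, add_comm]
  · simp

end BlockAux

open BlockAux

theorem blockP (hPow : PowStm.{u}) : BlockStm.{u} := by
  intro F E _ _ _ τ a n r _ φ ζ hQ
  have e : ∀ i, ee E τ a φ ζ i = (evA E τ a φ).mapMatrix (∑ m : Fin τ, gP ζ m i) := fun i => by
    rw [map_sum]
    refine Finset.sum_congr rfl fun m _ => ?_
    ext1 ν ν'
    by_cases h : ν' = ν + Pi.single m 1 <;> simp [gam, gP, wsh, h]
  refine ⟨fun c i => ?_, fun ψ => ?_⟩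
  · rw [e]
    generalize (∑ m : Fin τ, gP (a := a) ζ m i) = M
    ext1 ν ν'
    simp [evA_comm]
  · have h := congrArg (evA E τ a φ).mapMatrix (TT_P (τ := τ) hPow hQ ψ)
    simp only [TT, map_sum _ _ Finset.univ, map_mul, AlgHom.commutes, map_list_prod,
      List.map_ofFn] at h
    simp only [TT, e]
    refine h.trans ?_
    ext1 ν ν'
    by_cases h : ν = ν' <;> simp [h]

end Vale.Agent.P200G
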