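import Mathlib
import Vale.Agent.P200G.Stm2

/-! The anticommutation relations. -/

namespace Vale.Agent.P200G

universe u

namespace CarAux

variable (F : Type*) {W J : Type*} [Field F] [AddCommGroup W] [Module F W] [LinearOrder J]

def ta (i j : J) : F := if i < j then -1 else 1

theorem ta_sq (i j : J) : ta F i j * ta F i j = 1 := by
  unfold ta
  split_ifs <;> simp

theorem ta_self (i : J) : ta F i i = 1 := if_neg (lt_irrefl i)

theorem ta_swap {i j : J} (h : i ≠ j) : ta F j i = -ta F i j := by
  unfold ta
  rcases lt_or_gt_of_ne h with h | h
  · simp [h, h.not_gt]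
  · simp [h, h.not_gt]

theorem sgn_sq (j : J) (S : Finset J) : sgn F j S * sgn F j S = 1 := by
  rw [sgn, ← mul_pow]
  simp

theorem sgn_insert (j : J) {i : J} {S : Finset J} (h : i ∉ S) :
    sgn F j (insert i S) = ta F i j * sgn F j S := by
  unfold sgn ta
  rw [Finset.filter_insert]
  split_ifs with e
  · rw [Finset.card_insert_of_notMem fun h' => h (Finset.mem_filter.1 h').1, pow_succ, mul_comm]
  · rw [one_mul]

theorem sgn_erase (j : J) {i : J} {S : Finset J} (h : i ∈ S) :
    sgn F j (S.erase i) = ta F i j * sgn F j S := by
  conv_rhs => rw [← Finset.insert_erase h, sgn_insert F j (Finset.notMem_erase i S), ← mul_assoc,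
    ta_sq, one_mul]

theorem io_ap (j : J) (f : Finset J → W) (S : Finset J) :
    io F W j f S = if j ∈ S then 0 else sgn F j S • f (insert j S) := rfl

theorem ex_ap (j : J) (f : Finset J → W) (S : Finset J) :
    ex F W j f S = if j ∈ S then sgn F j S • f (S.erase j) else 0 := rfl

theorem io_io (i : J) : io F W i * io F W i = 0 := by
  refine LinearMap.ext fun f => funext fun S => ?_
  simp [io_ap]

theorem ex_ex (i : J) : ex F W i * ex F W i = 0 := by
  refine LinearMap.ext fun f => funext fun S => ?_
  simp [ex_ap]

end CarAux

open CarAux in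
theorem carP : CarStm.{u} := by
  intro F W J _ _ _ _ i j
  refine ⟨?_, io_io F i, ?_, ex_ex F i, ?_⟩
  · rcases eq_or_ne i j with rfl | h
    · rw [io_io, add_zero]
    refine LinearMap.ext fun f => funext fun S => ?_
    by_cases hi : i ∈ S <;> by_cases hj : j ∈ S <;>
      simp only [LinearMap.add_apply, Module.End.mul_apply, Pi.add_apply, io_ap, hi, hj, h, h.symm,
        Finset.mem_insert, if_true, if_false, or_true, or_false, smul_zero, add_zero,
        LinearMap.zero_apply, Pi.zero_apply]
    rw [sgn_insert F j hi, sgn_insert F i hj, ta_swap F h, Finset.insert_comm j i, smul_smul,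
      smul_smul, ← add_smul]
    convert zero_smul F _
    ring
  · rcases eq_or_ne i j with rfl | h
    · rw [ex_ex, add_zero]
    refine LinearMap.ext fun f => funext fun S => ?_
    by_cases hi : i ∈ S <;> by_cases hj : j ∈ S <;>
      simp only [LinearMap.add_apply, Module.End.mul_apply, Pi.add_apply, ex_ap, hi, hj, h, h.symm,
        Finset.mem_erase, if_true, if_false, and_true, and_false, smul_zero, add_zero, ne_eq,
        not_false_eq_true, LinearMap.zero_apply, Pi.zero_apply]
    rw [sgn_erase F j hi, sgn_erase F i hj, ta_swap F h, Finset.erase_right_comm (a := j),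
      smul_smul, smul_smul, ← add_smul]
    convert zero_smul F _
    ring
  · rcases eq_or_ne i j with rfl | h
    · rw [if_pos rfl]
      refine LinearMap.ext fun f => funext fun S => ?_
      by_cases hi : i ∈ S <;>
        simp only [LinearMap.add_apply, Module.End.mul_apply, Pi.add_apply, io_ap, ex_ap, hi,
          Finset.mem_insert_self, Finset.notMem_erase, if_true, if_false, zero_add, add_zero,
          Module.End.one_apply]
      · rw [sgn_erase F i hi, ta_self, one_mul, smul_smul, sgn_sq, one_smul,
          Finset.insert_erase hi]
      · rw [sgn_insert F i hi, ta_self, one_mul, smul_smul, sgn_sq, one_smul,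
          Finset.erase_insert hi]
    · rw [if_neg h]
      refine LinearMap.ext fun f => funext fun S => ?_
      by_cases hi : i ∈ S <;> by_cases hj : j ∈ S <;>
        simp only [LinearMap.add_apply, Module.End.mul_apply, Pi.add_apply, io_ap, ex_ap, hi, hj,
          h, h.symm, Finset.mem_insert, Finset.mem_erase, if_true, if_false, or_true, or_false,
          and_true, and_false, ne_eq, not_false_eq_true, smul_zero, add_zero,
          LinearMap.zero_apply, Pi.zero_apply]
      rw [sgn_insert F j hi, sgn_erase F i hj, ta_swap F h, Finset.erase_insert_of_ne h,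
        smul_smul, smul_smul, ← add_smul]
      convert zero_smul F _
      ring

end Vale.Agent.P200G
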