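import Mathlib
import Vale.Agent.P200G.Stm2

/-! Catalecticant rank at most one. -/

namespace Vale.Agent.P200G

open Module MvPolynomial

universe u

namespace CatAux

variable {L : Type*} [Field L] {n : ℕ}

/-- The value of a monomial. -/
noncomputable def M (p : Fin n → L) (γ : Fin n →₀ ℕ) : L := eval p (monomial γ 1)

theorem M_add (p : Fin n → L) (α β : Fin n →₀ ℕ) : M p (α + β) = M p α * M p β := by
  rw [M, M, M, ← map_mul, monomial_mul, one_mul]

theorem M_single (p : Fin n → L) (i : Fin n) (k : ℕ) : M p (Finsupp.single i k) = p i ^ k := by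
  rw [M, ← X_pow_eq_monomial, map_pow, eval_X]

theorem M_one (p : Fin n → L) (i : Fin n) : M p (Finsupp.single i 1) = p i := by
  rw [M_single, pow_one]

theorem M_zero (p : Fin n → L) : M p 0 = 1 := by simp [M]

theorem mul_X (β : Fin n →₀ ℕ) (i : Fin n) :
    (monomial β (1 : L) * X i : MvPolynomial (Fin n) L) = monomial (β + Finsupp.single i 1) 1 := by
  rw [X, monomial_mul, one_mul]

theorem split {α : Fin n →₀ ℕ} {m : ℕ} (h : α.degree = m + 1) :
    ∃ α' i, α'.degree = m ∧ α = α' + Finsupp.single i 1 := by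
  have h0 : α ≠ 0 := by
    rintro rfl
    simp at h
  obtain ⟨i, hi⟩ := Finsupp.ne_iff.1 h0
  have e : α = α - Finsupp.single i 1 + Finsupp.single i 1 :=
    (tsub_add_cancel_of_le (Finsupp.single_le_iff.2 (Nat.pos_of_ne_zero hi))).symm
  refine ⟨_, i, ?_, e⟩
  rw [e, map_add, Finsupp.degree_single] at h
  omega

theorem ev_of {d : ℕ} (f : (Fin n →₀ ℕ) → L)
    (h : ∀ (β β' : Fin n →₀ ℕ) (i j : Fin n), β.degree = d → β'.degree = d →
      f (β + Finsupp.single i 1) * f (β' + Finsupp.single j 1) =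
        f (β + Finsupp.single j 1) * f (β' + Finsupp.single i 1)) :
    ∃ (c : L) (p : Fin n → L), ∀ γ : Fin n →₀ ℕ, γ.degree = d + 1 → f γ = c * M p γ := by
  by_cases h0 : ∀ (β : Fin n →₀ ℕ) (j : Fin n), β.degree = d → f (β + Finsupp.single j 1) = 0
  · refine ⟨0, 0, fun γ hγ => ?_⟩
    obtain ⟨β, i, h1, rfl⟩ := split hγ
    rw [h0 β i h1, zero_mul]
  push Not at h0
  obtain ⟨β0, j, h1, h2⟩ := h0
  set p : Fin n → L := fun i => f (β0 + Finsupp.single i 1) with hp
  have key : ∀ (m : ℕ) (α : Fin n →₀ ℕ) (k : ℕ), α.degree = m → m + k = d + 1 →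
      f (α + Finsupp.single j k) * p j ^ m = f (Finsupp.single j (d + 1)) * M p α := by
    intro m
    induction m with
    | zero =>
      intro α k a1 a2
      rw [(Finsupp.degree_eq_zero_iff α).1 a1, M_zero, zero_add, pow_zero, ← a2, zero_add]
    | succ m ih =>
      intro α k a1 a2
      obtain ⟨α', i, a3, rfl⟩ := split a1
      have a4 := ih α' (k + 1) a3 (by omega)
      have a5 := h (α' + Finsupp.single j k) β0 i j
        (by rw [map_add, Finsupp.degree_single]; omega) h1
      rw [add_assoc α' _ (Finsupp.single j 1), ← Finsupp.single_add] at a5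
      rw [add_right_comm, M_add, M_one, pow_succ]
      linear_combination p j ^ m * a5 + p i * a4
  refine ⟨f (Finsupp.single j (d + 1)) / p j ^ (d + 1), p, fun γ hγ => ?_⟩
  have := key (d + 1) γ 0 hγ rfl
  rw [Finsupp.single_zero, add_zero] at this
  rw [div_mul_eq_mul_div, eq_div_iff (pow_ne_zero _ h2), this]

theorem isEv_iff {d : ℕ} {ψ : MvPolynomial (Fin n) L →ₗ[L] L} : IsEv d ψ ↔
    ∃ (c : L) (p : Fin n → L), ∀ γ : Fin n →₀ ℕ, γ.degree = d → ψ (monomial γ 1) = c * M p γ := by
  refine exists_congr fun c => exists_congr fun p =>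
    ⟨fun h γ hγ => h _ (isHomogeneous_monomial _ hγ), fun h q hq => ?_⟩
  rw [q.as_sum, map_sum, map_sum, Finset.mul_sum]
  refine Finset.sum_congr rfl fun γ hγ => ?_
  have e : (monomial γ (coeff γ q) : MvPolynomial (Fin n) L) = coeff γ q • monomial γ 1 := by
    rw [smul_monomial, smul_eq_mul, mul_one]
  rw [e, map_smul, smul_eval, h γ (hq.degree_eq_sum_deg_support hγ).symm, smul_eq_mul, M]
  ring

theorem first (d : ℕ) (ψ : MvPolynomial (Fin n) L →ₗ[L] L) : Rk1 d ψ ↔ IsEv (d + 1) ψ := by
  rw [isEv_iff]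
  simp only [Rk1, mul_X]
  refine ⟨ev_of fun γ => ψ (monomial γ 1), fun ⟨c, p, h⟩ β β' i j h1 h2 => ?_⟩
  have e : ∀ (β : Fin n →₀ ℕ) (i : Fin n), β.degree = d →
      ψ (monomial (β + Finsupp.single i 1) 1) = c * (M p β * p i) := fun β i hβ => by
    rw [h _ (by rw [map_add, Finsupp.degree_single, hβ]), M_add, M_one]
  rw [e β i h1, e β j h1, e β' i h2, e β' j h2]
  ring

theorem prop_of {d : ℕ} {p q : Fin n → L}
    (h : ∀ (B B' : Fin n →₀ ℕ) (k l : Fin n), B.degree = d + 1 → B'.degree = d + 1 →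
      (p k * q l - p l * q k) * (M p B * M q B' - M q B * M p B') = 0) (k l : Fin n) :
    p k * q l = p l * q k := by
  by_contra hne
  have h1 : ∀ B B' : Fin n →₀ ℕ, B.degree = d + 1 → B'.degree = d + 1 →
      M p B * M q B' = M q B * M p B' := fun B B' a b =>
    sub_eq_zero.1 ((mul_eq_zero.1 (h B B' k l a b)).resolve_left (sub_ne_zero.2 hne))
  by_cases h2 : ∀ s, p s * q s = 0
  · have h3 := h1 (Finsupp.single k (d + 1)) (Finsupp.single l (d + 1)) (Finsupp.degree_single _ _)
      (Finsupp.degree_single _ _)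
    simp only [M_single, ← mul_pow] at h3
    have h4 : p k * q l * (q k * p l) = 0 := by linear_combination p l * q l * h2 k
    rcases mul_eq_zero.1 h4 with h5 | h5
    · rw [h5, zero_pow (Nat.succ_ne_zero d)] at h3
      exact hne (by rw [h5, mul_comm, pow_eq_zero_iff (Nat.succ_ne_zero d) |>.1 h3.symm])
    · rw [h5, zero_pow (Nat.succ_ne_zero d)] at h3
      exact hne (by rw [mul_comm (p l), h5, pow_eq_zero_iff (Nat.succ_ne_zero d) |>.1 h3])
  · obtain ⟨s, hs⟩ := not_forall.1 h2
    have h3 := h1 (Finsupp.single s d + Finsupp.single k 1) (Finsupp.single s d + Finsupp.single l 1)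
      (by rw [map_add, Finsupp.degree_single, Finsupp.degree_single])
      (by rw [map_add, Finsupp.degree_single, Finsupp.degree_single])
    simp only [M_add, M_single, pow_one] at h3
    refine hne (mul_left_cancel₀ (pow_ne_zero d hs) ?_)
    rw [mul_pow]
    linear_combination h3

theorem prop_M {p q : Fin n → L} (h : ∀ k l, p k * q l = p l * q k) (m : ℕ) :
    ∀ β β' : Fin n →₀ ℕ, β.degree = m → β'.degree = m → M p β * M q β' = M q β * M p β' := by
  induction m with
  | zero =>
    intro β β' a b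
    rw [(Finsupp.degree_eq_zero_iff β).1 a, (Finsupp.degree_eq_zero_iff β').1 b, M_zero, M_zero]
  | succ m ih =>
    intro β β' a b
    obtain ⟨α, k, a1, rfl⟩ := split a
    obtain ⟨α', l, a2, rfl⟩ := split b
    simp only [M_add, M_one]
    linear_combination p k * q l * ih α α' a1 a2 + M q α * M p α' * h k l

theorem cat_single (ψ : MvPolynomial (Fin n) L →ₗ[L] L) (i : Fin n) (q : MvPolynomial (Fin n) L) :
    cat ψ (Pi.single i 1) q = ψ (q * X i) := by
  simp [cat, Pi.single_apply, mul_comm]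

theorem cat_add (ψ : MvPolynomial (Fin n) L →ₗ[L] L) (v w : Fin n → L)
    (q : MvPolynomial (Fin n) L) : cat ψ (v + w) q = cat ψ v q + cat ψ w q := by
  simp [cat, add_smul, Finset.sum_add_distrib, add_mul]

end CatAux

open CatAux in
theorem catP : CatStm.{u} := by
  intro L _ n d ψ
  refine ⟨first d ψ, fun h β β' i j h1 h2 => ?_⟩
  obtain ⟨c, p, hp⟩ := isEv_iff.1 ((first _ _).1 (h (Pi.single i 1)))
  obtain ⟨c', q, hq⟩ := isEv_iff.1 ((first _ _).1 (h (Pi.single j 1)))
  rw [← cat_single, ← cat_single, ← cat_single, ← cat_single, hp β h1, hp β' h2, hq β h1, hq β' h2]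
  by_cases hc : c * c' = 0
  · linear_combination (M p β * M q β' - M q β * M p β') * hc
  have key := prop_M (prop_of (d := d) (p := p) (q := q) fun B B' k l a b => ?_) _ β β' h1 h2
  · linear_combination c * c' * key
  · have h3 := h (Pi.single i 1 + Pi.single j 1) B B' k l a b
    have e : ∀ (B : Fin n →₀ ℕ) (k : Fin n), B.degree = d + 1 →
        cat ψ (Pi.single i 1 + Pi.single j 1) (monomial B 1 * X k) =
          c * (M p B * p k) + c' * (M q B * q k) := fun B k hB => by
      have hd : (B + Finsupp.single k 1).degree = d + 1 + 1 := by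
        rw [map_add, Finsupp.degree_single, hB]
      rw [cat_add, mul_X, hp _ hd, hq _ hd, M_add, M_add, M_one, M_one]
    rw [e B k a, e B l a, e B' k b, e B' l b] at h3
    exact mul_left_cancel₀ hc (by linear_combination h3)

end Vale.Agent.P200G
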