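import Mathlib
import Vale.Agent.P200G.Stm2

/-! The theorem over an algebraically closed field, from the steps. -/

namespace Vale.Agent.P200G

open Module MvPolynomial TensorProduct Vale.Agent.P200

universe u

namespace ClosedAux

open Classical in
theorem core (hColen : ColenStm.{u}) (hForms : FormsStm.{u}) (hTrans : TransStm.{u})
    (hSlice : SliceStm.{u}) (hTwoVar : TwoVarStm.{u}) (hLpp : LppStm)
    (K : Type u) [Field K] [IsAlgClosed K] (n c A : ℕ) (F : Fin n → MvPolynomial (Fin n) K)
    (dg : Fin n → ℕ) (h2 : 2 ≤ c) (hc : c ≤ n) (hA : 2 ≤ A) (hF : ∀ i, (F i).IsHomogeneous (dg i))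
    (h1 : ∀ i, 1 ≤ dg i) (hle : ∀ i, dg i ≤ A) (heq : ∀ i : Fin n, 2 ≤ i.val → i.val < c → dg i = A)
    (hlin : ∀ i : Fin n, c ≤ i.val → dg i = 1)
    (hmono : ∀ i j : Fin n, i ≤ j → j.val < c → dg i ≤ dg j)
    (hreg : RingTheory.Sequence.IsWeaklyRegular (MvPolynomial (Fin n) K) (List.ofFn F))
    (I : Ideal (MvPolynomial (Fin n) K)) (hI : ∀ i : Fin n, i.val < c → F i ∈ I) :
    ∃ 𝓜 : Set (Fin n →₀ ℕ), IsUpperSet 𝓜 ∧
      (∀ d, ((monos n d).filter (· ∈ 𝓜)).card = finrank K (idealDeg I d)) ∧
      ∀ i : Fin n, i.val < c → Finsupp.single i (dg i) ∈ 𝓜 := by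
  obtain ⟨m, rfl⟩ : ∃ m, n = m + 2 := ⟨n - 2, by omega⟩
  obtain ⟨⟨d₀, hd₀⟩, -⟩ := hColen K _ F dg hF h1 hreg
  obtain ⟨D, _, _, y, hy⟩ := hForms K _ c A F dg h2 hc hA hF h1 hle heq hlin hreg
  obtain ⟨N, f₁, f₂, hN, hNd⟩ := hTrans K D m c A d₀ F dg y I h2 (by omega) hF heq hlin hd₀ hy hI
  obtain ⟨J, g₁, g₂, j1, j2, j3, j4, j5, j6, j7, j8⟩ := hSlice D m c A _ _ d₀ N f₁ f₂ hN
  have h01 : dg 0 ≤ dg 1 := hmono 0 1 (Fin.zero_le _) (by
    change 1 < c
    omega)
  have hfd : ∀ β d, FiniteDimensional D (J β d) := fun β d => by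
    have hfin : Set.Finite {x : ℕ × ℕ | x.1 + x.2 = d} :=
      ((Set.finite_Iic d).prod (Set.finite_Iic d)).subset fun x hx => by
        have hx' : x.1 + x.2 = d := hx
        exact ⟨show x.1 ≤ d by omega, show x.2 ≤ d by omega⟩
    have := hfin.to_subtype
    have : FiniteDimensional D (V2 D d) :=
      (Finsupp.supportedEquivFinsupp (R := D) (M := D)
        {x : ℕ × ℕ | x.1 + x.2 = d}).symm.finiteDimensional
    exact Submodule.finiteDimensional_of_le (j1 β d)
  obtain ⟨M, m1, m2, m3, m4, m5⟩ := hLpp m (dg 0) (dg 1) (fun β d => finrank D (J β d)) (h1 0) h01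
    (fun β => hTwoVar D _ _ d₀ (J β) g₁ g₂ (h1 0) h01 (j1 β) (j2 β)
      (j3 0 β _ bot_le j4) (j3 0 β _ bot_le j5) j6)
    (fun β β' d h => by
      have := hfd β' d
      exact Submodule.finrank_mono (j3 β β' d h))
  refine ⟨M, m1, fun d => by rw [m2 d, ← hNd d, j8 d], fun i hi => ?_⟩
  induction i using Fin.cases with
  | zero => exact m3
  | succ i =>
    induction i using Fin.cases with
    | zero => exact m4
    | succ i =>
      have hi' : i.val + 2 < c := by simpa using hi
      rw [heq _ (by simp) hi]
      refine m5 i A ?_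
      have := hfd (Finsupp.single i A) 0
      exact Nat.pos_of_ne_zero fun h => j7 i hi' (Submodule.finrank_eq_zero.1 h)

end ClosedAux

theorem closedP (hColen : ColenStm.{u}) (hForms : FormsStm.{u}) (hTrans : TransStm.{u})
    (hSlice : SliceStm.{u}) (hTwoVar : TwoVarStm.{u}) (hLpp : LppStm) : ClosedStm.{u} := by
  intro K _ _ n c hc a f h2 ha hmono heq hf hreg I hI
  obtain ⟨ρ, rfl⟩ := Nat.exists_eq_add_of_le hc
  obtain ⟨l, hl, hreg'⟩ := exists_linear_extension _ hreg ρ (by simp)
  rw [← List.ofFn_fin_append] at hreg'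
  let t : Fin c := ⟨c - 1, by omega⟩
  have ht : ∀ i : Fin c, i ≤ t := fun i => by
    have := i.2
    change i.val ≤ c - 1
    omega
  obtain ⟨M, m1, m2, m3⟩ := ClosedAux.core hColen hForms hTrans hSlice hTwoVar hLpp K (c + ρ) c (a t)
    (Fin.append f l) (Fin.append a fun _ => 1) h2 hc (ha t)
    (fun i => by
      induction i using Fin.addCases with
      | left i => simpa only [Fin.append_left] using hf i
      | right i => simpa only [Fin.append_right] using (mem_homogeneousSubmodule _ _).1 (hl i))
    (fun i => by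
      induction i using Fin.addCases with
      | left i => rw [Fin.append_left]; exact le_trans (by norm_num) (ha i)
      | right i => rw [Fin.append_right])
    (fun i => by
      induction i using Fin.addCases with
      | left i => rw [Fin.append_left]; exact hmono (ht i)
      | right i => rw [Fin.append_right]; exact le_trans (by norm_num) (ha t))
    (fun i h1 h3 => by
      induction i using Fin.addCases with
      | left i =>
        rw [Fin.append_left]
        exact heq i t h1 (le_trans h1 (ht i))
      | right i => simp at h3)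
    (fun i h1 => by
      induction i using Fin.addCases with
      | left i =>
        have := i.2
        simp only [Fin.val_castAdd] at h1
        omega
      | right i => rw [Fin.append_right])
    (fun i j h1 h3 => by
      induction j using Fin.addCases with
      | left j =>
        induction i using Fin.addCases with
        | left i =>
          rw [Fin.append_left, Fin.append_left]
          exact hmono h1
        | right i =>
          have h4 : c + i.val ≤ j.val := h1
          have := j.2
          omega
      | right j => simp at h3)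
    hreg' I
    (fun i h1 => by
      induction i using Fin.addCases with
      | left i => rw [Fin.append_left]; exact hI i
      | right i => simp at h1)
  refine ⟨M, m1, m2, fun i => ?_⟩
  have := m3 (Fin.castAdd ρ i) i.2
  rw [Fin.append_left] at this
  exact this

end Vale.Agent.P200G
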