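import Mathlib
import Vale.Agent.P200G.Stm2

/-! Passing to a coarser grading. -/

namespace Vale.Agent.P200G

open Module

universe u

namespace CoarseAux

section Push

variable {G : Type*} [AddCommGroup G] (dg : G →+ ℤ)

/-- Finite support on every fibre. -/
def FF (h : G → ℤ) : Prop :=
  ∀ d, (Function.support fun g => if dg g = d then h g else 0).Finite

/-- Summation over the fibres. -/
noncomputable def push (h : G → ℤ) (d : ℤ) : ℤ := ∑ᶠ g, if dg g = d then h g else 0

theorem act_one_sub {H : Type*} [AddCommGroup H] (x : H) (h : H → ℤ) (g : H) :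
    act (1 - og x) h g = h g - h (g - x) := by
  rw [map_sub, map_one, LinearMap.sub_apply, Pi.sub_apply, act_og, Module.End.one_apply]

variable {dg}

theorem step {h : G → ℤ} (hh : FF dg h) (x : G) : FF dg (act (1 - og x) h) ∧
    push dg (act (1 - og x) h) = act (1 - og (dg x)) (push dg h) := by
  have e : ∀ d g, (if dg g = d then act (1 - og x) h g else 0) =
      (if dg g = d then h g else 0) -
        (if dg (g - x) = d - dg x then h (g - x) else 0) := fun d g => by
    rw [act_one_sub, map_sub]
    by_cases hg : dg g = d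
    · simp [hg]
    · simp [hg]
  have f2 : ∀ d, (Function.support fun g =>
      if dg (g - x) = d - dg x then h (g - x) else 0).Finite := fun d =>
    ((hh (d - dg x)).preimage (sub_left_injective (b := x)).injOn).subset fun g hg => hg
  refine ⟨fun d => ?_, funext fun d => ?_⟩
  · simp only [e]
    exact ((hh d).union (f2 d)).subset (Function.support_sub _ _)
  · rw [act_one_sub]
    simp only [push, e]
    rw [finsum_sub_distrib (hh d) (f2 d)]
    congr 1
    exact finsum_comp_equiv (Equiv.subRight x)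
      (f := fun g => if dg g = d - dg x then h g else 0)

theorem steps {Y : Type*} {χ : Y → G} (hχ : ∀ u, dg (χ u) = 1) {h : G → ℤ} (hh : FF dg h)
    (s : Finset Y) : FF dg (act (∏ u ∈ s, (1 - og (χ u))) h) ∧
      push dg (act (∏ u ∈ s, (1 - og (χ u))) h) =
        act ((1 - og (1 : ℤ)) ^ s.card) (push dg h) := by
  classical
  induction s using Finset.induction_on with
  | empty => simpa using hh
  | insert u s hu ih =>
    rw [Finset.prod_insert hu, Finset.card_insert_of_notMem hu, pow_succ', map_mul, map_mul,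
      Module.End.mul_apply, Module.End.mul_apply, ← ih.2, ← hχ u]
    exact step ih.1 _

theorem push_cf (k : AddMonoidAlgebra ℤ G) :
    push dg (cf k) = cf (AddMonoidAlgebra.mapDomain dg k) := by
  classical
  funext d
  rw [push, finsum_eq_sum_of_support_subset (s := k.coeff.support)]
  · simp only [cf, AddMonoidAlgebra.mapDomain, Finsupp.mapDomain, Finsupp.sum_apply,
      Finsupp.single_apply]
    rfl
  · intro g hg
    rw [Finset.mem_coe, Finsupp.mem_support_iff]
    intro h0
    exact hg (by simp [cf, h0])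

theorem mom_map (k : AddMonoidAlgebra ℤ G) (f : ℤ → ℤ) :
    mom f (AddMonoidAlgebra.mapDomain dg k) = mom (fun g => f (dg g)) k := by
  simp only [mom, AddMonoidAlgebra.mapDomain]
  exact Finsupp.sum_mapDomain_index (by simp) (by simp [add_mul])

end Push

variable {F W G : Type*} [Field F] [AddCommGroup W] [Module F W]

theorem finrank_sup (γ : Gr F W G) (M : Submodule F W) (s : Finset G) :
    (finrank F (s.sup fun g => M.map (γ.π g) : Submodule F W) : ℤ) = ∑ g ∈ s, γ.h M g := by
  classical
  induction s using Finset.induction_on with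
  | empty => simp
  | insert a s ha ih =>
    have k : (s.sup fun g => M.map (γ.π g)) ≤ LinearMap.ker (γ.π a) :=
      Finset.sup_le fun g hg => by
        rintro _ ⟨z, -, rfl⟩
        exact γ.orth _ _ _ fun h => ha (h ▸ hg)
    have b : M.map (γ.π a) ⊓ (s.sup fun g => M.map (γ.π g)) = ⊥ := by
      rw [eq_bot_iff]
      rintro _ ⟨⟨z, -, rfl⟩, h⟩
      have := k h
      rwa [LinearMap.mem_ker, γ.idem] at this
    have := Submodule.finrank_sup_add_finrank_inf_eq (M.map (γ.π a))
      (s.sup fun g => M.map (γ.π g))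
    rw [b, finrank_bot, add_zero] at this
    rw [Finset.sup_insert, Finset.sum_insert ha, this, ← ih]
    simp [Gr.h]

variable [AddCommGroup G] {γ : Gr F W G} {γ' : Gr F W ℤ} {dg : G →+ ℤ}

theorem pi_pi (hle : ∀ g, γ.pc g ≤ γ'.pc (dg g)) (d : ℤ) (g : G) (w : W) :
    γ'.π d (γ.π g w) = if dg g = d then γ.π g w else 0 := by
  have := hle g (γ.π_mem_pc g w)
  split_ifs with h
  · exact γ'.mem_pc.mp (h ▸ this)
  · exact γ'.π_of_mem_ne this (Ne.symm h)

theorem fibre (hle : ∀ g, γ.pc g ≤ γ'.pc (dg g)) (d : ℤ) : ∃ S : Finset G,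
    (∀ g ∈ S, dg g = d) ∧ ∀ g, dg g = d → g ∉ S → ∀ w, γ.π g w = 0 := by
  classical
  obtain ⟨t, ht⟩ : (γ'.pc d).FG := Module.Finite.iff_fg.mp inferInstance
  choose s _ hs using γ.exists_supp
  refine ⟨(t.biUnion s).filter fun g => dg g = d, fun g hg => (Finset.mem_filter.mp hg).2,
    fun g hg hS w => ?_⟩
  have k : γ'.pc d ≤ LinearMap.ker (γ.π g) := by
    rw [← ht, Submodule.span_le]
    intro v hv
    exact hs v g fun h => hS (Finset.mem_filter.mpr ⟨Finset.mem_biUnion.mpr ⟨v, hv, h⟩, hg⟩)
  have := k (hg ▸ hle g (γ.π_mem_pc g w))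
  rwa [LinearMap.mem_ker, γ.idem] at this

theorem hg (hle : ∀ g, γ.pc g ≤ γ'.pc (dg g)) {M : Submodule F W} (hM : γ.Hg M) : γ'.Hg M := by
  intro d z hz
  obtain ⟨s, hs⟩ := γ.sum z
  rw [← hs, map_sum]
  refine Submodule.sum_mem _ fun g _ => ?_
  rw [pi_pi hle]
  split_ifs
  exacts [hM g z hz, zero_mem _]

theorem h_push (hle : ∀ g, γ.pc g ≤ γ'.pc (dg g)) {M : Submodule F W} (hM : γ.Hg M) :
    FF dg (γ.h M) ∧ push dg (γ.h M) = γ'.h M := by
  have key : ∀ d, ∃ S : Finset G, (Function.support fun g => if dg g = d then γ.h M g else 0) ⊆ S ∧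
      ∑ g ∈ S, (if dg g = d then γ.h M g else 0) = γ'.h M d := fun d => by
    obtain ⟨S, h1, h2⟩ := fibre hle d
    refine ⟨S, fun g hg => ?_, ?_⟩
    · by_contra hS
      refine hg ?_
      beta_reduce
      split_ifs with h
      · have : M.map (γ.π g) = ⊥ := by
          rw [eq_bot_iff]
          rintro _ ⟨z, -, rfl⟩
          exact h2 g h hS z
        simp [Gr.h, this]
      · rfl
    · have e : (S.sup fun g => M.map (γ.π g)) = M.map (γ'.π d) := by
        refine le_antisymm (Finset.sup_le fun g hg => ?_) ?_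
        · rintro _ ⟨z, hz, rfl⟩
          exact ⟨γ.π g z, hM g z hz, by rw [pi_pi hle, if_pos (h1 g hg)]⟩
        · rintro _ ⟨z, hz, rfl⟩
          obtain ⟨s, hs⟩ := γ.sum z
          rw [← hs, map_sum]
          refine Submodule.sum_mem _ fun g _ => ?_
          rw [pi_pi hle]
          split_ifs with h
          · by_cases hS : g ∈ S
            · exact Finset.le_sup (f := fun g => M.map (γ.π g)) hS ⟨z, hz, rfl⟩
            · rw [h2 g h hS z]
              exact zero_mem _
          · exact zero_mem _
      rw [Finset.sum_congr rfl fun g hg => if_pos (h1 g hg), ← finrank_sup, e, Gr.h]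
  refine ⟨fun d => ?_, funext fun d => ?_⟩
  · obtain ⟨S, h, -⟩ := key d
    exact S.finite_toSet.subset h
  · obtain ⟨S, h, h'⟩ := key d
    rw [push, finsum_eq_sum_of_support_subset _ h, h']

end CoarseAux

open CoarseAux in
theorem coarseP : CoarseStm.{u} := by
  intro F W G Y _ _ _ _ _ γ γ' dg χ M hle hχ hM
  refine ⟨hg hle hM, fun k hk => ⟨AddMonoidAlgebra.mapDomain dg k, ?_, mom_map k⟩⟩
  obtain ⟨h1, h2⟩ := h_push hle hM
  rw [← h2, ← push_cf, ← hk, (steps hχ h1 Finset.univ).2, Finset.card_univ]

end Vale.Agent.P200G
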