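import Mathlib
import Vale.Agent.P200G.Stm2

namespace Vale.Agent.P200G

open Module MvPolynomial TensorProduct

universe u

namespace CodimAux

theorem mon_eq (F : Type*) [CommSemiring F] {a n : ℕ} (i : Fin a → Fin n) :
    mon F i = monomial (∑ j, Finsupp.single (i j) 1) 1 := by
  rw [monomial_sum_one]
  rfl

theorem mon_hom (F : Type*) [CommSemiring F] {a n : ℕ} (i : Fin a → Fin n) :
    (mon F i).IsHomogeneous a := by
  have := IsHomogeneous.prod (Finset.univ : Finset (Fin a))
    (fun j => (X (i j) : MvPolynomial (Fin n) F)) (fun _ => 1) fun j _ => isHomogeneous_X F (i j)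
  simpa [mon] using this

theorem prod_erase_zero {M : Type*} [CommMonoid M] {d : ℕ} (f : Fin (d + 1) → M) :
    ∏ j ∈ Finset.univ.erase 0, f j = ∏ j : Fin d, f j.succ := by
  rw [Fin.univ_succ, Finset.erase_cons, Finset.prod_map]
  rfl

theorem expd {L : Type*} [Field L] {n d : ℕ} (v : Fin d → Fin n → L) (i : Fin n) :
    (∏ j, ∑ i', v j i' • (X i' : MvPolynomial (Fin n) L)) * X i =
      ∑ w : Fin d → Fin n, (∏ j, v j (w j)) • mon L (Fin.cons i w : Fin (d + 1) → Fin n) := by
  rw [Finset.prod_univ_sum, Fintype.piFinset_univ, Finset.sum_mul]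
  refine Finset.sum_congr rfl fun w _ => ?_
  rw [Finset.prod_smul, mon, Fin.prod_univ_succ, smul_mul_assoc, mul_comm]
  simp

theorem aeval_xi {F L : Type*} [Field F] [Field L] [Algebra F L] {τ d n : ℕ}
    (η : Yt τ (d + 1) n → L) (ψ : MvPolynomial (Fin n) F →ₗ[F] F) (m : Fin τ) (i : Fin n) :
    aeval η (xi τ (d + 1) ψ (m, i)) = ∑ w : Fin d → Fin n,
      algebraMap F L (ψ (mon F (Fin.cons i w : Fin (d + 1) → Fin n))) *
        ∏ j : Fin d, η (m, j.succ, w j) := by
  rw [xi, map_sum, Finset.sum_filter,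
    ← (Fin.consEquiv fun _ : Fin (d + 1) => Fin n).sum_comp, Fintype.sum_prod_type,
    Finset.sum_eq_single i]
  · refine Finset.sum_congr rfl fun w _ => ?_
    rw [if_pos (by simp [Fin.consEquiv]), map_mul, map_prod, prod_erase_zero, aeval_C]
    simp [Fin.consEquiv]
  · intro i' _ h
    exact Finset.sum_eq_zero fun w _ => if_neg (by simpa [Fin.consEquiv] using h)
  · intro h
    exact absurd (Finset.mem_univ i) h

theorem mem_cl {F L : Type*} [Field F] [Field L] [Algebra F L] {T : Set L} {x : L}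
    (hx : x ∈ Algebra.adjoin F T) : x ∈ (AlgebraicIndependent.matroid F L).closure T := by
  rw [AlgebraicIndependent.matroid_closure_eq]
  exact isAlgebraic_algebraMap (⟨x, hx⟩ : Algebra.adjoin F T)

end CodimAux

open CodimAux

theorem codimP (hCodimA : CodimAStm.{u}) (hCodimB : CodimBStm.{u}) : CodimStm.{u} := by
  classical
  intro F _ τ a n r _ φ hφ hτ σ hσ hcard
  by_contra hcon
  obtain ⟨L, _, _, η, lam, hind, hlam, heq⟩ :=
    hCodimA F (Yt τ a n) (Fin τ × Fin n) r (fun l => xi τ a (φ l)) σ hcon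
  obtain ⟨d, rfl⟩ : ∃ d, a = d + 1 := ⟨a - 1, by have := NeZero.ne a; omega⟩
  set ψ : MvPolynomial (Fin n) L →ₗ[L] L := (basisMonomials (Fin n) L).constr L
    fun α => ∑ k, lam k * algebraMap F L (φ k (monomial α 1)) with hψ
  have ψ1 : ∀ α, ψ (monomial α 1) = ∑ k, lam k * algebraMap F L (φ k (monomial α 1)) := fun α =>
    (basisMonomials (Fin n) L).constr_basis L _ α
  have ψ2 : ∀ i : Fin (d + 1) → Fin n,
      ψ (mon L i) = ∑ k, lam k * algebraMap F L (φ k (mon F i)) := fun i => by
    rw [mon_eq, mon_eq, ψ1]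
  have hev : ¬ IsEv (d + 1) ψ := by
    rintro ⟨c, p, h⟩
    refine hlam (hφ L lam c p fun i => ?_)
    rw [← ψ2, h _ (mon_hom L i)]
    simp [mon]
  have hblk : ∀ (m : Fin τ) (i : Fin n), ψ ((∏ j : Fin d, ∑ i', η (m, j.succ, i') •
      (X i' : MvPolynomial (Fin n) L)) * X i) = 0 := fun m i => by
    rw [expd, map_sum, ← heq (m, i)]
    simp only [map_smul, ψ2, aeval_xi, smul_eq_mul, Finset.mul_sum]
    rw [Finset.sum_comm]
    exact Finset.sum_congr rfl fun l _ => Finset.sum_congr rfl fun w _ => by ring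
  set M := AlgebraicIndependent.matroid F L with hM
  set T : Finset (Fin τ) → Set L := fun t =>
    Set.range lam ∪ {x | ∃ m ∈ t, ∃ (j : Fin d) (i : Fin n), x = η (m, j.succ, i)} with hT
  have key : ∀ t : Finset (Fin τ),
      M.eRk (T t) + ((2 * t.card : ℕ) : ℕ∞) ≤ ((r + t.card * (d * n) : ℕ) : ℕ∞) := by
    intro t
    induction t using Finset.induction_on with
    | empty =>
      have h1 : T ∅ = Set.range lam := by simp [hT]
      rw [h1]
      simp only [Finset.card_empty, mul_zero, zero_mul, add_zero, Nat.cast_zero]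
      refine (M.eRk_le_encard _).trans ?_
      rw [← Set.image_univ]
      refine (Set.encard_image_le _ _).trans ?_
      simp
    | insert m t hm ih =>
      have h1 : T (insert m t) =
          T t ∪ {x | ∃ (j : Fin d) (i : Fin n), x = η (m, j.succ, i)} := by
        ext x
        simp only [hT, Set.mem_union, Set.mem_setOf_eq, Finset.mem_insert, exists_eq_or_imp]
        rw [or_assoc, or_comm (a := ∃ a ∈ t, _)]
      have h2 := hCodimB F L n d (T t) ψ (fun j i => η (m, j.succ, i)) (fun α => by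
        rw [ψ1]
        refine mem_cl (Subalgebra.sum_mem _ fun k _ => Subalgebra.mul_mem _ ?_ ?_)
        · exact Algebra.subset_adjoin (Or.inl ⟨k, rfl⟩)
        · exact Subalgebra.algebraMap_mem _ _) hev (hblk m)
      rw [← h1, ← hM] at h2
      rw [Finset.card_insert_of_notMem hm]
      calc M.eRk (T (insert m t)) + ((2 * (t.card + 1) : ℕ) : ℕ∞)
          = (M.eRk (T (insert m t)) + 2) + ((2 * t.card : ℕ) : ℕ∞) := by push_cast; ring
        _ ≤ (M.eRk (T t) + ((d * n : ℕ) : ℕ∞)) + ((2 * t.card : ℕ) : ℕ∞) := by gcongr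
        _ = (M.eRk (T t) + ((2 * t.card : ℕ) : ℕ∞)) + ((d * n : ℕ) : ℕ∞) := by ring
        _ ≤ ((r + t.card * (d * n) : ℕ) : ℕ∞) + ((d * n : ℕ) : ℕ∞) := by gcongr
        _ = _ := by push_cast; ring
  have hI : M.Indep (Set.range fun u : σ => η u) :=
    AlgebraicIndependent.matroid_indep_iff.mpr hind.to_subtype_range
  have hsub : (Set.range fun u : σ => η u) ⊆ T Finset.univ := by
    rintro _ ⟨⟨⟨m, j, i⟩, hu⟩, rfl⟩
    obtain rfl | ⟨j, rfl⟩ := j.eq_zero_or_eq_succ
    · exact absurd hu (hσ m i)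
    · exact Or.inr ⟨m, Finset.mem_univ _, j, i, rfl⟩
  have hc : (σ.card : ℕ∞) ≤ M.eRk (T Finset.univ) := by
    refine le_trans (le_of_eq ?_) (M.eRk_mono hsub)
    rw [hI.eRk_eq_encard, ← Set.image_univ, hind.injective.encard_image]
    simp
  have h3 := (add_le_add_left hc _).trans (key Finset.univ)
  rw [Finset.card_univ, Fintype.card_fin, ← Nat.cast_add, Nat.cast_le] at h3
  have h4 : τ * ((d + 1) * n) = τ * (d * n) + τ * n := by ring
  omega

end Vale.Agent.P200G
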