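import Mathlib
import Vale.Agent.P200G.Stm2

/-! A generic point of the degeneracy locus. -/

namespace Vale.Agent.P200G

open MvPolynomial

universe u

namespace CodimAAux

theorem common_den {R L ι : Type*} [CommRing R] [Field L] [Fintype ι] (f : R →+* L)
    (hf : ∀ x : L, ∃ a b : R, f b ≠ 0 ∧ f a = f b * x) (x : ι → L) :
    ∃ t : R, f t ≠ 0 ∧ ∃ c : ι → R, ∀ i, f (c i) = f t * x i := by
  classical
  choose a b hb hab using fun i => hf (x i)
  refine ⟨∏ i, b i, ?_, fun i => a i * ∏ i' ∈ Finset.univ.erase i, b i', fun i => ?_⟩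
  · rw [map_prod]
    exact Finset.prod_ne_zero_iff.mpr fun i _ => hb i
  · rw [← Finset.mul_prod_erase Finset.univ b (Finset.mem_univ i), map_mul, map_mul, hab]
    ring

theorem right_inv {L J : Type*} [Field L] [Fintype J] {r : ℕ} (A : Matrix (Fin r) J L)
    (h : ∀ lam : Fin r → L, (∀ j, ∑ l, lam l * A l j = 0) → lam = 0) :
    ∃ B : Matrix J (Fin r) L, A * B = 1 := by
  classical
  have hk : LinearMap.ker (Matrix.vecMulLinear A) = ⊥ := by
    rw [LinearMap.ker_eq_bot']
    intro lam hl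
    exact h lam fun j => congrFun hl j
  obtain ⟨g, hg⟩ := LinearMap.exists_leftInverse_of_injective _ hk
  refine ⟨Matrix.of fun j k => g (Pi.single j 1) k, ?_⟩
  ext l k
  have h1 : g (A l) = Pi.single l 1 := by
    have h2 := LinearMap.congr_fun hg (Pi.single l 1)
    rw [LinearMap.comp_apply, LinearMap.id_apply, Matrix.vecMulLinear_apply,
      Matrix.single_one_vecMul] at h2
    exact h2
  have h3 : A l = ∑ j, A l j • (Pi.single j 1 : J → L) := by
    funext j'
    simp [Finset.sum_apply, Pi.single_apply]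
  have h4 : g (A l) k = ∑ j, A l j * g (Pi.single j 1) k := by
    conv_lhs => rw [h3]
    rw [map_sum, Finset.sum_apply]
    exact Finset.sum_congr rfl fun j _ => by rw [map_smul]; rfl
  rw [Matrix.mul_apply]
  simp only [Matrix.of_apply]
  rw [← h4, h1, Matrix.one_apply, Pi.single_apply]
  simp only [eq_comm]

theorem exists_minor {R L J : Type*} [CommRing R] [Field L] [Fintype J] {r : ℕ} (f : R →+* L)
    (hf : ∀ x : L, ∃ a b : R, f b ≠ 0 ∧ f a = f b * x) (ξ : Fin r → J → R)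
    (h : ∀ lam : Fin r → L, (∀ j, ∑ l, lam l * f (ξ l j) = 0) → lam = 0) :
    ∃ p : R, f p ≠ 0 ∧ ∀ k, ∃ c : J → R, ∀ l, ∑ j, c j * ξ l j = if l = k then p else 0 := by
  classical
  obtain ⟨B, hB⟩ := right_inv (Matrix.of fun l j => f (ξ l j)) h
  obtain ⟨t, ht, c, hc⟩ := common_den f hf (fun x : J × Fin r => B x.1 x.2)
  obtain ⟨A, hA⟩ : ∃ A : Matrix (Fin r) J R, A = Matrix.of ξ := ⟨_, rfl⟩
  obtain ⟨C, hC⟩ : ∃ C : Matrix J (Fin r) R, C = Matrix.of fun j k => c (j, k) := ⟨_, rfl⟩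
  have h1 : f.mapMatrix (A * C) = f t • (1 : Matrix (Fin r) (Fin r) L) := by
    ext l k
    rw [← hB, RingHom.mapMatrix_apply, Matrix.map_apply, Matrix.smul_apply, Matrix.mul_apply,
      Matrix.mul_apply, map_sum, smul_eq_mul, Finset.mul_sum]
    refine Finset.sum_congr rfl fun j _ => ?_
    rw [map_mul, hA, hC, Matrix.of_apply, Matrix.of_apply, Matrix.of_apply, hc]
    ring
  refine ⟨(A * C).det, ?_, fun k => ⟨fun j => (C * (A * C).adjugate) j k, fun l => ?_⟩⟩
  · rw [RingHom.map_det, h1, Matrix.det_smul, Matrix.det_one, mul_one]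
    exact pow_ne_zero _ ht
  · have h2 := congrFun (congrFun (Matrix.mul_adjugate (A * C)) l) k
    rw [Matrix.mul_assoc, Matrix.mul_apply, Matrix.smul_apply, Matrix.one_apply, smul_eq_mul,
      mul_ite, mul_one, mul_zero] at h2
    rw [← h2]
    refine Finset.sum_congr rfl fun j _ => ?_
    rw [mul_comm, hA, Matrix.of_apply]

/-- The ideal of the elements which are reached in all coordinates. -/
def idA {R J : Type*} [CommRing R] [Fintype J] {r : ℕ} (ξ : Fin r → J → R) : Ideal R where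
  carrier := {p | ∀ k, ∃ c : J → R, ∀ l, ∑ j, c j * ξ l j = if l = k then p else 0}
  add_mem' := by
    intro p q hp hq k
    obtain ⟨c, hc⟩ := hp k
    obtain ⟨c', hc'⟩ := hq k
    refine ⟨c + c', fun l => ?_⟩
    simp only [Pi.add_apply, add_mul, Finset.sum_add_distrib, hc, hc']
    split_ifs <;> simp
  zero_mem' := fun k => ⟨0, fun l => by simp⟩
  smul_mem' := by
    intro a p hp k
    obtain ⟨c, hc⟩ := hp k
    refine ⟨fun j => a * c j, fun l => ?_⟩
    simp only [mul_assoc, ← Finset.mul_sum, hc]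
    split_ifs <;> simp

/-- The nonzero polynomials in a given set of variables. -/
def subS (F : Type*) {Y : Type*} [Field F] [DecidableEq Y] (σ : Finset Y) :
    Submonoid (MvPolynomial Y F) where
  carrier := {p | p ≠ 0 ∧ p.vars ⊆ σ}
  mul_mem' := by
    intro p q hp hq
    exact ⟨mul_ne_zero hp.1 hq.1, (vars_mul p q).trans (Finset.union_subset hp.2 hq.2)⟩
  one_mem' := ⟨one_ne_zero, by rw [vars_one]; exact Finset.empty_subset _⟩

theorem exists_field {F : Type u} [Field F] {Y : Type} (𝔭 : Ideal (MvPolynomial Y F))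
    [𝔭.IsPrime] :
    ∃ (L : Type u) (_ : Field L) (_ : Algebra F L) (η : Y → L),
      (∀ p, aeval η p = 0 ↔ p ∈ 𝔭) ∧
      ∀ x : L, ∃ a b : MvPolynomial Y F, aeval η b ≠ 0 ∧ aeval η a = aeval η b * x := by
  let g : MvPolynomial Y F →ₐ[F] FractionRing (MvPolynomial Y F ⧸ 𝔭) :=
    (IsScalarTower.toAlgHom F (MvPolynomial Y F ⧸ 𝔭) _).comp (Ideal.Quotient.mkₐ F 𝔭)
  have hg : ∀ p, g p = algebraMap (MvPolynomial Y F ⧸ 𝔭) _ (Ideal.Quotient.mk 𝔭 p) :=
    fun p => rfl
  have he : aeval (fun u => g (X u)) = g := by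
    ext u
    simp only [aeval_X]
  have h0 : ∀ p, g p = 0 ↔ p ∈ 𝔭 := fun p => by
    rw [hg, map_eq_zero_iff _ (IsFractionRing.injective _ _), Ideal.Quotient.eq_zero_iff_mem]
  refine ⟨FractionRing (MvPolynomial Y F ⧸ 𝔭), inferInstance, inferInstance, fun u => g (X u),
    ?_, fun x => ?_⟩
  · rw [he]
    exact h0
  · rw [he]
    obtain ⟨a, b, hb, rfl⟩ := IsFractionRing.div_surjective (A := MvPolynomial Y F ⧸ 𝔭) x
    obtain ⟨a, rfl⟩ := Ideal.Quotient.mk_surjective a
    obtain ⟨b, rfl⟩ := Ideal.Quotient.mk_surjective b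
    have hb' : g b ≠ 0 := by
      rw [hg]
      exact (map_ne_zero_iff _ (IsFractionRing.injective _ _)).mpr (nonZeroDivisors.ne_zero hb)
    refine ⟨a, b, hb', ?_⟩
    rw [← hg, ← hg, mul_div_cancel₀ _ hb']

end CodimAAux

open CodimAAux in
theorem codimAP : CodimAStm.{u} := by
  intro F Y J _ _ _ r ξ σ h
  have hd : Disjoint (idA ξ : Set (MvPolynomial Y F)) (subS F σ) := by
    rw [Set.disjoint_left]
    intro p hp hp'
    exact h ⟨p, hp'.1, hp'.2, hp⟩
  obtain ⟨𝔭, h𝔭, hle, hdis⟩ := Ideal.exists_le_prime_disjoint (idA ξ) (subS F σ) hd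
  obtain ⟨L, _, _, η, h0, hfr⟩ := exists_field 𝔭
  have hlam : ∃ lam : Fin r → L, lam ≠ 0 ∧ ∀ j, ∑ l, lam l * aeval η (ξ l j) = 0 := by
    by_contra hn
    obtain ⟨p, hp, hp'⟩ := exists_minor (aeval η : MvPolynomial Y F →ₐ[F] L).toRingHom hfr ξ
      fun lam hl => by
        by_contra hne
        exact hn ⟨lam, hne, hl⟩
    exact hp ((h0 p).mpr (hle hp'))
  obtain ⟨lam, hl, hl'⟩ := hlam
  refine ⟨L, inferInstance, inferInstance, η, lam, ?_, hl, hl'⟩
  rw [algebraicIndependent_iff]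
  intro q hq
  by_contra hne
  have h1 : aeval η (rename (Subtype.val : σ → Y) q) = 0 := by
    rw [aeval_rename]
    exact hq
  have h2 : rename (Subtype.val : σ → Y) q ∈ subS F σ := by
    refine ⟨fun h3 => hne ((rename_injective _ Subtype.val_injective) (by rw [h3, map_zero])), ?_⟩
    refine (vars_rename _ _).trans fun y hy => ?_
    obtain ⟨u, -, rfl⟩ := Finset.mem_image.mp hy
    exact u.2
  exact Set.disjoint_left.mp hdis ((h0 _).mp h1) h2

end Vale.Agent.P200G
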