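import Mathlib
import Vale.Agent.P200G.Stm2

/-! One block imposes two conditions. -/

namespace Vale.Agent.P200G

open Module MvPolynomial

universe u

namespace CodimBAux

variable {L : Type u} [Field L] {n : ℕ}

theorem cat_apply (ψ : MvPolynomial (Fin n) L →ₗ[L] L) (w : Fin n → L)
    (q : MvPolynomial (Fin n) L) : cat ψ w q = ∑ i, ψ (q * X i) * w i := by
  simp only [cat, LinearMap.comp_apply, LinearMap.mulLeft_apply, Finset.sum_mul, map_sum,
    smul_mul_assoc, map_smul, smul_eq_mul]
  exact Finset.sum_congr rfl fun i _ => by rw [mul_comm (X i), mul_comm]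

theorem isZ_of {k : ℕ} {ψ : MvPolynomial (Fin n) L →ₗ[L] L}
    (h : ∀ (β : Fin n →₀ ℕ) (i : Fin n), β.degree = k → ψ (monomial β 1 * X i) = 0) :
    IsZ (k + 1) ψ := by
  intro q hq
  rw [q.as_sum, map_sum]
  refine Finset.sum_eq_zero fun α hα => ?_
  have h1 : α.degree = k + 1 := by
    rw [Finsupp.degree_eq_weight_one]
    exact hq (mem_support_iff.1 hα)
  obtain ⟨i, hi⟩ : ∃ i, α i ≠ 0 := by
    by_contra h0
    push Not at h0
    rw [Finsupp.ext h0 (g := 0), map_zero] at h1
    omega
  have h2 : α = (α - Finsupp.single i 1) + Finsupp.single i 1 := by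
    rw [tsub_add_cancel_of_le]
    rw [Finsupp.single_le_iff]
    omega
  have h3 : (α - Finsupp.single i 1).degree = k := by
    rw [h2, map_add, Finsupp.degree_single] at h1
    omega
  have h4 : (monomial α (coeff α q) : MvPolynomial (Fin n) L) =
      coeff α q • (monomial (α - Finsupp.single i 1) 1 * X i) := by
    rw [X, monomial_mul, ← h2, smul_monomial, mul_one, smul_eq_mul, mul_one]
  rw [h4, map_smul, h _ i h3, smul_zero]

theorem isEv_of_isZ {k : ℕ} {ψ : MvPolynomial (Fin n) L →ₗ[L] L} (h : IsZ k ψ) : IsEv k ψ :=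
  ⟨0, 0, fun q hq => by rw [h q hq, zero_mul]⟩

/-- The linear form with coefficients `c`. -/
noncomputable def lf (c : Fin n → L) : MvPolynomial (Fin n) L := ∑ s, C (c s) * X s

theorem eval_lf (c w : Fin n → L) : eval w (lf c) = ∑ s, c s * w s := by simp [lf]

/-- Polynomials with coefficients in a subring. -/
def Cf (S : Subring L) (p : MvPolynomial (Fin n) L) : Prop := ∀ α, p.coeff α ∈ S

theorem Cf.mul {S : Subring L} {p q : MvPolynomial (Fin n) L} (hp : Cf S p) (hq : Cf S q) :
    Cf S (p * q) := fun α => by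
  rw [coeff_mul]
  exact S.sum_mem fun x _ => S.mul_mem (hp _) (hq _)

theorem Cf.sub {S : Subring L} {p q : MvPolynomial (Fin n) L} (hp : Cf S p) (hq : Cf S q) :
    Cf S (p - q) := fun α => by
  rw [coeff_sub]
  exact S.sub_mem (hp _) (hq _)

theorem cf_lf {S : Subring L} {c : Fin n → L} (hc : ∀ s, c s ∈ S) : Cf S (lf c) := fun α => by
  rw [lf, coeff_sum]
  refine S.sum_mem fun s _ => ?_
  rw [coeff_C_mul, coeff_X]
  refine S.mul_mem (hc s) ?_
  split_ifs
  exacts [S.one_mem, S.zero_mem]

variable (F : Type u) [Field F] [Algebra F L]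

theorem sub_ex (T : Set L) :
    ∃ S : Subring L, ∀ x, x ∈ S ↔ x ∈ (AlgebraicIndependent.matroid F L).closure T :=
  ⟨(Subalgebra.algebraicClosure (Algebra.adjoin F T) L).toSubring, fun x => by
    rw [AlgebraicIndependent.matroid_closure_eq]; rfl⟩

theorem triv {ι : Type} [Fintype ι] (T : Set L) (v : ι → L) :
    (AlgebraicIndependent.matroid F L).eRk (T ∪ Set.range v) ≤
      (AlgebraicIndependent.matroid F L).eRk T + (Fintype.card ι : ℕ) := by
  refine (Matroid.eRk_union_le_eRk_add_encard _ _ _).trans (add_le_add le_rfl ?_)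
  rw [← Set.image_univ]
  refine (Set.encard_image_le _ _).trans (le_of_eq ?_)
  rw [Set.encard_univ, ENat.card_eq_coe_fintype_card]

theorem triv2 {d : ℕ} (T : Set L) (v : Fin d → Fin n → L) :
    (AlgebraicIndependent.matroid F L).eRk (T ∪ {x | ∃ j i, x = v j i}) ≤
      (AlgebraicIndependent.matroid F L).eRk T + (d * n : ℕ) := by
  have h := triv F T fun p : Fin d × Fin n => v p.1 p.2
  rw [Fintype.card_prod, Fintype.card_fin, Fintype.card_fin] at h
  convert h using 3
  ext x
  simp [eq_comm]

theorem comb {a b c : ℕ∞} {k l d : ℕ} (h1 : a + k ≤ b + (d * n : ℕ)) (h2 : b + l ≤ c + n) :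
    a + (k + l : ℕ) ≤ c + ((d + 1) * n : ℕ) := by
  calc a + (k + l : ℕ) = (a + k) + l := by push_cast; ring
    _ ≤ b + (d * n : ℕ) + l := add_le_add h1 le_rfl
    _ = (b + l) + (d * n : ℕ) := by ring
    _ ≤ c + n + (d * n : ℕ) := add_le_add h2 le_rfl
    _ = _ := by push_cast; ring

theorem main (hCat : CatStm.{u}) (hGain : GainStm.{u}) (d : ℕ) : ∀ (T : Set L)
    (ψ : MvPolynomial (Fin n) L →ₗ[L] L) (v : Fin d → Fin n → L),
    (∀ α, ψ (monomial α 1) ∈ (AlgebraicIndependent.matroid F L).closure T) →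
    (∀ i, ψ ((∏ j, ∑ i', v j i' • (X i' : MvPolynomial (Fin n) L)) * X i) = 0) →
    (d = 0 → IsZ 1 ψ) ∧
    (¬ IsZ (d + 1) ψ → (AlgebraicIndependent.matroid F L).eRk (T ∪ {x | ∃ j i, x = v j i}) +
      (1 : ℕ) ≤ (AlgebraicIndependent.matroid F L).eRk T + (d * n : ℕ)) ∧
    (¬ IsEv (d + 1) ψ → (AlgebraicIndependent.matroid F L).eRk (T ∪ {x | ∃ j i, x = v j i}) +
      (2 : ℕ) ≤ (AlgebraicIndependent.matroid F L).eRk T + (d * n : ℕ)) := by
  induction d with
  | zero =>
    intro T ψ v _ h
    have hz : IsZ (0 + 1) ψ := isZ_of fun β i hβ => by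
      rw [(Finsupp.degree_eq_zero_iff β).1 hβ]
      simpa using h i
    exact ⟨fun _ => hz, fun h' => absurd hz h', fun h' => absurd (isEv_of_isZ hz) h'⟩
  | succ d ih =>
    intro T ψ v hc h
    refine ⟨fun h => absurd h (by omega), ?_⟩
    obtain ⟨S, hS⟩ := sub_ex F T
    have hX : ∀ α i, ψ (monomial α 1 * X i) ∈ (AlgebraicIndependent.matroid F L).closure T := by
      intro α i
      rw [X, monomial_mul, mul_one]
      exact hc _
    have hXX : ∀ α i s, ψ (monomial α 1 * X i * X s) ∈ S := by
      intro α i s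
      rw [hS, X, monomial_mul, mul_one]
      exact hX _ _
    obtain ⟨h0, h1, h2⟩ := ih (T ∪ Set.range (v 0)) (cat ψ (v 0)) (fun j => v j.succ)
      (fun α => by
        obtain ⟨S', hS'⟩ := sub_ex F (T ∪ Set.range (v 0))
        rw [cat_apply, ← hS']
        refine S'.sum_mem fun i _ => S'.mul_mem ((hS' _).2 ?_) ((hS' _).2 ?_)
        · exact Matroid.closure_subset_closure _ Set.subset_union_left (hX α i)
        · exact Matroid.subset_closure _ _ (Set.subset_univ _) (Or.inr ⟨i, rfl⟩))
      (fun i => by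
        have := h i
        rw [Fin.prod_univ_succ, mul_assoc] at this
        exact this)
    have ht := triv2 F (T ∪ Set.range (v 0)) fun j : Fin d => v j.succ
    have he : T ∪ Set.range (v 0) ∪ {x | ∃ (j : Fin d) (i : Fin n), x = v j.succ i} =
        T ∪ {x | ∃ j i, x = v j i} := by
      ext x
      simp only [Set.mem_union, Set.mem_range, Set.mem_ofPred_eq, Fin.exists_fin_succ, or_assoc,
        eq_comm]
    rw [he] at h1 h2 ht
    have ht0 := triv F T (v 0)
    rw [Fintype.card_fin] at ht0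
    obtain ⟨g1, g2⟩ := hGain F L n T (v 0)
    by_cases hz : IsZ (d + 1) (cat ψ (v 0))
    · have hv : ∀ β : Fin n →₀ ℕ, β.degree = d + 1 → ∑ i, ψ (monomial β 1 * X i) * v 0 i = 0 :=
        fun β hβ => by rw [← cat_apply]; exact hz _ (isHomogeneous_monomial _ hβ)
      refine ⟨fun hn => ?_, fun hn => ?_⟩
      · obtain ⟨β, i, hβ, hi⟩ : ∃ (β : Fin n →₀ ℕ) (i : Fin n), β.degree = d + 1 ∧
            ψ (monomial β 1 * X i) ≠ 0 := by
          by_contra hcon
          push Not at hcon
          exact hn (isZ_of hcon)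
        refine comb (k := 0) (l := 1) (by simpa using ht) (g1 (lf fun s => ψ (monomial β 1 * X s))
          (fun e => hi ?_) (fun α => (hS _).1 (cf_lf (fun s => (hS _).2 (hX β s)) α))
          (by rw [eval_lf]; exact hv β hβ))
        have := eval_lf (fun s => ψ (monomial β 1 * X s)) (Pi.single i 1)
        rw [e, map_zero, Finset.sum_eq_single i (fun s _ hs => by simp [hs]) (by simp)] at this
        simpa using this.symm
      · have hr : ¬ Rk1 (d + 1) ψ := fun hr => hn ((hCat L n (d + 1) ψ).1.1 hr)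
        simp only [Rk1, not_forall] at hr
        obtain ⟨β, β', i, j, hβ, hβ', hne⟩ := hr
        exact comb (k := 0) (l := 2) (by simpa using ht)
          (g2 _ _ (hX β) (hX β') ⟨i, j, hne⟩ (hv β hβ) (hv β' hβ'))
    · refine ⟨fun _ => comb (l := 0) (h1 hz) (by simpa using ht0), fun hn => ?_⟩
      by_cases hev : IsEv (d + 1) (cat ψ (v 0))
      · have hr := (hCat L n d _).1.2 hev
        obtain ⟨e, rfl⟩ : ∃ e, d = e + 1 := by
          refine ⟨d - 1, ?_⟩
          have : d ≠ 0 := fun e => hz (by subst e; exact h0 rfl)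
          omega
        have hw : ¬ ∀ w, Rk1 (e + 1) (cat ψ w) := fun hw =>
          hn ((hCat L n (e + 2) ψ).1.1 ((hCat L n e ψ).2 hw))
        simp only [Rk1, not_forall] at hw
        obtain ⟨w, β, β', i, j, hβ, hβ', hne⟩ := hw
        have hP : ∀ u : Fin n → L, eval u
            (lf (fun s => ψ (monomial β 1 * X i * X s)) *
              lf (fun s => ψ (monomial β' 1 * X j * X s)) -
            lf (fun s => ψ (monomial β 1 * X j * X s)) *
              lf (fun s => ψ (monomial β' 1 * X i * X s))) =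
            cat ψ u (monomial β 1 * X i) * cat ψ u (monomial β' 1 * X j) -
              cat ψ u (monomial β 1 * X j) * cat ψ u (monomial β' 1 * X i) := by
          intro u
          simp only [map_sub, map_mul, eval_lf, cat_apply]
        refine comb (l := 1) (h1 hz) (g1 _ (fun e0 => hne ?_)
          (fun α => (hS _).1 ((((cf_lf (hXX β i)).mul (cf_lf (hXX β' j))).sub
            ((cf_lf (hXX β j)).mul (cf_lf (hXX β' i)))) α))
          (by rw [hP, hr β β' i j hβ hβ', sub_self]))
        have := hP w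
        rw [e0, map_zero] at this
        exact sub_eq_zero.1 this.symm
      · exact comb (l := 0) (h2 hev) (by simpa using ht0)

end CodimBAux

theorem codimBP (hCat : CatStm.{u}) (hGain : GainStm.{u}) : CodimBStm.{u} :=
  fun F _ _ _ _ _ d T ψ v hc hn h => (CodimBAux.main F hCat hGain d T ψ v hc h).2.2 hn

end Vale.Agent.P200G
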