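import Mathlib
import Vale.Agent.P200G.Stm2

/-! A regular sequence of maximal length generates everything in large degree. -/

namespace Vale.Agent.P200G

open Module MvPolynomial TensorProduct Vale.Agent.P200 RingTheory.Sequence

universe u

namespace ColenAux

theorem hser_poly {K S : Type*} [Field K] [CommRing S] [Algebra K S] (𝒮 : ℕ → Submodule K S)
    [GradedAlgebra 𝒮] [∀ j, FiniteDimensional K (𝒮 j)] (rs : List S)
    (hrs : ∀ x ∈ rs, ∃ d, x ∈ 𝒮 d) (h : IsWeaklyRegular S rs) :
    ∃ P : Polynomial ℤ, hser 𝒮 (Ideal.ofList rs) =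
      (P : PowerSeries ℤ) * (hser 𝒮 ⊥ * (1 - PowerSeries.X) ^ rs.length) := by
  induction rs using List.reverseRecOn with
  | nil => exact ⟨1, by simp⟩
  | append_singleton rs g ih =>
    obtain ⟨P, hP⟩ := ih (fun x hx => hrs x (by simp [hx]))
      ((isWeaklyRegular_append_iff _ _ _).mp h).1
    obtain ⟨e, he⟩ := hrs g (by simp)
    refine ⟨P * ∑ j ∈ Finset.range e, Polynomial.X ^ j, ?_⟩
    have e1 : ((∑ j ∈ Finset.range e, Polynomial.X ^ j : Polynomial ℤ) : PowerSeries ℤ) =
        ∑ j ∈ Finset.range e, PowerSeries.X ^ j := by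
      rw [← Polynomial.coeToPowerSeries.ringHom_apply, map_sum]
      simp
    rw [Ideal.ofList_append, Ideal.ofList_singleton,
      hser_sup 𝒮 (fun s hs j => proj_mem_span 𝒮 (fun x hx => hrs x ?_) hs j) he
        (regular_of_append h), hP, Polynomial.coe_mul, e1, ← mul_neg_geom_sum]
    · simp only [List.length_append, List.length_singleton]
      ring
    · exact List.mem_append_left _ hx

end ColenAux

attribute [local instance] MvPolynomial.gradedAlgebra in
theorem colenP : ColenStm.{u} := by
  intro K _ n f dg hf hdg hreg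
  constructor
  · obtain ⟨P, hP⟩ := ColenAux.hser_poly (homogeneousSubmodule (Fin n) K) (List.ofFn f)
      (fun x hx => by
        obtain ⟨i, rfl⟩ := List.mem_ofFn.mp hx
        exact ⟨_, hf i⟩) hreg
    rw [hser_bot, List.length_ofFn, hilbert_series_poly, mul_one] at hP
    refine ⟨P.natDegree + 1, fun d hd p hp => ?_⟩
    have h1 := congrArg (PowerSeries.coeff d) hP
    rw [Polynomial.coeff_coe, Polynomial.coeff_eq_zero_of_natDegree_lt (by omega), hser,
      PowerSeries.coeff_mk] at h1
    have := finite_quot_Wd (homogeneousSubmodule (Fin n) K) (Ideal.ofList (List.ofFn f)) d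
    have h2 := Module.finrank_zero_iff.mp (Int.natCast_eq_zero.mp h1)
    have h3 : p ∈ Wd (homogeneousSubmodule (Fin n) K) (Ideal.ofList (List.ofFn f)) d :=
      (Submodule.Quotient.mk_eq_zero _).mp (Subsingleton.elim _ _)
    rw [mem_Wd, proj_of_mem _ hp] at h3
    refine Ideal.span_mono (fun x hx => ?_) h3
    exact List.mem_ofFn.mp hx
  · intro i hi
    have h1 := hreg.regular_mod_prev i (by simp)
    rw [isSMulRegular_quotient_iff_mem_of_smul_mem, smul_eq_mul, Ideal.mul_top] at h1
    have h2 := h1 1 (by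
      rw [smul_eq_mul, mul_one, List.getElem_ofFn]
      refine Ideal.span_mono ?_ hi
      rintro _ ⟨j, hj, rfl⟩
      exact List.mem_iff_getElem.mpr ⟨j, by simpa using hj, by simp⟩)
    have h3 : Ideal.ofList ((List.ofFn f).take i) ≤ RingHom.ker constantCoeff := by
      refine Ideal.span_le.mpr fun x hx => ?_
      obtain ⟨j, rfl⟩ := List.mem_ofFn.mp (List.mem_of_mem_take hx)
      have := hdg j
      exact (hf j).coeff_eq_zero (d := 0) (by rw [map_zero]; omega)
    simpa using h3 h2

end Vale.Agent.P200G
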