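import Mathlib
import Vale.Agent.P200G.Stm2

/-! The double complex. -/

namespace Vale.Agent.P200G

open Module MvPolynomial TensorProduct

universe u

namespace DblAux

section Ring

variable {G : Type} [AddCommGroup G]

theorem zm : ∀ p : ZMod 2, p = 0 ∨ p = 1 := by decide

/-- The sign of a parity. -/
def sgz (p : ZMod 2) : ℤ := if p = 0 then 1 else -1

theorem sgz_add : ∀ p q : ZMod 2, sgz (p + q) = sgz p * sgz q := by decide

/-- The signed projection of group rings. -/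
noncomputable def sg : AddMonoidAlgebra ℤ (G × ZMod 2) →ₐ[ℤ] AddMonoidAlgebra ℤ G :=
  AddMonoidAlgebra.lift ℤ (AddMonoidAlgebra ℤ G) (G × ZMod 2)
    { toFun := fun x => sgz x.toAdd.2 • og x.toAdd.1
      map_one' := by simp [sgz, og_zero]
      map_mul' := fun x y => by
        simp only [toAdd_mul, Prod.fst_add, Prod.snd_add, sgz_add, og_add, smul_mul_smul_comm] }

theorem sg_og (x : G × ZMod 2) : sg (og x) = sgz x.2 • og x.1 := by
  simp [sg, og]

theorem sd_act (k : AddMonoidAlgebra ℤ (G × ZMod 2)) (h : G × ZMod 2 → ℤ) :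
    sd (act k h) = act (sg k) (sd h) := by
  induction k using AddMonoidAlgebra.induction_on with
  | of x =>
    funext g
    change sd (act (og x) h) g = act (sg (og x)) (sd h) g
    obtain ⟨x, p⟩ := x
    rw [sg_og, map_smul, LinearMap.smul_apply, Pi.smul_apply, act_og]
    simp only [sd, act_og, Prod.mk_sub_mk]
    rcases zm p with rfl | rfl
    · simp [sgz]
    · rw [show (0 : ZMod 2) - 1 = 1 by decide, sub_self]
      simp [sgz]
  | add k k' h1 h2 =>
    rw [map_add, map_add, map_add, LinearMap.add_apply, LinearMap.add_apply, ← h1, ← h2]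
    funext g
    simp only [sd, Pi.add_apply]
    ring
  | smul c k h1 =>
    rw [map_smul, map_smul, map_smul, LinearMap.smul_apply, LinearMap.smul_apply, ← h1]
    funext g
    simp only [sd, Pi.smul_apply, smul_eq_mul]
    ring

theorem sd_cf (k : AddMonoidAlgebra ℤ (G × ZMod 2)) : sd (cf k) = cf (sg k) := by
  have h1 : sd (cf (1 : AddMonoidAlgebra ℤ (G × ZMod 2))) = cf (1 : AddMonoidAlgebra ℤ G) := by
    classical
    funext g
    simp [sd, cf, AddMonoidAlgebra.one_def, Finsupp.single_apply, Prod.ext_iff]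
  rw [← mul_one k, ← act_cf, sd_act, h1, act_cf, mul_one, mul_one]

theorem sg_one_sub (x : G) : sg (1 - og (x, (0 : ZMod 2))) = 1 - og x := by
  rw [map_sub, map_one, sg_og]
  simp [sgz]

theorem sg_mem {Y : Type} (χ : Y → G) (N : ℕ) {k : AddMonoidAlgebra ℤ (G × ZMod 2)}
    (hk : k ∈ Jd (fun u => (χ u, (0 : ZMod 2))) ^ N) : sg k ∈ Jd χ ^ N := by
  have h := Ideal.mem_map_of_mem sg hk
  rw [Ideal.map_pow] at h
  refine Ideal.pow_right_mono ?_ N h
  rw [Jd, Ideal.map_span, Ideal.span_le]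
  rintro _ ⟨_, ⟨u, rfl⟩, rfl⟩
  exact Ideal.subset_span ⟨u, (sg_one_sub _).symm⟩

theorem act_dvd (e : ℤ) (k : AddMonoidAlgebra ℤ G) {h : G → ℤ} (hh : ∀ g, e ∣ h g) :
    ∀ g, e ∣ act k h g := by
  induction k using AddMonoidAlgebra.induction_on with
  | of x =>
    intro g
    change e ∣ act (og x) h g
    rw [act_og]
    exact hh _
  | add k k' h1 h2 =>
    intro g
    rw [map_add]
    exact dvd_add (h1 g) (h2 g)
  | smul c k h1 =>
    intro g
    rw [map_smul]
    exact Dvd.dvd.mul_left (h1 g) c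

end Ring

theorem finrank_dvd {F E V : Type*} [Field F] [DivisionRing E] [Algebra F E] [AddCommGroup V]
    [Module F V] [Module E V] [IsScalarTower F E V] (U : Submodule F V) (hU : ES E U) :
    finrank F E ∣ finrank F U := by
  let U' : Submodule E V :=
    { carrier := U
      add_mem' := U.add_mem
      zero_mem' := U.zero_mem
      smul_mem' := fun a y hy => hU a y hy }
  have h1 : finrank F U = finrank F U' := by
    refine LinearEquiv.finrank_eq (R := F) (M := U) (N := U') ?_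
    exact
      { toFun := fun x => ⟨x.1, x.2⟩
        invFun := fun x => ⟨x.1, x.2⟩
        map_add' := fun _ _ => rfl
        map_smul' := fun _ _ => rfl
        left_inv := fun _ => rfl
        right_inv := fun _ => rfl }
  rw [h1, ← Module.finrank_mul_finrank F E U']
  exact dvd_mul_right _ _

theorem anti {F V : Type*} [Field F] [AddCommGroup V] [Module F V] {a b : Module.End F V}
    (h : a * b + b * a = 0) {M : Submodule F V} (hM : ∀ v ∈ M, a v ∈ M) :
    ∀ v ∈ M.map b, a v ∈ M.map b := by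
  rintro _ ⟨v, hv, rfl⟩
  refine ⟨-a v, neg_mem (hM v hv), ?_⟩
  rw [map_neg]
  exact neg_eq_of_add_eq_zero_left (LinearMap.congr_fun h v)

theorem antik {F V : Type*} [Field F] [AddCommGroup V] [Module F V] {a b : Module.End F V}
    (h : a * b + b * a = 0) {M : Submodule F V} (hM : ∀ v ∈ M, a v ∈ M) :
    ∀ v ∈ M ⊓ (⊥ : Submodule F V).comap b, a v ∈ M ⊓ (⊥ : Submodule F V).comap b := by
  rintro v ⟨hv, h0⟩
  have h1 : a (b v) + b (a v) = 0 := LinearMap.congr_fun h v
  have h2 : b v = 0 := h0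
  rw [h2, map_zero, zero_add] at h1
  exact ⟨hM v hv, h1⟩

variable {F V : Type u} {G Y J : Type} [Field F] [AddCommGroup V] [Module F V] [AddCommGroup G]
  [Fintype Y] [DecidableEq Y] {Γ : Gr F V (G × ZMod 2)}
  {ev : MvPolynomial Y F →ₐ[F] Module.End F V} {χ : Y → G} {d : Module.End F V} {w : J → Y}
  {ε : J → Module.End F V} {A : Finset Y}

theorem euler (hSupp : SuppStm.{u}) (hfin : FinG ev) (hχ : ∀ u, Γ.Hom (ev (X u)) (χ u, 0))
    (hw : ∀ u ∉ A, ∃ j, w j = u) (hd : Γ.Hom d (0, 1)) (hde : ∀ p v, d (ev p v) = ev p (d v))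
    (hdd : d * d = 0) (hε : ∀ j, d * ε j + ε j * d = ev (X (w j))) (N : ℕ)
    {Z B : Submodule F V} (hZ : Γ.Hg Z) (hB : Γ.Hg B) (sZ : St ev Z) (sB : St ev B) (hBZ : B ≤ Z)
    (dZ : ∀ v ∈ Z, d v ∈ Z) (dB : ∀ v ∈ B, d v ∈ B) (εZ : ∀ j, ∀ v ∈ Z, ε j v ∈ Z)
    (εB : ∀ j, ∀ v ∈ B, ε j v ∈ B)
    (hσ : ∀ σ ⊆ A, A.card < σ.card + N → ∃ p : MvPolynomial Y F, p ≠ 0 ∧ p.vars ⊆ σ ∧
      ∀ z ∈ Z, ev p z ∈ B) :
    ∃ k ∈ Jd χ ^ N, act (∏ u ∈ A, (1 - og (χ u))) (sd (Γ.h Z) - sd (Γ.h B)) = cf k := by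
  obtain ⟨k, hk, h⟩ := hSupp F V (G × ZMod 2) Y Γ ev (fun u => (χ u, 0)) hfin hχ A N
    (Z ⊓ B.comap d) (B ⊔ Z.map d) (hZ.inf (hB.comap hd)) (hB.sup (hZ.map hd))
    (sZ.inf (sB.comap hde)) (sB.sup (sZ.map hde))
    (sup_le (fun v hv => ⟨hBZ hv, dB v hv⟩) (by
      rintro _ ⟨v, hv, rfl⟩
      refine ⟨dZ v hv, ?_⟩
      have : d (d v) = 0 := LinearMap.congr_fun hdd v
      change d (d v) ∈ B
      rw [this]
      exact zero_mem _))
    (fun u hu z hz => by
      obtain ⟨j, rfl⟩ := hw u hu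
      rw [← hε j, add_comm]
      exact Submodule.add_mem_sup (εB j _ hz.2) ⟨_, εZ j z hz.1, rfl⟩)
    (fun σ h1 h2 => by
      obtain ⟨p, hp, hv, h3⟩ := hσ σ h1 h2
      exact ⟨p, hp, hv, fun z hz => Submodule.mem_sup_left (h3 z hz.1)⟩)
  refine ⟨sg k, sg_mem χ N hk, ?_⟩
  rw [← sd_cf, ← h, sd_act, map_prod sg]
  simp only [sg_one_sub]
  congr 1
  funext g
  have h0 := Gr.h_pair hZ hB hd (g, 0)
  have h1 := Gr.h_pair hZ hB hd (g, 1)
  simp only [Prod.mk_add_mk, add_zero, zero_add, show (1 : ZMod 2) + 1 = 0 by decide] at h0 h1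
  simp only [sd, Pi.sub_apply]
  omega

end DblAux

open DblAux in
theorem dblP (hSupp : SuppStm.{u}) : DblStm.{u} := by
  intro F E V G Y J _ _ _ _ _ _ _ _ _ _ Γ ev χ r N δ d s w ε A M hfin hχ hE hw hd hs hde hse hdE hsE
    hdd hss hsl hds hεs hε
  induction r generalizing M with
  | zero =>
    intro hM sM eM dM _ εM _
    obtain ⟨k, -, h⟩ := euler hSupp hfin hχ hw hd hde hdd hε 0 hM Γ.hg_bot sM st_bot bot_le dM
      (fun v hv => by rw [(Submodule.mem_bot F).1 hv, map_zero]; exact zero_mem _) εM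
      (fun j v hv => by rw [(Submodule.mem_bot F).1 hv, map_zero]; exact zero_mem _)
      (fun σ h1 h2 => absurd (Finset.card_le_card h1) (by omega))
    have h0 : sd (Γ.h ⊥) = 0 := by
      funext g
      simp [sd, Gr.h_bot]
    rw [h0, sub_zero] at h
    refine ⟨k, 0, by rw [h, pow_zero, one_mul, add_zero], zero_mem _, ?_⟩
    rw [← h]
    have h1 : ∀ g, (finrank F E : ℤ) ∣ Γ.h M g := fun g =>
      Int.natCast_dvd_natCast.2 (finrank_dvd _ (by
        rintro e _ ⟨v, hv, rfl⟩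
        exact ⟨e • v, eM e v hv, hE g e v⟩))
    exact act_dvd _ _ fun g => dvd_sub (h1 _) (h1 _)
  | succ r ih =>
    intro hM sM eM dM sM' εM hσ
    have hsM : ∀ k, ∀ v ∈ M.map (s 0), s k v ∈ M.map (s 0) := fun k => anti (hsl k 0) (sM' k)
    obtain ⟨κ, η, h, hη, hκ⟩ := ih (fun k => s k.succ) (M.map (s 0)) (fun k => hs _)
      (fun k => hse _) (fun k => hsE _) (fun k => hss _) (fun k l => hsl _ _) (fun k => hds _)
      (fun j k => hεs _ _) (hM.map (hs 0)) (sM.map (hse 0))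
      (by
        rintro e _ ⟨v, hv, rfl⟩
        exact ⟨e • v, eM e v hv, hsE 0 e v⟩)
      (anti (hds 0) dM) (fun k => hsM _) (fun j => anti (hεs j 0) (εM j))
      (fun σ h1 h2 => by
        obtain ⟨p, hp, hv, h3⟩ := hσ σ h1 h2
        refine ⟨p, hp, hv, fun k => ?_⟩
        obtain ⟨ι, h4, h5⟩ := h3 k.succ
        refine ⟨ι, anti (by rw [h5, if_neg (Fin.succ_ne_zero k).symm]) h4, fun l => ?_⟩
        simp only [h5, Fin.succ_inj])
    obtain ⟨k, hk, h'⟩ := euler hSupp hfin hχ hw hd hde hdd hε N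
      (hM.inf (Γ.hg_bot.comap (hs 0))) (hM.map (hs 0)) (sM.inf (st_bot.comap (hse 0)))
      (sM.map (hse 0))
      (by
        rintro _ ⟨v, hv, rfl⟩
        exact ⟨sM' 0 v hv, LinearMap.congr_fun (hss 0) v⟩)
      (antik (hds 0) dM) (anti (hds 0) dM) (fun j => antik (hεs j 0) (εM j))
      (fun j => anti (hεs j 0) (εM j))
      (fun σ h1 h2 => by
        obtain ⟨p, hp, hv, h3⟩ := hσ σ h1 h2
        refine ⟨p, hp, hv, fun z hz => ?_⟩
        obtain ⟨ι, h4, h5⟩ := h3 0
        have h6 : ι (s 0 z) + s 0 (ι z) = ev p z := by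
          have := LinearMap.congr_fun (h5 0) z
          rwa [if_pos rfl] at this
        have h7 : s 0 z = 0 := hz.2
        rw [h7, map_zero, zero_add] at h6
        exact ⟨ι z, h4 z hz.1, h6⟩)
    have h1 : sd (Γ.h M) = (sd (Γ.h (M ⊓ (⊥ : Submodule F V).comap (s 0))) -
        sd (Γ.h (M.map (s 0)))) + act (1 - og (-δ)) (sd (Γ.h (M.map (s 0)))) := by
      funext g
      have h0 := Gr.h_pair hM Γ.hg_bot (hs 0) (g, 0)
      have h1 := Gr.h_pair hM Γ.hg_bot (hs 0) (g, 1)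
      simp only [Prod.mk_add_mk, zero_add, show (1 : ZMod 2) + 1 = 0 by decide, bot_sup_eq,
        Gr.h_bot, Pi.zero_apply] at h0 h1
      simp only [map_sub, map_one, Pi.add_apply, Pi.sub_apply, LinearMap.sub_apply,
        Module.End.one_apply, act_og, sub_neg_eq_add, sd]
      omega
    refine ⟨κ, k + (1 - og (-δ)) * η, ?_, add_mem hk (Ideal.mul_mem_left _ _ hη), hκ⟩
    rw [h1, map_add, h', ← Module.End.mul_apply, ← map_mul, mul_comm, map_mul,
      Module.End.mul_apply, h, act_cf, ← cf_add]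
    congr 1
    ring

end Vale.Agent.P200G
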