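import Mathlib
import Vale.Agent.P200G.Stm2

/-! Cyclic invariance gives one factor `a` for each block. -/

namespace Vale.Agent.P200G

namespace DetectAux

section Gen

variable {G Y : Type*} [AddCommGroup G]

theorem act_one_sub (x : G) (k : AddMonoidAlgebra ℤ G) (h : G → ℤ) (g : G) :
    act ((1 - og x) * k) h g = act k h g - act k h (g - x) := by
  rw [map_mul, map_sub, map_one, Module.End.mul_apply, LinearMap.sub_apply, Pi.sub_apply, act_og,
    Module.End.one_apply]

theorem act_comp {ρ : G → G} (hρ : ∀ g x, ρ (g - x) = ρ g - ρ x) (χ : Y → G) (h : G → ℤ)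
    (s : Finset Y) (g : G) : act (∏ u ∈ s, (1 - og (ρ (χ u)))) h (ρ g) =
      act (∏ u ∈ s, (1 - og (χ u))) (fun x => h (ρ x)) g := by
  classical
  induction s using Finset.induction_on generalizing g with
  | empty => simp
  | insert u s hu ih =>
    rw [Finset.prod_insert hu, Finset.prod_insert hu, act_one_sub, act_one_sub, ← hρ, ih, ih]

theorem act_supp {p : G → Prop} {χ : Y → G} (hp : ∀ u g, p (g - χ u) → p g) {h : G → ℤ}
    (hh : ∀ g, h g ≠ 0 → p g) (s : Finset Y) (g : G)
    (hg : act (∏ u ∈ s, (1 - og (χ u))) h g ≠ 0) : p g := by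
  classical
  induction s using Finset.induction_on generalizing g with
  | empty => exact hh g (by simpa using hg)
  | insert u s hu ih =>
    rw [Finset.prod_insert hu, act_one_sub] at hg
    by_contra hc
    refine hg ?_
    rw [not_not.1 fun h1 => hc (ih g h1), not_not.1 fun h1 => hc (hp u g (ih _ h1)), sub_zero]

omit [AddCommGroup G] in
theorem mom_supp (f : G → ℤ) (K : AddMonoidAlgebra ℤ G) :
    mom f K = ∑ g ∈ K.coeff.support, cf K g * f g :=
  mom_eq_sum f K fun _ hg => Finsupp.mem_support_iff.2 hg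

omit [AddCommGroup G] in
theorem mom_comp (e : G ≃ G) {K : AddMonoidAlgebra ℤ G} (hK : ∀ g, cf K (e g) = cf K g)
    (f : G → ℤ) : mom (fun g => f (e g)) K = mom f K := by
  rw [mom_supp, mom_supp]
  refine Finset.sum_equiv e (fun g => ?_) fun g _ => by rw [hK]
  rw [Finsupp.mem_support_iff, Finsupp.mem_support_iff]
  exact (hK g).symm.congr_left.not

end Gen

variable {τ a n : ℕ} [NeZero a]

/-- The rotation as a permutation. -/
def rotE (m : Fin τ) : Gt τ a ≃ Gt τ a where
  toFun := rot m
  invFun g := (fun x => if x.1 = m then g.1 (x.1, x.2 + 1) else g.1 x, g.2)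
  left_inv g := by
    refine Prod.ext (funext fun x => ?_) rfl
    by_cases h : x.1 = m
    · subst h
      simp [rot]
    · simp [rot, h]
  right_inv g := by
    refine Prod.ext (funext fun x => ?_) rfl
    by_cases h : x.1 = m
    · subst h
      simp [rot]
    · simp [rot, h]

theorem rot_sub (m : Fin τ) (g x : Gt τ a) : rot m (g - x) = rot m g - rot m x := by
  refine Prod.ext (funext fun y => ?_) rfl
  by_cases h : y.1 = m <;> simp [rot, h]

theorem rot_chi (m : Fin τ) (u : Yt τ a n) :
    rot m (chi u) = chi (shY (Pi.single m 1) u) := by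
  refine Prod.ext (funext fun y => ?_) rfl
  obtain ⟨i, j, k⟩ := u
  obtain ⟨y1, y2⟩ := y
  by_cases h : y1 = m <;> by_cases h' : i = m <;>
    simp [rot, chi, shY, h, h', Pi.single_apply, sub_eq_iff_eq_add, Ne.symm]

theorem shY_bij (s : Fin τ → Fin a) : Function.Bijective (shY s : Yt τ a n → Yt τ a n) := by
  refine Finite.injective_iff_bijective.1 ?_
  rintro ⟨i, j, k⟩ ⟨i', j', k'⟩ h
  simp only [shY, Prod.mk.injEq] at h
  obtain ⟨rfl, h, rfl⟩ := h
  rw [add_right_cancel h]

theorem chi_sum (u : Yt τ a n) (m : Fin τ) : ∑ j, (chi u).1 (m, j) = 0 := by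
  obtain ⟨i, j, k⟩ := u
  by_cases h : m = i <;> simp [chi, h, Pi.single_apply, Finset.sum_sub_distrib]

theorem const_of_succ {A : Fin a → ℤ} (h : ∀ j, A (j - 1) = A j) (j : Fin a) : A j = A 0 := by
  obtain ⟨b, rfl⟩ := Nat.exists_eq_succ_of_ne_zero (NeZero.ne a)
  induction j using Fin.induction with
  | zero => rfl
  | succ i ih => rw [← h, ← Fin.coeSucc_eq_succ, add_sub_cancel_right, ih]

end DetectAux

open DetectAux in
theorem detectP : DetectStm := by
  intro τ a n r _ h K hK hr hs
  have h1 : ∀ m g, cf K (rot m g) = cf K g := by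
    intro m g
    have e := act_comp (rot_sub m) (chi : Yt τ a n → Gt τ a) h Finset.univ g
    simp only [rot_chi, hr] at e
    rw [(shY_bij (Pi.single m 1)).prod_comp fun u : Yt τ a n => 1 - og (chi u), hK] at e
    exact e
  have h2 : ∀ g, cf K g ≠ 0 → ∀ m, ∑ j, g.1 (m, j) = 1 := by
    intro g hg
    refine act_supp (χ := (chi : Yt τ a n → Gt τ a)) (fun u x hx m => ?_) hs Finset.univ g
      (by rwa [hK])
    have := hx m
    simp only [Prod.fst_sub, Pi.sub_apply, Finset.sum_sub_distrib, chi_sum, sub_zero] at this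
    exact this
  have key : ∀ t : Finset (Fin τ), mom (fun g => g.2 ^ r) K =
      (a : ℤ) ^ t.card * mom (fun g => (∏ m ∈ t, g.1 (m, 0)) * g.2 ^ r) K := by
    intro t
    induction t using Finset.induction_on with
    | empty => simp
    | insert m t hm ih =>
      obtain ⟨f, hf⟩ : ∃ f : Gt τ a → ℤ, f = fun g => (∏ m ∈ t, g.1 (m, 0)) * g.2 ^ r := ⟨_, rfl⟩
      have f1 : ∀ g, f (rot m g) = f g := by
        intro g
        rw [hf]
        refine congrArg (· * g.2 ^ r) (Finset.prod_congr rfl fun i hi => ?_)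
        exact if_neg fun e : i = m => hm (e ▸ hi)
      have f2 : ∀ j, mom (fun g => g.1 (m, j) * f g) K = mom (fun g => g.1 (m, 0) * f g) K := by
        refine const_of_succ fun j => ?_
        rw [← mom_comp (rotE m) (h1 m) fun g => g.1 (m, j) * f g]
        congr 1
        funext g
        show _ = (rot m g).1 (m, j) * f (rot m g)
        rw [f1, rot]
        simp
      have f3 : mom f K = ∑ j, mom (fun g => g.1 (m, j) * f g) K := by
        simp only [mom_supp]
        rw [Finset.sum_comm]
        refine Finset.sum_congr rfl fun g hg => ?_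
        rw [← Finset.mul_sum, ← Finset.sum_mul, h2 g (Finsupp.mem_support_iff.1 hg), one_mul]
      rw [ih, ← hf, f3, Finset.card_insert_of_notMem hm, pow_succ, mul_assoc]
      simp only [f2, Finset.sum_const, Finset.card_univ, Fintype.card_fin, nsmul_eq_mul,
        Finset.prod_insert hm, mul_assoc]
      rw [hf]
  simpa using key Finset.univ

end Vale.Agent.P200G
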