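import Mathlib
import Vale.Agent.P200G.Stm2

/-! Linear algebra: dual bases, base change and completion by coordinate vectors. -/

universe u

namespace Vale.Agent.P200G

open Module TensorProduct Vale.Agent.P200

namespace DualAux

variable {K D S : Type u} [Field K] [DivisionRing D] [Algebra K D] [CommRing S] [Algebra K S]

theorem one (P Q : Submodule K S) (s : ℕ) (w : Fin s → S)
    (h : P ≤ Q ⊔ Submodule.span K (Set.range w)) :
    ∃ q ≤ s, ∃ (g : Fin q → S) (ψ : Fin q → S →ₗ[K] K), (∀ l, g l ∈ P) ∧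
      (∀ l l', ψ l (g l') = if l = l' then 1 else 0) ∧ ∀ p ∈ P, p - ∑ l, ψ l p • g l ∈ Q := by
  have h1 : P.map Q.mkQ ≤ Submodule.span K (Set.range (Q.mkQ ∘ w)) := by
    refine (Submodule.map_mono h).trans ?_
    rw [Submodule.map_sup, Submodule.mkQ_map_self, bot_sup_eq, Submodule.map_span,
      ← Set.range_comp]
  have : FiniteDimensional K (Submodule.span K (Set.range (Q.mkQ ∘ w))) :=
    FiniteDimensional.span_of_finite K (Set.finite_range _)
  have := Submodule.finiteDimensional_of_le h1
  have h2 : finrank K (P.map Q.mkQ) ≤ s :=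
    (Submodule.finrank_mono h1).trans ((finrank_range_le_card _).trans (Fintype.card_fin s).le)
  let b := Module.finBasis K (P.map Q.mkQ)
  choose g hg1 hg2 using fun l => Submodule.mem_map.1 (b l).2
  choose φ hφ using fun l => LinearMap.exists_extend (b.coord l)
  have h3 : ∀ l (x : P.map Q.mkQ), φ l x = b.repr x l := fun l x =>
    LinearMap.congr_fun (hφ l) x
  refine ⟨_, h2, g, fun l => φ l ∘ₗ Q.mkQ, hg1, fun l l' => ?_, fun p hp => ?_⟩
  · rw [LinearMap.comp_apply, hg2, h3, b.repr_self, Finsupp.single_apply]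
    simp only [eq_comm]
  · rw [← Submodule.Quotient.mk_eq_zero, ← Submodule.mkQ_apply, map_sub, map_sum, sub_eq_zero]
    have h4 := congrArg Subtype.val (b.sum_repr ⟨Q.mkQ p, p, hp, rfl⟩)
    rw [Submodule.coe_sum] at h4
    refine h4.symm.trans (Finset.sum_congr rfl fun l _ => ?_)
    rw [map_smul, hg2, LinearMap.comp_apply, Submodule.coe_smul, ← h3]

theorem two (P Q : Submodule K S) (q : ℕ) (g : Fin q → S) (ψ : Fin q → S →ₗ[K] K)
    (h : ∀ p ∈ P, p - ∑ l, ψ l p • g l ∈ Q) : ∀ x ∈ P.baseChange D,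
      x - ∑ l, ev (D := D) (ψ l) x • ((1 : D) ⊗ₜ[K] g l) ∈ Q.baseChange D := by
  rintro _ ⟨x, rfl⟩
  induction x using TensorProduct.induction_on with
  | zero => simp
  | tmul a p =>
    have e : ∀ l, (ψ l p • a) • ((1 : D) ⊗ₜ[K] g l) = a ⊗ₜ[K] (ψ l p • g l) := fun l => by
      rw [smul_tmul', smul_eq_mul, mul_one, smul_tmul]
    simp only [LinearMap.baseChange_tmul, Submodule.subtype_apply, ev_tmul, e]
    rw [← tmul_sum, ← tmul_sub]
    exact Submodule.tmul_mem_baseChange_of_mem _ (h p p.2)
  | add x y hx hy =>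
    simp only [map_add, add_smul, Finset.sum_add_distrib]
    rw [add_sub_add_comm]
    exact add_mem hx hy

theorem three (m n : ℕ) (v : Fin m → Fin n → K) (hv : LinearIndependent K v) :
    LinearIndependent D fun i j => algebraMap K D (v i j) := by
  obtain ⟨r, hr⟩ := (Fintype.linearCombination K v).exists_leftInverse_of_injective
    (LinearMap.ker_eq_bot.2 (linearIndependent_iff_injective_fintypeLinearCombination.1 hv))
  have h1 : ∀ i k, ∑ j, v i j * r (Pi.single j 1) k = if i = k then 1 else 0 := fun i k => by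
    have a1 := LinearMap.congr_fun hr (Pi.single i 1)
    rw [LinearMap.comp_apply, Fintype.linearCombination_apply_single, one_smul,
      LinearMap.id_apply, LinearMap.pi_apply_eq_sum_univ] at a1
    have a2 := congrFun a1 k
    rw [Finset.sum_apply, Pi.single_apply] at a2
    simp only [eq_comm (a := i)]
    refine Eq.trans (Finset.sum_congr rfl fun j _ => ?_) a2
    have e : (Pi.single j 1 : Fin n → K) = fun j' => if j = j' then 1 else 0 := by
      funext j'
      simp [Pi.single_apply, eq_comm]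
    rw [Pi.smul_apply, smul_eq_mul, e]
  refine Fintype.linearIndependent_iff.2 fun c hc k => ?_
  have h2 : ∀ j, ∑ i, c i * algebraMap K D (v i j) = 0 := fun j => by
    simpa using congrFun hc j
  have h3 : ∑ j, (∑ i, c i * algebraMap K D (v i j)) * algebraMap K D (r (Pi.single j 1) k) = 0 := by
    simp [h2]
  simp only [Finset.sum_mul, mul_assoc, ← map_mul] at h3
  rw [Finset.sum_comm] at h3
  simp only [← Finset.mul_sum, ← map_sum, h1] at h3
  simpa [apply_ite] using h3

theorem step {n k : ℕ} (v : Fin k → Fin n → D) (hv : LinearIndependent D v) (hk : k < n) :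
    ∃ j : Fin n, LinearIndependent D (Fin.snoc v (Pi.single j 1) : Fin (k + 1) → Fin n → D) := by
  by_contra hc
  have h1 : ∀ j : Fin n, (Pi.single j 1 : Fin n → D) ∈ Submodule.span D (Set.range v) := fun j => by
    by_contra h
    exact hc ⟨j, linearIndependent_finSnoc.2 ⟨hv, h⟩⟩
  have h2 : Submodule.span D (Set.range v) = ⊤ := by
    rw [eq_top_iff, ← (Pi.basisFun D (Fin n)).span_eq, Submodule.span_le]
    rintro _ ⟨j, rfl⟩
    rw [Pi.basisFun_apply]
    exact h1 j
  have h3 := finrank_span_eq_card hv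
  rw [h2, finrank_top, finrank_fin_fun, Fintype.card_fin] at h3
  omega

theorem four (m : ℕ) (v : Fin m → Fin (m + 2) → D) (hv : LinearIndependent D v) :
    ∃ j₀ j₁ : Fin (m + 2), Submodule.span D
      (Set.range v ∪ {Pi.single j₀ 1, Pi.single j₁ 1}) = ⊤ := by
  obtain ⟨j₀, h0⟩ := step v hv (by omega)
  obtain ⟨j₁, h1⟩ := step _ h0 (by omega)
  refine ⟨j₀, j₁, ?_⟩
  rw [eq_top_iff, ← h1.span_eq_top_of_card_eq_finrank (by simp)]
  refine Submodule.span_mono ?_
  rw [Fin.range_snoc, Fin.range_snoc]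
  rintro x (rfl | rfl | hx)
  · exact Or.inr (Or.inr rfl)
  · exact Or.inr (Or.inl rfl)
  · exact Or.inl hx

end DualAux

theorem dualP : DualStm.{u} := fun _ _ _ _ _ _ _ _ =>
  ⟨fun P Q s w _ h => DualAux.one P Q s w h, DualAux.two, DualAux.three, DualAux.four⟩

end Vale.Agent.P200G
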