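import Mathlib
import Vale.Agent.P200G.Stm2

/-! Equations of a base point free linear system. -/

namespace Vale.Agent.P200G

open Module MvPolynomial

universe u

namespace EchAux

variable {K : Type*} [Field K] {n a : ℕ}

theorem mem_span {g : MvPolynomial (Fin n) K} (hg : g.IsHomogeneous a) :
    g ∈ Submodule.span K (Set.range fun i : Fin a → Fin n => mon K i) := by
  have h : g ∈ homogeneousSubmodule (Fin n) K a := hg
  rw [← homogeneousSubmodule_one_pow, homogeneousSubmodule_one_eq_span_X, Submodule.span_pow] at h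
  refine Submodule.span_mono (fun x hx => ?_) h
  obtain ⟨e, he, rfl⟩ := Set.mem_pow_iff_prod.1 hx
  choose i hi using he
  exact ⟨i, Finset.prod_congr rfl fun j _ => hi j⟩

theorem dual {V ι : Type*} [AddCommGroup V] [Module K V] [Finite ι] (v : ι → V) :
    ∃ (r : ℕ) (α : Fin r → ι) (ψ : V →ₗ[K] Fin r → K), (∀ l, ψ (v (α l)) = Pi.single l 1) ∧
      ∀ x ∈ Submodule.span K (Set.range v), ψ x = 0 → x = 0 := by
  obtain ⟨κ, β, hβ, hs, hl⟩ := exists_linearIndependent' K v
  have : Finite κ := Finite.of_injective β hβ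
  obtain ⟨r, ⟨e⟩⟩ := Finite.exists_equiv_fin κ
  have hl' : LinearIndependent K (v ∘ β ∘ e.symm) := hl.comp _ e.symm.injective
  obtain ⟨ψ, hψ⟩ := (Fintype.linearCombination K (v ∘ β ∘ e.symm)).exists_leftInverse_of_injective
    (LinearMap.ker_eq_bot.2 hl'.fintypeLinearCombination_injective)
  have hψ' : ∀ c, ψ (Fintype.linearCombination K (v ∘ β ∘ e.symm) c) = c := fun c =>
    LinearMap.congr_fun hψ c
  refine ⟨r, β ∘ e.symm, ψ, fun l => ?_, fun x hx h0 => ?_⟩
  · rw [← hψ' (Pi.single l 1), Fintype.linearCombination_apply_single, one_smul]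
    rfl
  · have hr : Set.range (v ∘ β ∘ e.symm) = Set.range (v ∘ β) :=
      e.symm.surjective.range_comp (v ∘ β)
    rw [← hs, ← hr, ← Fintype.range_linearCombination] at hx
    obtain ⟨c, rfl⟩ := hx
    rw [hψ'] at h0
    rw [h0, map_zero]

end EchAux

open EchAux in
theorem echP : EchStm.{u} := by
  intro K _ n a I f dg ha hf hd hI hX
  obtain ⟨r, α, ψ, h1, h2⟩ :=
    dual (K := K) fun i : Fin a → Fin n => (I.restrictScalars K).mkQ (mon K i)
  let φ : Fin r → MvPolynomial (Fin n) K →ₗ[K] K := fun k =>
    LinearMap.proj k ∘ₗ ψ ∘ₗ (I.restrictScalars K).mkQ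
  have hE : ∀ k l, φ k (mon K (α l)) = if k = l then 1 else 0 := fun k l => by
    have := congrFun (h1 l) k
    rw [Pi.single_apply] at this
    exact this
  have h0 : ∀ g ∈ I, ∀ k, φ k g = 0 := fun g hg k => by
    have : (I.restrictScalars K).mkQ g = 0 := (Submodule.Quotient.mk_eq_zero _).2 hg
    simp only [φ, LinearMap.comp_apply, this, map_zero]
  refine ⟨r, φ, ⟨α, hE⟩, fun L _ _ lam c p h => ?_, fun g hg => ⟨h0 g, fun h => ?_⟩⟩
  · have key : ∀ g : MvPolynomial (Fin n) K, g.IsHomogeneous a →
        ∑ k, lam k * algebraMap K L (φ k g) = c * aeval p g := fun g hg => by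
      have hs := mem_span hg
      clear hg
      induction hs using Submodule.span_induction with
      | mem x hx =>
        obtain ⟨i, rfl⟩ := hx
        rw [h i]
        simp [mon]
      | zero => simp
      | add x y _ _ hx hy => simp only [map_add, mul_add, Finset.sum_add_distrib, hx, hy]
      | smul b x _ hx =>
        rw [map_smul, mul_smul_comm, ← hx, Finset.smul_sum]
        exact Finset.sum_congr rfl fun k _ => by
          rw [map_smul, smul_eq_mul, map_mul, Algebra.smul_def]; ring
    have hz : ∀ j, c * p j = 0 := fun j => by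
      by_contra hne
      obtain ⟨hc, hp⟩ := mul_ne_zero_iff.1 hne
      have hf0 : ∀ i, aeval p (f i) = 0 := fun i => by
        have hh : (f i * X j ^ (a - dg i)).IsHomogeneous a := by
          have := (hf i).mul (isHomogeneous_X_pow (R := K) j (a - dg i))
          rwa [Nat.add_sub_cancel' (hd i)] at this
        have := key _ hh
        simp only [h0 _ (I.mul_mem_right _ (hI i)), map_zero, mul_zero, Finset.sum_const_zero,
          map_mul, map_pow, aeval_X] at this
        simpa [hc, hp] using this.symm
      obtain ⟨d, hd'⟩ := hX j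
      have hk : Ideal.span (Set.range f) ≤ RingHom.ker (aeval p : _ →ₐ[K] L) :=
        Ideal.span_le.2 (by rintro _ ⟨i, rfl⟩; exact hf0 i)
      have := RingHom.mem_ker.1 (hk hd')
      rw [map_pow, aeval_X] at this
      exact pow_ne_zero d hp this
    funext l
    have := h (α l)
    rw [← Finset.mul_prod_erase _ _ (Finset.mem_univ (⟨0, ha⟩ : Fin a)), ← mul_assoc, hz,
      zero_mul] at this
    simpa [hE] using this
  · refine (Submodule.Quotient.mk_eq_zero (I.restrictScalars K)).1 (h2 _ ?_ (funext h))
    have := Submodule.mem_map_of_mem (f := (I.restrictScalars K).mkQ) (mem_span hg)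
    rwa [Submodule.map_span, ← Set.range_comp] at this

end Vale.Agent.P200G
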