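import Mathlib
import Vale.Agent.P200G.Stm2

/-! The matrices are finite over the invariants. -/

namespace Vale.Agent.P200G

open Module MvPolynomial TensorProduct

universe u

namespace FinBAux

variable {F P B : Type*} [Field F] [CommRing P] [Algebra F P] [Ring B] [Algebra F B]

/-- Combinations of the elements of `s` with coefficients from `Z`. -/
def Qs (Z : Subalgebra F P) (ψ : P →ₐ[F] B) (s : Finset B) : Submodule F B where
  carrier := {b | ∃ c : B → P, (∀ y, c y ∈ Z) ∧ b = ∑ y ∈ s, ψ (c y) * y}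
  add_mem' := by
    rintro _ _ ⟨c, hc, rfl⟩ ⟨c', hc', rfl⟩
    exact ⟨fun y => c y + c' y, fun y => add_mem (hc y) (hc' y), by
      simp only [map_add, add_mul, Finset.sum_add_distrib]⟩
  zero_mem' := ⟨fun _ => 0, fun _ => zero_mem _, by simp⟩
  smul_mem' := by
    rintro t _ ⟨c, hc, rfl⟩
    exact ⟨fun y => t • c y, fun y => Z.smul_mem (hc y) t, by
      simp only [map_smul, smul_mul_assoc, Finset.smul_sum]⟩

theorem Qs_mul {Z : Subalgebra F P} {ψ : P →ₐ[F] B} {s : Finset B} {z : P} (hz : z ∈ Z) {b : B}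
    (hb : b ∈ Qs Z ψ s) : ψ z * b ∈ Qs Z ψ s := by
  obtain ⟨c, hc, rfl⟩ := hb
  exact ⟨fun y => z * c y, fun y => mul_mem hz (hc y), by
    simp only [map_mul, mul_assoc, Finset.mul_sum]⟩

theorem Qs_mem {Z : Subalgebra F P} {ψ : P →ₐ[F] B} {s : Finset B} {b : B} (hb : b ∈ s) :
    b ∈ Qs Z ψ s := by
  classical
  refine ⟨fun y => if y = b then 1 else 0, fun y => ?_, ?_⟩
  · show ite _ _ _ ∈ Z
    split_ifs
    exacts [one_mem _, zero_mem _]
  · rw [Finset.sum_eq_single_of_mem b hb fun y _ h => by simp [h]]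
    simp

theorem scalar_mul_single {ι A : Type*} [Fintype ι] [DecidableEq ι] [Ring A] (x y : A) (i j : ι) :
    Matrix.scalar ι x * Matrix.single i j y = Matrix.single i j (x * y) := by
  ext k l
  rw [Matrix.scalar_apply, Matrix.diagonal_mul]
  simp only [Matrix.single_apply, mul_ite, mul_zero]

end FinBAux

open FinBAux in
theorem finBP (hFinP : FinPStm.{u}) : FinBStm.{u} := by
  classical
  intro F E _ _ _ _ τ a n r _ φ ζ
  choose s hs using fun ν ν' : Fin τ → Fin a => hFinP F τ a n ((posn ν).1 - (posn ν').1)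
  let bas := Module.finBasis F E
  let S : Finset (Matrix (Fin τ → Fin a) (Fin τ → Fin a) (Ar E τ a φ)) :=
    Finset.univ.biUnion fun ν => Finset.univ.biUnion fun ν' => Finset.univ.biUnion fun i =>
      (s ν ν').image fun p => Matrix.single ν ν' (inE E τ a φ (bas i) * evA E τ a φ p)
  let ψ := (Matrix.scalarAlgHom (Fin τ → Fin a) F).comp (evA E τ a φ)
  have h1 : ∀ ν ν' i, ∀ p ∈ Submodule.span (Zinv F τ a n)
      (s ν ν' : Set (MvPolynomial (Yt τ a n) F)),
      Matrix.single ν ν' (inE E τ a φ (bas i) * evA E τ a φ p) ∈ Qs (Zinv F τ a n) ψ S := by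
    intro ν ν' i p hp
    induction hp using Submodule.span_induction with
    | mem p hp =>
      refine Qs_mem ?_
      simp only [S, Finset.mem_biUnion, Finset.mem_univ, true_and, Finset.mem_image]
      exact ⟨ν, ν', i, p, hp, rfl⟩
    | zero =>
      rw [map_zero, mul_zero, Matrix.single_zero]
      exact zero_mem _
    | add p q _ _ hp hq =>
      rw [map_add, mul_add, Matrix.single_add]
      exact add_mem hp hq
    | smul z p _ hp =>
      have h2 := Qs_mul z.2 hp
      have h3 : ψ z = Matrix.scalar _ (evA E τ a φ z) := rfl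
      rw [h3, scalar_mul_single, ← mul_assoc, evA_comm, mul_assoc, ← map_mul] at h2
      exact h2
  have h2 : ∀ ν ν' (d : ℕ), ∀ x ∈ Asp E τ a φ
      {α | Finsupp.weight chi α = posn ν - posn ν' + ((0, (d : ℤ)) : Gt τ a)},
      Matrix.single ν ν' x ∈ Qs (Zinv F τ a n) ψ S := by
    intro ν ν' d x hx
    induction hx using Submodule.span_induction with
    | mem x hx =>
      obtain ⟨e, α, hα, rfl⟩ := hx
      have h3 := hs ν ν' α (by
        rw [show Finsupp.weight chi α = _ from hα]
        simp)
      have h4 : Matrix.single ν ν' (inE E τ a φ e * evA E τ a φ (monomial α 1)) =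
          ∑ i, bas.repr e i •
            Matrix.single ν ν' (inE E τ a φ (bas i) * evA E τ a φ (monomial α 1)) := by
        conv_lhs => rw [← bas.sum_repr e]
        rw [map_sum, Finset.sum_mul, ← Matrix.singleLinearMap_apply F, map_sum]
        refine Finset.sum_congr rfl fun i _ => ?_
        rw [map_smul, smul_mul_assoc, map_smul, Matrix.singleLinearMap_apply]
      rw [h4]
      exact Submodule.sum_mem _ fun i _ => Submodule.smul_mem _ _ (h1 ν ν' i _ h3)
    | zero =>
      rw [Matrix.single_zero]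
      exact zero_mem _
    | add x y _ _ hx hy =>
      rw [Matrix.single_add]
      exact add_mem hx hy
    | smul c x _ hx =>
      rw [← Matrix.smul_single]
      exact Submodule.smul_mem _ _ hx
  have h3 : ⨆ d, Hd E τ a φ ζ d ≤ Qs (Zinv F τ a n) ψ S := by
    refine iSup_le fun d b hb => ?_
    rw [Matrix.matrix_eq_sum_single b]
    exact Submodule.sum_mem _ fun ν _ => Submodule.sum_mem _ fun ν' _ => h2 ν ν' d _ (hb.1 ν ν')
  exact ⟨S, fun b hb => h3 hb⟩

end Vale.Agent.P200G
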