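import Mathlib
import Vale.Agent.P200G.Stm2

/-! Weight spaces are finite over the invariants. -/

namespace Vale.Agent.P200G

open MvPolynomial

universe u

namespace FinPAux

variable {F : Type*} [Field F] {τ a n : ℕ} [NeZero a]

theorem wt_sh (s : Fin τ → Fin a) (α : Yt τ a n →₀ ℕ) :
    (∀ x : Fin τ × Fin a, (Finsupp.weight chi (α.mapDomain (shY s))).1 x =
      (Finsupp.weight chi α).1 (x.1, x.2 - s x.1)) ∧
    (Finsupp.weight chi (α.mapDomain (shY s))).2 = (Finsupp.weight chi α).2 := by
  induction α using Finsupp.induction_linear with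
  | zero => simp
  | add f g hf hg =>
    simp only [Finsupp.mapDomain_add, map_add, Prod.fst_add, Prod.snd_add, Pi.add_apply]
    exact ⟨fun x => by rw [hf.1, hg.1], by rw [hf.2, hg.2]⟩
  | single u k =>
    rw [Finsupp.mapDomain_single, Finsupp.weight_single, Finsupp.weight_single]
    refine ⟨fun x => ?_, rfl⟩
    obtain ⟨m, j⟩ := x
    obtain ⟨m', j', i⟩ := u
    have e : ∀ t : Fin a, ((m, j) = (m', t + s m')) ↔ ((m, j - s m) = (m', t)) := fun t => by
      simp only [Prod.mk.injEq]
      constructor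
      · rintro ⟨rfl, rfl⟩; simp
      · rintro ⟨rfl, rfl⟩; simp
    simp only [chi, shY, Prod.smul_fst, Pi.smul_apply, Pi.sub_apply, Pi.single_apply,
      add_right_comm j' (s m') 1, e]

theorem wt_snd (α : Yt τ a n →₀ ℕ) : ∃ d : ℕ, (Finsupp.weight chi α).2 = (d : ℤ) := by
  induction α using Finsupp.induction_linear with
  | zero => exact ⟨0, by simp⟩
  | add f g hf hg =>
    obtain ⟨d, hd⟩ := hf
    obtain ⟨e, he⟩ := hg
    exact ⟨d + e, by simp [hd, he]⟩
  | single u k => exact ⟨k, by simp [Finsupp.weight_single, chi]⟩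

theorem sh_sh (s s' : Fin τ → Fin a) (p : MvPolynomial (Yt τ a n) F) :
    rename (shY s') (rename (shY s) p) = rename (shY (s + s')) p := by
  rw [rename_rename]
  congr 2
  funext u
  simp [shY, add_assoc]

theorem sh_zero (p : MvPolynomial (Yt τ a n) F) : rename (shY (0 : Fin τ → Fin a)) p = p := by
  have : (shY (0 : Fin τ → Fin a) : Yt τ a n → Yt τ a n) = id := by
    funext u; simp [shY]
  rw [this, rename_id_apply]

theorem integral (α : Yt τ a n →₀ ℕ) (h : (Finsupp.weight chi α).1 = 0) :
    IsIntegral (Zinv F τ a n) (monomial α (1 : F)) := by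
  classical
  obtain ⟨d, hd⟩ := wt_snd α
  set c : (Fin τ → Fin a) → MvPolynomial (Yt τ a n) F :=
    fun s => rename (shY s) (monomial α (1 : F)) with hc
  have hw : ∀ s, (c s).IsWeightedHomogeneous chi ((0, (d : ℤ)) : Gt τ a) := fun s => by
    simp only [hc, rename_monomial]
    refine isWeightedHomogeneous_monomial _ _ _ (Prod.ext (funext fun x => ?_) ?_)
    · rw [(wt_sh s α).1, h]; rfl
    · rw [(wt_sh s α).2, hd]
  set q : Polynomial (MvPolynomial (Yt τ a n) F) :=
    ∏ s, (Polynomial.X + Polynomial.C (c s)) with hq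
  have hm : q.Monic := Polynomial.monic_prod_of_monic _ _ fun s _ => Polynomial.monic_X_add_C _
  have hmap : ∀ s', q.map (rename (shY s')).toRingHom = q := fun s' => by
    rw [hq, Polynomial.map_prod]
    refine Fintype.prod_equiv (Equiv.addRight s') _ _ fun s => ?_
    simp [hc, sh_sh, -rename_rename]
  have hco : ∀ k, q.coeff k ∈ Zinv F τ a n := fun k => by
    by_cases hk : k ≤ (Finset.univ : Finset (Fin τ → Fin a)).card
    · refine Algebra.subset_adjoin
        ⟨((Finset.univ : Finset (Fin τ → Fin a)).card - k) * d, ?_, fun s' => ?_⟩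
      · rw [hq, Finset.prod_X_add_C_coeff _ _ hk]
        refine IsWeightedHomogeneous.sum _ _ _ fun t ht => ?_
        have := IsWeightedHomogeneous.prod t c (fun _ => ((0, (d : ℤ)) : Gt τ a)) fun s _ => hw s
        rw [Finset.sum_const, (Finset.mem_powersetCard.1 ht).2] at this
        simpa using this
      · have := congrArg (fun p => Polynomial.coeff p k) (hmap s')
        simpa using this
    · rw [Polynomial.coeff_eq_zero_of_natDegree_lt]
      · exact zero_mem _
      · refine lt_of_le_of_lt ?_ (not_le.1 hk)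
        rw [hq]
        refine (Polynomial.natDegree_prod_le _ _).trans ?_
        rw [Finset.card_eq_sum_ones]
        exact Finset.sum_le_sum fun s _ => (Polynomial.natDegree_X_add_C _).le
  obtain ⟨q', h1, -, h2⟩ := Polynomial.lifts_and_natDegree_eq_and_monic
    ((Polynomial.lifts_iff_coeff_lifts (f := algebraMap (Zinv F τ a n) _) q).2
      fun k => ⟨⟨_, hco k⟩, rfl⟩) hm
  have hn : IsIntegral (Zinv F τ a n) (-monomial α (1 : F)) := by
    refine ⟨q', h2, ?_⟩
    rw [← Polynomial.eval_map, h1, hq, Polynomial.eval_prod]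
    refine Finset.prod_eq_zero (Finset.mem_univ 0) ?_
    simp [hc, sh_zero]
  simpa using hn.neg

theorem zero_case : ∃ s : Finset (MvPolynomial (Yt τ a n) F), ∀ α : Yt τ a n →₀ ℕ,
    (Finsupp.weight chi α).1 = 0 →
    monomial α (1 : F) ∈ Submodule.span (Zinv F τ a n) (s : Set (MvPolynomial (Yt τ a n) F)) := by
  classical
  obtain ⟨t, ht⟩ := AddSubmonoid.fg_eqLocusM
    ((AddMonoidHom.fst _ _).comp (Finsupp.weight (R := ℕ) (chi : Yt τ a n → Gt τ a))) 0
  have hmem : ∀ α : Yt τ a n →₀ ℕ,
      α ∈ AddSubmonoid.closure (t : Set (Yt τ a n →₀ ℕ)) ↔ (Finsupp.weight chi α).1 = 0 :=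
    fun α => by rw [ht]; rfl
  obtain ⟨s, hs⟩ := fg_adjoin_of_finite (R := Zinv F τ a n)
    (s := (fun α => monomial α (1 : F)) '' (t : Set (Yt τ a n →₀ ℕ)))
    (t.finite_toSet.image _) (by
      rintro _ ⟨α, hα, rfl⟩
      exact integral α ((hmem α).1 (AddSubmonoid.subset_closure hα)))
  refine ⟨s, fun α hα => ?_⟩
  rw [hs, Subalgebra.mem_toSubmodule]
  have hα' := (hmem α).2 hα
  clear hα
  induction hα' using AddSubmonoid.closure_induction with
  | mem β hβ => exact Algebra.subset_adjoin ⟨β, hβ, rfl⟩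
  | zero => exact one_mem _
  | add β γ _ _ h1 h2 =>
    have := mul_mem h1 h2
    rwa [monomial_mul, one_mul] at this

end FinPAux

theorem finPP : FinPStm.{u} := by
  classical
  intro F _ τ a n _ x
  obtain ⟨s0, h0⟩ := FinPAux.zero_case (F := F) (τ := τ) (a := a) (n := n)
  have hfin : {α : Yt τ a n →₀ ℕ | Minimal (fun β => (Finsupp.weight chi β).1 = x) α}.Finite :=
    WellQuasiOrderedLE.finite_of_isAntichain (setOfPred_minimal_antichain _)
  refine ⟨(s0 ×ˢ hfin.toFinset).image fun y => y.1 * monomial y.2 (1 : F), fun α hα => ?_⟩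
  obtain ⟨β, hβ, hmin⟩ := exists_minimal_le_of_wellFoundedLT
    (fun β => (Finsupp.weight chi β).1 = x) α hα
  obtain ⟨γ, rfl⟩ := exists_add_of_le hβ
  have hγ : (Finsupp.weight chi γ).1 = 0 := by
    rw [map_add, Prod.fst_add, hmin.1] at hα
    exact add_eq_left.1 hα
  have e : monomial (β + γ) (1 : F) = monomial γ (1 : F) * monomial β (1 : F) := by
    rw [monomial_mul, one_mul, add_comm]
  rw [e]
  have h1 := h0 γ hγ
  generalize monomial γ (1 : F) = p at h1
  induction h1 using Submodule.span_induction with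
  | mem y hy =>
    refine Submodule.subset_span (Finset.mem_coe.2 (Finset.mem_image.2 ⟨(y, β), ?_, rfl⟩))
    exact Finset.mem_product.2 ⟨hy, hfin.mem_toFinset.2 hmin⟩
  | zero => rw [zero_mul]; exact zero_mem _
  | add y z _ _ hy hz => rw [add_mul]; exact add_mem hy hz
  | smul r y _ hy => rw [smul_mul_assoc]; exact Submodule.smul_mem _ _ hy

end Vale.Agent.P200G
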