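import Mathlib
import Vale.Agent.P200G.Stm2

/-! Extension of the ground field. -/

namespace Vale.Agent.P200G

open Module MvPolynomial Vale.Agent.P200

universe u

theorem egh_of_closed (hC : ClosedStm.{u}) (K : Type u) [Field K] (n c : ℕ) (hc : c ≤ n)
    (h2 : 2 ≤ c) (a : Fin c → ℕ) (ha : ∀ i, 2 ≤ a i) (hmono : Monotone a)
    (heq : ∀ i j : Fin c, 2 ≤ i.val → 2 ≤ j.val → a i = a j)
    (f : Fin c → MvPolynomial (Fin n) K) (hf : ∀ i, (f i).IsHomogeneous (a i))
    (hreg : ∀ i g, f i * g ∈ Ideal.span (f '' {j | j < i}) → g ∈ Ideal.span (f '' {j | j < i}))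
    (I : Ideal (MvPolynomial (Fin n) K)) (hI : ∀ p ∈ I, ∀ d, homogeneousComponent d p ∈ I)
    (hfI : ∀ i, f i ∈ I) :
    ∃ 𝓜 : Set (Fin n →₀ ℕ),
      (∀ i : Fin c, X (Fin.castLE hc i) ^ a i ∈
        Ideal.span ((fun m => monomial m (1 : K)) '' 𝓜)) ∧
      ∀ d, finrank K (idealDeg I d) =
        finrank K (idealDeg (Ideal.span ((fun m => monomial m (1 : K)) '' 𝓜)) d) := by
  let L := AlgebraicClosure K
  obtain ⟨𝓜, h1, h3, h4⟩ := hC L n c hc a (fun k => map (algebraMap K L) (f k)) h2 ha hmono heq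
    (fun k => (hf k).map _)
    (by
      have := isWeaklyRegular_map (L := L) (isWeaklyRegular_ofFn f hreg)
      rwa [List.map_ofFn] at this)
    (I.map (map (algebraMap K L))) (fun k => Ideal.mem_map_of_mem _ (hfI k))
  refine ⟨𝓜, fun i => ?_, fun d => ?_⟩
  · rw [X_pow_eq_monomial]
    exact Ideal.subset_span ⟨_, h4 i, rfl⟩
  · rw [finrank_idealDeg_monomial K 𝓜 h1, h3, finrank_idealDeg_map I hI]

end Vale.Agent.P200G
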