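import Mathlib
import Vale.Agent.P200G.Stm2

/-! Existence of the commuting linear forms. -/

namespace Vale.Agent.P200G

open Module MvPolynomial TensorProduct Vale.Agent.P200

universe u

namespace FormsAux

theorem li_of_lt {K V : Type*} [Field K] [AddCommGroup V] [Module K V] {l : ℕ} (v : Fin l → V)
    (h : ∀ i, v i ∉ Submodule.span K (v '' {j | j < i})) : LinearIndependent K v := by
  classical
  rw [Fintype.linearIndependent_iff]
  intro g hg
  by_contra hne
  obtain ⟨i, hi, hmax⟩ := Finset.exists_max_image (Finset.univ.filter fun j => g j ≠ 0) id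
    (by simpa [Finset.Nonempty] using hne)
  have hi' : g i ≠ 0 := (Finset.mem_filter.1 hi).2
  refine h i ((Submodule.smul_mem_iff _ hi').1 ?_)
  rw [← Finset.add_sum_erase _ _ (Finset.mem_univ i)] at hg
  rw [eq_neg_of_add_eq_zero_left hg]
  refine neg_mem (Submodule.sum_mem _ fun j hj => ?_)
  by_cases h0 : g j = 0
  · rw [h0, zero_smul]
    exact zero_mem _
  · exact Submodule.smul_mem _ _ (Submodule.subset_span ⟨j, lt_of_le_of_ne
      (hmax j (Finset.mem_filter.2 ⟨Finset.mem_univ _, h0⟩)) (Finset.ne_of_mem_erase hj), rfl⟩)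

variable {K D : Type u} [Field K] [DivisionRing D] [Algebra K D] {n : ℕ}

theorem mon_hom {a : ℕ} (i : Fin a → Fin n) : (mon K i).IsHomogeneous a := by
  have := IsHomogeneous.prod Finset.univ (fun j => (X (i j) : MvPolynomial (Fin n) K)) (fun _ => 1)
    fun j _ => isHomogeneous_X K (i j)
  simpa [mon] using this

theorem one_comm (p : MvPolynomial (Fin n) K) (x : D ⊗[K] MvPolynomial (Fin n) K) :
    (1 : D) ⊗ₜ[K] p * x = x * (1 : D) ⊗ₜ[K] p := by
  induction x using TensorProduct.induction_on with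
  | zero => simp
  | tmul e y => simp [mul_comm]
  | add x y hx hy => rw [mul_add, add_mul, hx, hy]

/-- The linear form with given coefficients. -/
noncomputable def lf (K : Type u) [Field K] [Algebra K D] (e : Fin n → D) :
    D ⊗[K] MvPolynomial (Fin n) K := ∑ j, e j ⊗ₜ[K] (X j : MvPolynomial (Fin n) K)

theorem lf_eq (e : Fin n → D) : lf K e = Fintype.linearCombination D
    (fun j => (1 : D) ⊗ₜ[K] (X j : MvPolynomial (Fin n) K)) e := by
  simp [lf, Fintype.linearCombination_apply, smul_tmul']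

theorem lf_map (c : Fin n → K) : lf K (fun j => algebraMap K D (c j)) =
    (1 : D) ⊗ₜ[K] ∑ j, c j • (X j : MvPolynomial (Fin n) K) := by
  simp only [lf, tmul_sum, Algebra.algebraMap_eq_smul_one, smul_tmul]

theorem lf_comm {e e' : Fin n → D} (h : ∀ i j, e i * e' j = e' j * e i) :
    lf K e * lf K e' = lf K e' * lf K e := by
  simp only [lf, Finset.sum_mul_sum, Algebra.TensorProduct.tmul_mul_tmul]
  rw [Finset.sum_comm]
  exact Finset.sum_congr rfl fun j _ => Finset.sum_congr rfl fun i _ => by rw [h, mul_comm (X i)]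

theorem lf_deg (e : Fin n → D) : lf K e ∈ (homogeneousSubmodule (Fin n) K 1).baseChange D :=
  Submodule.sum_mem _ fun j _ => Submodule.tmul_mem_baseChange_of_mem _ (isHomogeneous_X K j)

theorem lf_pow_deg (hPow : PowStm.{u}) (a : ℕ) (e : Fin n → D) :
    lf K e ^ a ∈ (homogeneousSubmodule (Fin n) K a).baseChange D := by
  rw [lf, hPow]
  exact Submodule.sum_mem _ fun i _ => Submodule.tmul_mem_baseChange_of_mem _ (mon_hom i)

theorem ev_pow (hPow : PowStm.{u}) (a : ℕ) (e : Fin n → D) (ψ : MvPolynomial (Fin n) K →ₗ[K] K) :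
    ev ψ (lf K e ^ a) = TT a (algebraMap K D) e ψ := by
  rw [lf, hPow, map_sum, TT]
  exact Finset.sum_congr rfl fun i _ => by rw [ev_tmul, Algebra.smul_def]

theorem lf_pow_mem (hPow : PowStm.{u}) (hDual : DualStm.{u}) {a r : ℕ}
    {φ : Fin r → MvPolynomial (Fin n) K →ₗ[K] K} {I : Ideal (MvPolynomial (Fin n) K)}
    (hE : Ech a φ) (hI : ∀ g : MvPolynomial (Fin n) K, g.IsHomogeneous a → (g ∈ I ↔ ∀ k, φ k g = 0))
    {e : Fin n → D} (h0 : ∀ k, TT a (algebraMap K D) e (φ k) = 0) :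
    lf K e ^ a ∈ (idealDeg I a).baseChange D := by
  obtain ⟨α, hα⟩ := hE
  have h := (hDual K D (MvPolynomial (Fin n) K)).2.1 (homogeneousSubmodule (Fin n) K a)
    (idealDeg I a) r (fun l => mon K (α l)) φ (fun p hp => by
      have h1 : p - ∑ l, φ l p • mon K (α l) ∈ homogeneousSubmodule (Fin n) K a :=
        sub_mem hp (Submodule.sum_mem _ fun l _ => Submodule.smul_mem _ _ (mon_hom _))
      exact ⟨h1, (hI _ h1).2 fun k => by simp [hα]⟩) _ (lf_pow_deg hPow a e)
  simpa only [ev_pow hPow, h0, zero_smul, Finset.sum_const_zero, sub_zero] using h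

theorem TT_mem {a : ℕ} {T : Subfield D} {e : Fin n → D} (hκ : ∀ x, algebraMap K D x ∈ T)
    (he : ∀ j, e j ∈ T) (ψ : MvPolynomial (Fin n) K →ₗ[K] K) : TT a (algebraMap K D) e ψ ∈ T :=
  sum_mem fun i _ => mul_mem (hκ _) (list_prod_mem fun x hx => by
    obtain ⟨j, rfl⟩ := List.mem_ofFn.1 hx
    exact he _)

theorem TT_comm {a : ℕ} {c : D} {e : Fin n → D} (he : ∀ j, c * e j = e j * c)
    (ψ : MvPolynomial (Fin n) K →ₗ[K] K) :
    c * TT a (algebraMap K D) e ψ = TT a (algebraMap K D) e ψ * c :=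
  Commute.sum_right _ _ _ fun i _ => Commute.mul_right (Algebra.commutes _ _).symm
    (Commute.list_prod_right _ _ fun x hx => by
      obtain ⟨j, rfl⟩ := List.mem_ofFn.1 hx
      exact he _)

theorem deg_le {a s : ℕ} {f : Fin n → MvPolynomial (Fin n) K} {dg : Fin n → ℕ}
    (hf : ∀ i, (f i).IsHomogeneous (dg i)) (A : Set (Fin n)) (w : Fin s → Fin n)
    (hw : ∀ i ∉ A, dg i = a ∧ ∃ l, w l = i) :
    idealDeg (Ideal.span (Set.range f)) a ≤ idealDeg (Ideal.span (f '' A)) a ⊔
      Submodule.span K (Set.range fun l => f (w l)) := by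
  rintro p ⟨hp, hI⟩
  obtain ⟨c, rfl⟩ := Ideal.mem_span_range_iff_exists_fun.1 hI
  rw [← homogeneousComponent_eq_self hp, map_sum]
  refine Submodule.sum_mem _ fun i _ => ?_
  induction c i using MvPolynomial.induction_on' with
  | monomial v x =>
    have h1 : (monomial v x * f i).IsHomogeneous (v.degree + dg i) :=
      (isHomogeneous_monomial x rfl).mul (hf i)
    rw [homogeneousComponent_of_mem h1]
    split_ifs with h
    · by_cases hi : i ∈ A
      · exact Submodule.mem_sup_left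
          ⟨h ▸ h1, Ideal.mul_mem_left _ _ (Ideal.subset_span ⟨i, hi, rfl⟩)⟩
      · obtain ⟨h2, l, rfl⟩ := hw i hi
        have h3 : v = 0 := (Finsupp.degree_eq_zero_iff v).1 (by omega)
        rw [h3, monomial_zero', ← smul_eq_C_mul]
        exact Submodule.mem_sup_right
          (Submodule.smul_mem _ _ (Submodule.subset_span ⟨l, rfl⟩))
    · exact zero_mem _
  | add p q hp hq =>
    rw [add_mul, map_add]
    exact add_mem hp hq

theorem back (hPow : PowStm.{u}) (hRow : RowStm.{u}) (hDual : DualStm.{u}) {a r s : ℕ}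
    {φ : Fin r → MvPolynomial (Fin n) K →ₗ[K] K} {I : Ideal (MvPolynomial (Fin n) K)}
    (hE : Ech a φ) (hI : ∀ g : MvPolynomial (Fin n) K, g.IsHomogeneous a → (g ∈ I ↔ ∀ k, φ k g = 0))
    {e : Fin s → Fin n → D} {T : Fin s → Subfield D} (hκ : ∀ i x, algebraMap K D x ∈ T i)
    (he : ∀ i i' j, i' < i → e i' j ∈ T i) (hN : ∀ i, NewRow a (algebraMap K D) φ (T i) (e i))
    {Q : Submodule K (MvPolynomial (Fin n) K)} {w : Fin s → MvPolynomial (Fin n) K}
    (hQ : Q ≤ idealDeg I a) (hP : idealDeg I a ≤ Q ⊔ Submodule.span K (Set.range w))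
    {U : Submodule D (D ⊗[K] MvPolynomial (Fin n) K)} (hU : Q.baseChange D ≤ U)
    (hU' : ∀ i, lf K (e i) ^ a ∈ U) : (idealDeg I a).baseChange D ≤ U := by
  classical
  obtain ⟨q, hq, g, ψ, hg, hψ, hgψ⟩ := (hDual K D (MvPolynomial (Fin n) K)).1 _ _ s w hQ hP
  have h2 := (hDual K D (MvPolynomial (Fin n) K)).2.1 _ _ q g ψ hgψ
  have hli := hRow D q 0 q (fun k => k.elim0)
    (fun i l => TT a (algebraMap K D) (e (Fin.castLE hq i)) (ψ l)) (fun i => T (Fin.castLE hq i))
    (by omega) linearIndependent_empty_type (fun _ k => k.elim0)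
    (fun i i' l h => TT_mem (hκ _) (fun j => he _ _ j h) _)
    (fun i c hc l => TT_comm ((hN _).comm c hc) _)
    (fun i c hc h => (hN _).inda q ψ g (fun l => (hg l).1)
      (fun k l => (hI _ (hg l).1).1 (hg l).2 k) hψ c hc h)
  have htop := hli.span_eq_top_of_card_eq_finrank' (by simp)
  have hG : (⊤ : Submodule D (Fin q → D)) ≤
      U.comap (Fintype.linearCombination D fun l => (1 : D) ⊗ₜ[K] g l) := by
    rw [← htop, Submodule.span_le]
    rintro _ ⟨i, rfl⟩
    induction i using Fin.addCases with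
    | left k => exact k.elim0
    | right i =>
      have h3 := sub_mem (hU' (Fin.castLE hq i))
        (hU (h2 _ (lf_pow_mem hPow hDual hE hI (hN (Fin.castLE hq i)).zero)))
      simp only [sub_sub_cancel, ev_pow hPow] at h3
      rw [Fin.append_right]
      exact h3
  intro x hx
  have h4 := add_mem (hU (h2 x hx)) (hG (x := fun l => ev (ψ l) x) trivial)
  rwa [Fintype.linearCombination_apply, sub_add_cancel] at h4

theorem span_le_ideal {S : Type*} [CommRing S] [Algebra K S] {A B : Set S} (h : A ⊆ B) {x : S}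
    (hx : x ∈ Submodule.span K A) : x ∈ Ideal.span B :=
  Ideal.span_mono h (Submodule.span_subset_span K S A hx)

theorem main (hPow : PowStm.{u}) (hRow : RowStm.{u}) (hDual : DualStm.{u}) {a r l s : ℕ}
    {f : Fin (l + s + 2) → MvPolynomial (Fin (l + s + 2)) K} {dg : Fin (l + s + 2) → ℕ}
    (hf : ∀ i, (f i).IsHomogeneous (dg i))
    (hda : ∀ i : Fin (l + s + 2), 2 ≤ i.val → i.val < s + 2 → dg i = a)
    (hd1 : ∀ i : Fin (l + s + 2), s + 2 ≤ i.val → dg i = 1)
    (hnot : ∀ i, f i ∉ Ideal.span (f '' {j | j < i}))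
    {φ : Fin r → MvPolynomial (Fin (l + s + 2)) K →ₗ[K] K} (hE : Ech a φ)
    (hI : ∀ g : MvPolynomial (Fin (l + s + 2)) K, g.IsHomogeneous a →
      (g ∈ Ideal.span (Set.range f) ↔ ∀ k, φ k g = 0))
    {e : Fin s → Fin (l + s + 2) → D} {T : Fin s → Subfield D}
    (hκ : ∀ i x, algebraMap K D x ∈ T i)
    (he : ∀ i i' j, i' < i → e i' j ∈ T i) (hN : ∀ i, NewRow a (algebraMap K D) φ (T i) (e i)) :
    ∃ y : Fin (l + s + 2) → D ⊗[K] MvPolynomial (Fin (l + s + 2)) K, Forms (s + 2) a f y := by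
  classical
  let iT : Fin s → Fin (l + s + 2) := fun i => ⟨i + 2, by omega⟩
  let iL : Fin l → Fin (l + s + 2) := fun k => ⟨k + s + 2, by omega⟩
  have hc : ∀ k, ∃ c : Fin (l + s + 2) → K, ∑ j, c j • X j = f (iL k) := fun k => by
    have h1 : f (iL k) ∈ homogeneousSubmodule _ K 1 := by
      have := hf (iL k)
      rwa [hd1 _ (by simp [iL])] at this
    rw [homogeneousSubmodule_one_eq_span_X] at h1
    exact (Submodule.mem_span_range_iff_exists_fun K).1 h1
  choose c hc using hc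
  have hcl : LinearIndependent K c := by
    refine LinearIndependent.of_comp
      (Fintype.linearCombination K (X : _ → MvPolynomial (Fin (l + s + 2)) K)) ?_
    have h1 : (Fintype.linearCombination K (X : _ → MvPolynomial (Fin (l + s + 2)) K)) ∘ c =
        fun k => f (iL k) := funext hc
    rw [h1]
    refine li_of_lt _ fun k hk => hnot (iL k) (span_le_ideal ?_ hk)
    rintro _ ⟨k', hk', rfl⟩
    exact ⟨iL k', Nat.add_lt_add_right (Nat.add_lt_add_right hk' s) 2, rfl⟩
  obtain ⟨j₀, j₁, hj⟩ := (hDual K D K).2.2.2 (l + s) _ (hRow D (l + s + 2) l s _ e T (by omega)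
    ((hDual K D K).2.2.1 _ _ c hcl) (fun i k j => hκ i _) he (fun i => (hN i).comm)
    fun i => (hN i).ind)
  let y : Fin (l + s + 2) → D ⊗[K] MvPolynomial (Fin (l + s + 2)) K := fun i =>
    if h : 2 ≤ i.val ∧ i.val < s + 2 then lf K (e ⟨i.val - 2, by omega⟩) else
      (1 : D) ⊗ₜ[K] (if i.val = 0 then X j₀ else if i.val = 1 then X j₁ else f i)
  have yT : ∀ i, y (iT i) = lf K (e i) := fun i => dif_pos ⟨by simp [iT], by simp [iT]⟩
  have yL : ∀ i : Fin (l + s + 2), s + 2 ≤ i.val → y i = (1 : D) ⊗ₜ[K] f i := fun i hi => by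
    simp only [y]
    rw [dif_neg (by omega), if_neg (by omega), if_neg (by omega)]
  have y0 : y ⟨0, by omega⟩ = (1 : D) ⊗ₜ[K] X j₀ := by simp [y]
  have y1 : y ⟨1, by omega⟩ = (1 : D) ⊗ₜ[K] X j₁ := by simp [y]
  have hT : ∀ i : Fin (l + s + 2), 2 ≤ i.val → i.val < s + 2 → ∃ i', iT i' = i := fun i h1 h2 =>
    ⟨⟨i.val - 2, by omega⟩, Fin.ext (by simp only [iT]; omega)⟩
  have hy : ∀ i, (∃ i', y i = lf K (e i')) ∨ ∃ p : MvPolynomial (Fin (l + s + 2)) K,
      p.IsHomogeneous 1 ∧ y i = (1 : D) ⊗ₜ[K] p := fun i => by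
    by_cases h : 2 ≤ i.val ∧ i.val < s + 2
    · exact Or.inl ⟨_, dif_pos h⟩
    · refine Or.inr ⟨_, ?_, dif_neg h⟩
      split_ifs with h0 h1
      · exact isHomogeneous_X K _
      · exact isHomogeneous_X K _
      · exact hd1 i (by omega) ▸ hf i
  refine ⟨y, fun i j => ?_, fun i => ?_, fun j => ?_, yL, fun i h1 h2 => ?_, fun k h1 h2 => ?_⟩
  · rcases hy i with ⟨i', hi⟩ | ⟨p, -, hi⟩
    · rcases hy j with ⟨j', hj⟩ | ⟨p, -, hj⟩
      · rw [hi, hj]
        rcases lt_trichotomy i' j' with h | rfl | h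
        · exact lf_comm fun x z => (hN j').comm _ (he _ _ x h) z
        · rfl
        · exact (lf_comm fun x z => (hN i').comm _ (he _ _ x h) z).symm
      · rw [hj, one_comm]
    · rw [hi, one_comm]
  · rcases hy i with ⟨i', hi⟩ | ⟨p, hp, hi⟩
    · exact hi ▸ lf_deg _
    · exact hi ▸ Submodule.tmul_mem_baseChange_of_mem _ hp
  · have hG : (⊤ : Submodule D (Fin (l + s + 2) → D)) ≤ (Submodule.span D (Set.range y)).comap
        (Fintype.linearCombination D fun j => (1 : D) ⊗ₜ[K] X j) := by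
      rw [← hj, Submodule.span_le]
      rintro _ (⟨i, rfl⟩ | rfl | rfl) <;> refine Submodule.subset_span ?_
      · induction i using Fin.addCases with
        | left k =>
          refine ⟨iL k, ?_⟩
          rw [Fin.append_left, ← lf_eq, lf_map, hc, yL _ (by simp [iL])]
        | right i => exact ⟨iT i, by rw [Fin.append_right, ← lf_eq, yT]⟩
      · exact ⟨_, by rw [Fintype.linearCombination_apply_single, one_smul, y0]⟩
      · exact ⟨_, by rw [Fintype.linearCombination_apply_single, one_smul, y1]⟩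
    have := hG (x := Pi.single j 1) trivial
    rwa [Submodule.mem_comap, Fintype.linearCombination_apply_single, one_smul] at this
  · obtain ⟨i, rfl⟩ := hT i h1 h2
    rw [yT]
    exact lf_pow_mem hPow hDual hE hI (hN i).zero
  · refine back hPow hRow hDual hE hI hκ he hN (w := fun i => f (iT i))
      (inf_le_inf_left _ (Ideal.span_mono (Set.image_subset_range _ _)))
      (deg_le hf _ iT fun i hi => ?_) le_sup_left (fun i => ?_)
      (Submodule.tmul_mem_baseChange_of_mem _
        (Submodule.mem_inf.2 ⟨hda k h1 h2 ▸ hf k, Ideal.subset_span ⟨k, rfl⟩⟩))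
    · simp only [Set.mem_setOf_eq, not_or, not_lt, not_le] at hi
      exact ⟨hda i hi.1 hi.2, hT i hi.1 hi.2⟩
    · exact Submodule.mem_sup_right (Submodule.subset_span
        ⟨iT i, ⟨by simp [iT], by simp [iT]⟩, by simp only [yT]⟩)

end FormsAux

theorem formsP (hColen : ColenStm.{u}) (hEch : EchStm.{u}) (hTower : TowerStm.{u})
    (hPow : PowStm.{u}) (hRow : RowStm.{u}) (hDual : DualStm.{u}) : FormsStm.{u} := by
  intro K _ _ n c a f dg hc hcn ha hf h1 hle hda hd1 hreg
  obtain ⟨s, rfl⟩ : ∃ s, c = s + 2 := ⟨c - 2, by omega⟩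
  obtain ⟨l, rfl⟩ : ∃ l, n = l + s + 2 := ⟨n - (s + 2), by omega⟩
  obtain ⟨⟨d₀, hd₀⟩, hnot⟩ := hColen K _ f dg hf h1 hreg
  obtain ⟨r, φ, hE, hNo, hI⟩ := hEch K _ a (Ideal.span (Set.range f)) f dg (by omega) hf hle
    (fun i => Ideal.subset_span ⟨i, rfl⟩)
    fun j => ⟨d₀, hd₀ d₀ le_rfl _ (isHomogeneous_X_pow j d₀)⟩
  obtain ⟨E, e, T, hκ, he, hN⟩ := hTower K a _ r s φ ha hE hNo
  letI : Algebra K E.D := Algebra.compHom E.D (algebraMap K E.F)
  exact ⟨E.D, inferInstance, inferInstance,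
    FormsAux.main hPow hRow hDual hf hda hd1 hnot hE hI hκ he hN⟩

end Vale.Agent.P200G
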