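import Mathlib
import Vale.Agent.P200G.Stm2

/-! Gains in transcendence degree. -/

namespace Vale.Agent.P200G

open Module MvPolynomial

universe u

namespace GainAux

variable {F L : Type u} [Field F] [Field L] [Algebra F L]

theorem flat (F : Type u) [Field F] [Algebra F L] (X : Set L) : ∃ S : Subalgebra F L,
    (S : Set L) = (AlgebraicIndependent.matroid F L).closure X ∧
      ∀ a : L, IsAlgebraic S a → a ∈ S := by
  obtain ⟨S, h1, h2⟩ := AlgebraicIndependent.matroid_isFlat_iff.1
    ((AlgebraicIndependent.matroid F L).isFlat_closure X)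
  exact ⟨S, h1, fun a ha => by
    have := h2 a ha
    rwa [← h1] at this⟩

theorem alg_of_sub {A : Type u} [CommRing A] [Algebra A L]
    (hinj : Function.Injective (algebraMap A L)) (S : Subalgebra F L)
    (h : ∀ x, algebraMap A L x ∈ S) {a : L} (ha : IsAlgebraic A a) : IsAlgebraic S a := by
  obtain ⟨p, hp, h0⟩ := ha
  let f : A →+* S := (algebraMap A L).codRestrict S h
  have hf : Function.Injective f := fun x y e => hinj (congrArg Subtype.val e)
  refine ⟨p.map f, (Polynomial.map_ne_zero_iff hf).2 hp, ?_⟩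
  rw [Polynomial.aeval_def, Polynomial.eval₂_map]
  exact h0

theorem sub_cl (X : Set L) : X ⊆ (AlgebraicIndependent.matroid F L).closure X :=
  (AlgebraicIndependent.matroid F L).subset_closure X (Set.subset_univ _)

theorem key {n : ℕ} (T : Set L) (v : Fin n → L) (t : Finset (Fin n))
    (h : ∀ i ∈ t, v i ∈ (AlgebraicIndependent.matroid F L).closure (T ∪ v '' (tᶜ : Finset _))) :
    (AlgebraicIndependent.matroid F L).eRk (T ∪ Set.range v) + t.card ≤
      (AlgebraicIndependent.matroid F L).eRk T + n := by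
  have h1 : T ∪ Set.range v ⊆
      (AlgebraicIndependent.matroid F L).closure (T ∪ v '' (tᶜ : Finset _)) := by
    rintro x (hx | ⟨i, rfl⟩)
    · exact sub_cl _ (Or.inl hx)
    · by_cases hi : i ∈ t
      · exact h i hi
      · exact sub_cl _ (Or.inr ⟨i, Finset.mem_coe.2 (Finset.mem_compl.2 hi), rfl⟩)
  have h2 := (AlgebraicIndependent.matroid F L).eRk_mono h1
  rw [Matroid.eRk_closure_eq] at h2
  have h3 : (AlgebraicIndependent.matroid F L).eRk (v '' (tᶜ : Finset _)) ≤ (tᶜ.card : ℕ) :=
    ((Matroid.eRk_le_encard _ _).trans (Set.encard_image_le _ _)).trans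
      (Set.encard_coe_eq_coe_finsetCard _).le
  have h4 : ((tᶜ.card : ℕ) : ℕ∞) + t.card = n := by
    rw [← Nat.cast_add, Finset.card_compl_add_card, Fintype.card_fin]
  calc _ ≤ (AlgebraicIndependent.matroid F L).eRk T + (tᶜ.card : ℕ) + t.card :=
        add_le_add ((h2.trans (Matroid.eRk_union_le_eRk_add_eRk _ _ _)).trans
          (add_le_add le_rfl h3)) le_rfl
    _ = _ := by rw [add_assoc, h4]

theorem div_mem {S : Subalgebra F L} (hS : ∀ a : L, IsAlgebraic S a → a ∈ S) {d x : L}
    (hd : d ∈ S) (h0 : d ≠ 0) (hx : d * x ∈ S) : x ∈ S := by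
  have h1 : d⁻¹ ∈ S := hS _ (isAlgebraic_algebraMap (⟨d, hd⟩ : S)).inv
  have := S.mul_mem h1 hx
  rwa [inv_mul_cancel_left₀ h0] at this

end GainAux

open GainAux in
theorem gainP : GainStm.{u} := by
  intro F L _ _ _ n T v
  refine ⟨fun p hp hc h0 => ?_, fun c c' hc hc' hij h1 h2 => ?_⟩
  · obtain ⟨S₀, e0, -⟩ := flat F T
    obtain ⟨q, rfl⟩ : p ∈ Set.range (MvPolynomial.map (algebraMap S₀ L)) :=
      mem_range_map_iff_coeffs_subset.2 fun x hx => by
        obtain ⟨α, -, rfl⟩ := mem_coeffs_iff.1 (Finset.mem_coe.1 hx)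
        have := hc α
        rw [← e0] at this
        exact ⟨⟨_, this⟩, rfl⟩
    have hn : ¬ AlgebraicIndependent S₀ v := fun h => by
      refine hp ?_
      rw [h.eq_zero_of_aeval_eq_zero q (by rw [aeval_def, ← eval_map]; exact h0), map_zero]
    have h3 : ∃ t : Set (Fin n), ∃ i ∉ t, IsAlgebraic (Algebra.adjoin S₀ (v '' t)) (v i) := by
      by_contra h
      exact hn (algebraicIndependent_of_finite_type' Subtype.val_injective
        fun t _ _ i hi ha => h ⟨t, i, hi, ha⟩)
    obtain ⟨t, i, hi, ha⟩ := h3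
    obtain ⟨S, e1, hS⟩ := flat F (T ∪ v '' (({i} : Finset (Fin n))ᶜ : Finset _))
    have h4 := key (F := F) T v {i} fun j hj => by
      rw [Finset.mem_singleton.1 hj, ← e1]
      refine hS _ (alg_of_sub Subtype.val_injective S ?_ ha)
      rintro ⟨x, hx⟩
      show x ∈ S
      induction hx using Algebra.adjoin_induction with
      | mem x hx =>
        obtain ⟨k, hk, rfl⟩ := hx
        show v k ∈ (S : Set L)
        rw [e1]
        refine sub_cl _ (Or.inr ⟨k, Finset.mem_coe.2 (Finset.mem_compl.2 fun h => hi ?_), rfl⟩)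
        rwa [← Finset.mem_singleton.1 h]
      | algebraMap x =>
        show (x : L) ∈ (S : Set L)
        rw [e1]
        refine Matroid.closure_subset_closure _ Set.subset_union_left ?_
        rw [← e0]
        exact x.2
      | add x y _ _ hx hy => exact S.add_mem hx hy
      | mul x y _ _ hx hy => exact S.mul_mem hx hy
    rwa [Finset.card_singleton, Nat.cast_one] at h4
  · obtain ⟨i, j, hij⟩ := hij
    have hne : i ≠ j := fun h => hij (by rw [h])
    obtain ⟨S, e1, hS⟩ := flat F (T ∪ v '' (({i, j} : Finset (Fin n))ᶜ : Finset _))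
    have m0 : ∀ x ∈ (AlgebraicIndependent.matroid F L).closure T, x ∈ S := fun x hx => by
      show x ∈ (S : Set L)
      rw [e1]
      exact Matroid.closure_subset_closure _ Set.subset_union_left hx
    have m1 : ∀ k ∈ ({i, j} : Finset (Fin n))ᶜ, v k ∈ S := fun k hk => by
      show v k ∈ (S : Set L)
      rw [e1]
      exact sub_cl _ (Or.inr ⟨k, hk, rfl⟩)
    rw [← Finset.sum_add_sum_compl {i, j}, Finset.sum_pair hne] at h1 h2
    have a1 : ∑ k ∈ ({i, j} : Finset (Fin n))ᶜ, c k * v k ∈ S :=
      S.sum_mem fun k hk => S.mul_mem (m0 _ (hc k)) (m1 k hk)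
    have a2 : ∑ k ∈ ({i, j} : Finset (Fin n))ᶜ, c' k * v k ∈ S :=
      S.sum_mem fun k hk => S.mul_mem (m0 _ (hc' k)) (m1 k hk)
    generalize ∑ k ∈ ({i, j} : Finset (Fin n))ᶜ, c k * v k = a at h1 a1
    generalize ∑ k ∈ ({i, j} : Finset (Fin n))ᶜ, c' k * v k = a' at h2 a2
    have hD : c i * c' j - c j * c' i ∈ S :=
      S.sub_mem (S.mul_mem (m0 _ (hc i)) (m0 _ (hc' j))) (S.mul_mem (m0 _ (hc j)) (m0 _ (hc' i)))
    have hi : v i ∈ S := div_mem hS hD (sub_ne_zero.2 hij) (by
      have : (c i * c' j - c j * c' i) * v i = c j * a' - c' j * a := by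
        linear_combination c' j * h1 - c j * h2
      rw [this]
      exact S.sub_mem (S.mul_mem (m0 _ (hc j)) a2) (S.mul_mem (m0 _ (hc' j)) a1))
    have hj : v j ∈ S := div_mem hS hD (sub_ne_zero.2 hij) (by
      have : (c i * c' j - c j * c' i) * v j = c' i * a - c i * a' := by
        linear_combination c i * h2 - c' i * h1
      rw [this]
      exact S.sub_mem (S.mul_mem (m0 _ (hc' i)) a1) (S.mul_mem (m0 _ (hc i)) a2))
    have h4 := key (F := F) T v {i, j} fun k hk => by
      rw [← e1]
      rcases Finset.mem_insert.1 hk with h | h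
      · rw [h]
        exact hi
      · rw [Finset.mem_singleton.1 h]
        exact hj
    rwa [Finset.card_pair hne, Nat.cast_ofNat] at h4

end Vale.Agent.P200G
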