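import Mathlib
import Vale.Agent.P200G.Stm2

/-! The grading of the coefficient ring. -/

namespace Vale.Agent.P200G

open Module MvPolynomial TensorProduct

universe u

namespace GrAAux

variable {F : Type*} [Field F] {G : Type*} [AddCommGroup G] {τ a n r : ℕ}

theorem Om_hom (χ : Yt τ a n → G) (δ : G) (h : ∀ m (i : Fin a → Fin n), ∑ j, χ (m, j, i j) = δ)
    (ψ : MvPolynomial (Fin n) F →ₗ[F] F) : (Om τ a ψ).IsWeightedHomogeneous χ δ := by
  refine IsWeightedHomogeneous.sum _ _ _ fun m _ => IsWeightedHomogeneous.sum _ _ _ fun i _ => ?_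
  refine IsWeightedHomogeneous.C_mul ?_ _
  rw [← h m i]
  exact IsWeightedHomogeneous.prod _ _ _ fun j _ => isWeightedHomogeneous_X F χ _

theorem comp_mem (φ : Fin r → MvPolynomial (Fin n) F →ₗ[F] F) (χ : Yt τ a n → G) (δ : G)
    (h : ∀ m (i : Fin a → Fin n), ∑ j, χ (m, j, i j) = δ) (g : G)
    {p : MvPolynomial (Yt τ a n) F} (hp : p ∈ idl τ a φ) :
    weightedHomogeneousComponent χ g p ∈ idl τ a φ := by
  classical
  let := weightedGradedAlgebra F χ
  refine weightedHomogeneousComponent_mem_of_mem F χ ?_ hp g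
  refine Ideal.homogeneous_span _ _ ?_
  rintro _ ⟨k, rfl⟩
  exact ⟨δ, Om_hom χ δ h (φ k)⟩

theorem sum_comp {Y : Type*} [DecidableEq G] (χ : Y → G) (p : MvPolynomial Y F) (t : Finset G)
    (ht : p.support.image (Finsupp.weight χ) ⊆ t) :
    ∑ g ∈ t, weightedHomogeneousComponent χ g p = p := by
  ext α
  rw [coeff_sum]
  simp only [coeff_weightedHomogeneousComponent]
  rw [Finset.sum_ite_eq]
  split_ifs with h
  · rfl
  · by_contra h'
    exact h (ht (Finset.mem_image_of_mem _ (mem_support_iff.2 (Ne.symm h'))))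

variable {E : Type*} [DivisionRing E] [Algebra F E]

theorem ind (φ : Fin r → MvPolynomial (Fin n) F →ₗ[F] F) {P : Ar E τ a φ → Prop} (h0 : P 0)
    (hadd : ∀ x y, P x → P y → P (x + y)) (ht : ∀ (e : E) p, P (e ⊗ₜ[F] mkR τ a φ p))
    (x : Ar E τ a φ) : P x := by
  induction x using TensorProduct.induction_on with
  | zero => exact h0
  | tmul e y =>
    obtain ⟨p, rfl⟩ := mkR_surj τ a φ y
    exact ht e p
  | add x y hx hy => exact hadd x y hx hy

theorem fd_Asp [FiniteDimensional F E] (φ : Fin r → MvPolynomial (Fin n) F →ₗ[F] F)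
    {T : Set (Yt τ a n →₀ ℕ)} (hT : T.Finite) : FiniteDimensional F (Asp E τ a φ T) := by
  have := hT.to_subtype
  refine Submodule.finiteDimensional_of_le (S₂ := ⨆ α : T, LinearMap.range
    ((TensorProduct.mk F E (Rq τ a φ)).flip (mkR τ a φ (monomial α.1 1)))) ?_
  rw [Asp, Submodule.span_le]
  rintro _ ⟨e, α, hα, rfl⟩
  refine Submodule.mem_iSup_of_mem ⟨α, hα⟩ ⟨e, ?_⟩
  rw [inE_mul_evA]
  rfl

end GrAAux

open GrAAux in
theorem grAP : GrAStm.{u} := by
  classical
  intro F E G _ _ _ _ _ τ a n r φ χ δ hδ hfin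
  have h1 : ∀ g : G, ∃ f' : Rq τ a φ →ₗ[F] Rq τ a φ,
      ∀ p, f' (mkR τ a φ p) = mkR τ a φ (weightedHomogeneousComponent χ g p) := fun g =>
    exists_liftR τ a φ ((mkR τ a φ).toLinearMap ∘ₗ weightedHomogeneousComponent χ g)
      fun p hp => (mkR_eq_zero τ a φ).2 (comp_mem φ χ δ hδ g hp)
  choose π0 hπ0 using h1
  have hπ : ∀ g (e : E) p, LinearMap.lTensor E (π0 g) (e ⊗ₜ[F] mkR τ a φ p) =
      e ⊗ₜ[F] mkR τ a φ (weightedHomogeneousComponent χ g p) := fun g e p => by
    rw [LinearMap.lTensor_tmul, hπ0]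
  have hr : ∀ g, LinearMap.range (LinearMap.lTensor E (π0 g)) =
      Asp E τ a φ {α | Finsupp.weight χ α = g} := by
    intro g
    apply le_antisymm
    · rintro _ ⟨x, rfl⟩
      induction x using ind φ with
      | h0 => simp
      | hadd x y hx hy => rw [map_add]; exact add_mem hx hy
      | ht e p =>
        rw [hπ, ← inE_mul_evA]
        refine Asp_mul E τ a φ (T := {0}) (T' := {α | Finsupp.weight χ α = g}) ?_
          (inE_mem_Asp E τ a φ (Set.mem_singleton _) e) (evA_mem_Asp E τ a φ fun α hα => ?_)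
        · intro α hα β hβ
          have h3 : α + β = β := by rw [Set.mem_singleton_iff.1 hα]; exact zero_add β
          rw [h3]
          exact hβ
        · exact weightedHomogeneousComponent_isWeightedHomogeneous g p (mem_support_iff.1 hα)
    · rw [Asp, Submodule.span_le]
      rintro _ ⟨e, α, hα, rfl⟩
      refine ⟨e ⊗ₜ[F] mkR τ a φ (monomial α 1), ?_⟩
      rw [hπ, inE_mul_evA,
        (isWeightedHomogeneous_monomial χ α (1 : F) hα).weightedHomogeneousComponent_same]
  refine ⟨⟨fun g => LinearMap.lTensor E (π0 g), fun g w => ?_, fun g g' w hg => ?_, fun w => ?_,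
    fun g => ?_⟩, hr, fun g e x => ?_⟩
  · induction w using ind φ with
    | h0 => simp
    | hadd x y hx hy => simp only [map_add, hx, hy]
    | ht e p =>
      rw [hπ, hπ, (weightedHomogeneousComponent_isWeightedHomogeneous g
        p).weightedHomogeneousComponent_same]
  · induction w using ind φ with
    | h0 => simp
    | hadd x y hx hy => simp only [map_add, hx, hy, add_zero]
    | ht e p =>
      rw [hπ, hπ, (weightedHomogeneousComponent_isWeightedHomogeneous g'
        p).weightedHomogeneousComponent_ne g hg, map_zero, tmul_zero]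
  · have h2 : ∃ s : Finset G, ∀ t, s ⊆ t → ∑ g ∈ t, LinearMap.lTensor E (π0 g) w = w := by
      induction w using ind φ with
      | h0 => exact ⟨∅, fun t _ => by simp⟩
      | hadd x y hx hy =>
        obtain ⟨s, hs⟩ := hx
        obtain ⟨s', hs'⟩ := hy
        refine ⟨s ∪ s', fun t ht => ?_⟩
        simp only [map_add, Finset.sum_add_distrib]
        rw [hs t (Finset.union_subset_left ht), hs' t (Finset.union_subset_right ht)]
      | ht e p =>
        refine ⟨p.support.image (Finsupp.weight χ), fun t ht => ?_⟩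
        simp only [hπ]
        rw [← tmul_sum, ← map_sum, sum_comp χ p t ht]
    obtain ⟨s, hs⟩ := h2
    exact ⟨s, hs s subset_rfl⟩
  · rw [hr]
    exact fd_Asp φ (hfin g)
  · change LinearMap.lTensor E (π0 g) (e • x) = e • LinearMap.lTensor E (π0 g) x
    induction x using TensorProduct.induction_on with
    | zero => simp
    | tmul e' y => simp [smul_tmul']
    | add x y hx hy => simp only [smul_add, map_add, hx, hy]

end Vale.Agent.P200G
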