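import Mathlib
import Vale.Agent.P200G.Stm2

/-! A graded ring without homogeneous zero divisors has no zero divisors. -/

namespace Vale.Agent.P200G

universe u

namespace GrDomAux

variable {F B : Type u} [Field F] [Ring B] [Algebra F B] {H : ℕ → Submodule F B}

theorem mul_mem (hm : ∀ d d', ∀ b ∈ H d, ∀ b' ∈ H d', b * b' ∈ H (d + d')) {ι κ : Type}
    {f : ι → ℕ} {g : κ → ℕ} {N : Submodule F B} (h : ∀ i j, H (f i + g j) ≤ N) {a b : B}
    (ha : a ∈ ⨆ i, H (f i)) (hb : b ∈ ⨆ j, H (g j)) : a * b ∈ N := by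
  have : (⨆ i, H (f i)) * (⨆ j, H (g j)) ≤ N := by
    rw [Submodule.iSup_mul]
    refine iSup_le fun i => ?_
    rw [Submodule.mul_iSup]
    exact iSup_le fun j => Submodule.mul_le.2 fun x hx y hy => h i j (hm _ _ x hx y hy)
  exact this (Submodule.mul_mem_mul ha hb)

theorem mono : Monotone fun n => ⨆ i : Fin n, H i := fun _ _ h =>
  iSup_le fun i => le_iSup_of_le (i.castLE h) le_rfl

theorem top {b : B} (hb : b ∈ ⨆ d, H d) (h0 : b ≠ 0) :
    ∃ d, ∃ x ∈ H d, x ≠ 0 ∧ ∃ y ∈ ⨆ i : Fin d, H i, x + y = b := by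
  have h1 : ⨆ d, H d ≤ ⨆ n, ⨆ i : Fin n, H i :=
    iSup_le fun d => le_iSup₂_of_le (d + 1) (Fin.last d) le_rfl
  obtain ⟨n, hn⟩ := (Submodule.mem_iSup_of_directed _ mono.directed_le).1 (h1 hb)
  induction n with
  | zero => exact absurd (by rwa [iSup_of_empty] at hn) h0
  | succ n ih =>
    have h2 : ⨆ i : Fin (n + 1), H i ≤ H n ⊔ ⨆ i : Fin n, H i := iSup_le fun i =>
      Fin.lastCases le_sup_left (fun j => le_sup_of_le_right (le_iSup_of_le j le_rfl)) i
    obtain ⟨x, hx, y, hy, e⟩ := Submodule.mem_sup.1 (h2 hn)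
    by_cases h3 : x = 0
    · rw [h3, zero_add] at e
      exact ih (e ▸ hy)
    · exact ⟨n, x, hx, h3, y, hy, e⟩

end GrDomAux

theorem grDomP : GrDomStm.{u} := by
  intro F B _ _ _ H hm h1 hi hd
  refine ⟨(⨆ d, H d).toSubalgebra (Submodule.mem_iSup_of_mem 0 h1) fun a b ha hb =>
    GrDomAux.mul_mem hm (f := id) (g := id) (fun i j => le_iSup H _) ha hb, rfl,
    fun b hb b' hb' e => ?_⟩
  by_contra hn
  obtain ⟨d, x, hx, x0, y, hy, rfl⟩ := GrDomAux.top hb fun h => hn (Or.inl h)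
  obtain ⟨d', x', hx', x0', y', hy', rfl⟩ := GrDomAux.top hb' fun h => hn (Or.inr h)
  have h2 : x * y' ∈ ⨆ k, ⨆ (_ : k ≠ d + d'), H k :=
    GrDomAux.mul_mem hm (f := fun _ : Unit => d) (fun _ j => le_iSup₂_of_le _ (by omega) le_rfl)
      (Submodule.mem_iSup_of_mem () hx) hy'
  have h3 : y * (x' + y') ∈ ⨆ k, ⨆ (_ : k ≠ d + d'), H k :=
    GrDomAux.mul_mem hm (g := fun j : Fin (d' + 1) => j)
      (fun i j => le_iSup₂_of_le _ (by omega) le_rfl) hy
      (add_mem (Submodule.mem_iSup_of_mem (Fin.last d') hx') (GrDomAux.mono d'.le_succ hy'))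
  have h4 : x * x' = -(x * y' + y * (x' + y')) := by
    rw [eq_neg_iff_add_eq_zero, ← e, add_mul, mul_add x, add_assoc]
  have h5 := Submodule.disjoint_def.1 (iSupIndep_def.1 hi (d + d')) _ (hm _ _ x hx x' hx')
    (h4 ▸ neg_mem (add_mem h2 h3))
  exact (hd _ _ x hx x' hx' h5).elim x0 x0'

end Vale.Agent.P200G
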