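import Mathlib
import Vale.Agent.P200G.Stm2

namespace Vale.Agent.P200G

open Module MvPolynomial TensorProduct

universe u

namespace HdAux

variable {τ a n r : ℕ} [NeZero a] {F E : Type*} [Field F] [DivisionRing E] [Algebra F E]

theorem ch_add {ζ : F} (hζ : ζ ^ a = 1) (x y : Fin a) :
    ζ ^ ((x + y : Fin a) : ℕ) = ζ ^ (x : ℕ) * ζ ^ (y : ℕ) := by
  rw [Fin.val_add, ← pow_add, ← pow_eq_pow_mod _ hζ]

theorem pow_sum_add {ζ : F} (hζ : ζ ^ a = 1) (s : Finset (Fin τ)) (ν : Fin τ → Fin a) (m : Fin τ) :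
    ζ ^ ∑ k ∈ s, (((ν + Pi.single m 1 : Fin τ → Fin a) k : Fin a) : ℕ) =
      ζ ^ (∑ k ∈ s, (ν k : ℕ)) * if m ∈ s then ζ ^ ((1 : Fin a) : ℕ) else 1 := by
  rw [← Finset.prod_pow_eq_pow_sum, ← Finset.prod_pow_eq_pow_sum]
  simp only [Pi.add_apply, ch_add hζ, Finset.prod_mul_distrib]
  congr 1
  rw [← Finset.prod_ite_eq s m (fun _ => ζ ^ ((1 : Fin a) : ℕ))]
  refine Finset.prod_congr rfl fun k _ => ?_
  by_cases h : m = k
  · rw [if_pos h, h, Pi.single_eq_same]
  · rw [if_neg h, Pi.single_eq_of_ne' h, Fin.val_zero, pow_zero]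

theorem cz_cy {ζ : F} (hζ : ζ ^ a = 1) (m m' : Fin τ) (ν : Fin τ → Fin a) :
    cz ζ m ν * cy ζ m' (ν + Pi.single m 1) = cz ζ m (ν + Pi.single m' 1) * cy ζ m' ν := by
  rw [cz, cz, cy, cy, pow_sum_add hζ, pow_sum_add hζ]
  simp only [Finset.mem_filter, Finset.mem_univ, true_and]
  ring

theorem chi_eq (m : Fin τ) (ν : Fin τ → Fin a) (i : Fin n) :
    chi (m, ν m, i) = posn ν - posn (ν + Pi.single m 1) + ((0, ((1 : ℕ) : ℤ)) : Gt τ a) := by
  refine Prod.ext (funext fun x => ?_) (by simp [chi, posn])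
  obtain ⟨m', j⟩ := x
  simp only [chi, posn, Prod.fst_add, Prod.fst_sub, Pi.add_apply, Pi.sub_apply, Pi.zero_apply,
    add_zero]
  by_cases h : m' = m
  · subst h
    simp [Pi.single_apply, eq_comm]
  · simp [h]

theorem weight_snd (α : Yt τ a n →₀ ℕ) :
    (Finsupp.weight chi α).2 = Finsupp.weight (fun _ => (1 : ℤ)) α := by
  induction α using Finsupp.induction_linear with
  | zero => simp
  | add α β h h' => rw [map_add, map_add, Prod.snd_add, h, h']
  | single u k => rw [Finsupp.weight_single, Finsupp.weight_single]; rfl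

omit [NeZero a] in
theorem weight_one (α : Yt τ a n →₀ ℕ) :
    Finsupp.weight (fun _ => (1 : ℤ)) α = (α.degree : ℤ) := by
  induction α using Finsupp.induction_linear with
  | zero => simp
  | add α β h h' => rw [map_add, map_add, h, h', Nat.cast_add]
  | single u k => simp [Finsupp.weight_single]

variable (φ : Fin r → MvPolynomial (Fin n) F →ₗ[F] F) (ζ : F)

theorem mem_Hd {d : ℕ} {b : Matrix (Fin τ → Fin a) (Fin τ → Fin a) (Ar E τ a φ)} :
    b ∈ Hd E τ a φ ζ d ↔ (∀ ν ν', b ν ν' ∈ Asp E τ a φ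
      {α | Finsupp.weight chi α = posn ν - posn ν' + ((0, (d : ℤ)) : Gt τ a)}) ∧
    ∀ m ν ν', cz ζ m ν • b (ν + Pi.single m 1) (ν' + Pi.single m 1) =
      cz ζ m ν' • shA E τ a φ (Pi.single m 1) (b ν ν') := Iff.rfl

theorem mul_mem {d d' : ℕ} {b b' : Matrix (Fin τ → Fin a) (Fin τ → Fin a) (Ar E τ a φ)}
    (hb : b ∈ Hd E τ a φ ζ d) (hb' : b' ∈ Hd E τ a φ ζ d') : b * b' ∈ Hd E τ a φ ζ (d + d') := by
  rw [mem_Hd] at hb hb' ⊢
  constructor
  · intro ν ν'
    rw [Matrix.mul_apply]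
    refine Submodule.sum_mem _ fun μ _ => Asp_mul E τ a φ ?_ (hb.1 ν μ) (hb'.1 μ ν')
    intro α hα β hβ
    rw [Set.mem_ofPred_eq] at hα hβ ⊢
    rw [map_add, hα, hβ]
    have : ((0, ((d + d' : ℕ) : ℤ)) : Gt τ a) = (0, (d : ℤ)) + (0, (d' : ℤ)) := by simp
    rw [this]
    abel
  · intro m ν ν'
    rw [Matrix.mul_apply, Matrix.mul_apply, map_sum, Finset.smul_sum, Finset.smul_sum,
      ← Equiv.sum_comp (Equiv.addRight (Pi.single m 1 : Fin τ → Fin a))]
    refine Finset.sum_congr rfl fun μ _ => ?_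
    rw [Equiv.coe_addRight, ← smul_mul_assoc, hb.2, smul_mul_assoc, ← mul_smul_comm, hb'.2,
      mul_smul_comm, map_mul]

theorem scalar_mem {d : ℕ} {x : Ar E τ a φ}
    (h1 : x ∈ Asp E τ a φ {α | Finsupp.weight chi α = ((0, (d : ℤ)) : Gt τ a)})
    (h2 : ∀ s, shA E τ a φ s x = x) :
    Matrix.scalar (Fin τ → Fin a) x ∈ Hd E τ a φ ζ d := by
  rw [mem_Hd]
  constructor
  · intro ν ν'
    rw [Matrix.scalar_apply, Matrix.diagonal_apply]
    split_ifs with h
    · rw [h, sub_self, zero_add]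
      exact h1
    · exact zero_mem _
  · intro m ν ν'
    rw [Matrix.scalar_apply, Matrix.diagonal_apply, Matrix.diagonal_apply]
    by_cases h : ν = ν'
    · rw [if_pos h, if_pos (by rw [h]), h2, h]
    · rw [if_neg h, if_neg (fun h' => h (add_right_cancel h')), map_zero, smul_zero, smul_zero]

theorem gam_mem (hζ : ζ ^ a = 1) (m' : Fin τ) (i : Fin n) :
    gam E τ a φ ζ m' i ∈ Hd E τ a φ ζ 1 := by
  rw [mem_Hd]
  constructor
  · intro ν ν'
    rw [gam, Matrix.of_apply]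
    split_ifs with h
    · refine Submodule.smul_mem _ _ (evA_mem_Asp E τ a φ fun α hα => ?_)
      rw [support_X, Finset.mem_singleton] at hα
      rw [Set.mem_ofPred_eq, hα, Finsupp.weight_single, one_smul, h, chi_eq]
    · exact zero_mem _
  · intro m ν ν'
    rw [gam, Matrix.of_apply, Matrix.of_apply]
    by_cases h : ν' = ν + Pi.single m' 1
    · rw [if_pos h, if_pos (by rw [h, add_right_comm]), map_smul, shA_evA, rename_X, smul_smul,
        smul_smul, h, cz_cy hζ]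
      rfl
    · rw [if_neg h, if_neg, map_zero, smul_zero, smul_zero]
      intro h'
      rw [add_right_comm] at h'
      exact h (add_right_cancel h')

end HdAux

open HdAux in
theorem hdP (hGrA : GrAStm.{u}) : HdStm.{u} := by
  intro F E _ _ _ _ τ a n r _ φ ζ hζ
  refine ⟨fun d d' b hb b' hb' => mul_mem φ ζ hb hb', fun e => ?_, fun i => ?_,
    fun d p hp hs => ?_, ?_⟩
  · exact scalar_mem φ ζ (inE_mem_Asp E τ a φ (map_zero (Finsupp.weight chi)) e) fun s => shA_inE E τ a φ s e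
  · exact Submodule.sum_mem _ fun m _ => gam_mem φ ζ hζ m i
  · exact scalar_mem φ ζ (evA_mem_Asp E τ a φ fun α hα => hp (mem_support_iff.1 hα))
      fun s => by rw [shA_evA, hs]
  · obtain ⟨γ, hγ, -⟩ := hGrA F E ℤ τ a n r φ (fun _ => 1) a (by simp) (fun g => by
      refine (Finsupp.finite_of_degree_le (σ := Yt τ a n) g.toNat).subset fun α hα => ?_
      rw [Set.mem_ofPred_eq] at hα ⊢
      rw [weight_one] at hα
      omega)
    have hpc : ∀ d : ℕ, ∀ b ∈ Hd E τ a φ ζ d, ∀ ν ν', b ν ν' ∈ γ.pc (d : ℤ) := by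
      intro d b hb ν ν'
      rw [hγ]
      refine Asp_mono E τ a φ (fun α hα => ?_) (hb.1 ν ν')
      rw [Set.mem_ofPred_eq] at hα ⊢
      rw [← weight_snd, hα]
      simp [posn]
    rw [iSupIndep_def]
    intro d
    rw [Submodule.disjoint_def]
    intro b hb hb'
    have h1 : (⨆ j, ⨆ (_ : j ≠ d), Hd E τ a φ ζ j) ≤
        LinearMap.ker (γ.π (d : ℤ)).mapMatrix := by
      refine iSup₂_le fun j hj c hc => ?_
      rw [LinearMap.mem_ker]
      ext ν ν'
      exact γ.π_of_mem_ne (hpc j c hc ν ν') fun h => hj (Nat.cast_injective h).symm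
    have h2 := h1 hb'
    rw [LinearMap.mem_ker] at h2
    ext ν ν'
    rw [← γ.mem_pc.1 (hpc d b hb ν ν')]
    exact congrFun (congrFun h2 ν) ν'

end Vale.Agent.P200G
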