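import Mathlib
import Vale.Agent.P200G.Stm2

/-! The homogeneous equivariant matrices have no zero divisors. -/

namespace Vale.Agent.P200G

open Module MvPolynomial TensorProduct

universe u

namespace HomDomAux

section R

variable (F : Type*) {A N : Type*} [Field F] [Ring A] [Algebra F A] [Fintype N]

/-- Right multiplication of row vectors by a matrix. -/
def R (b : Matrix N N A) : Module.End F (N → A) where
  toFun v ν' := ∑ ν, v ν * b ν ν'
  map_add' v w := by
    funext ν'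
    simp only [Pi.add_apply, add_mul, Finset.sum_add_distrib]
  map_smul' c v := by
    funext ν'
    simp only [Pi.smul_apply, smul_mul_assoc, RingHom.id_apply, Finset.smul_sum]

variable {F}

theorem R_app (b : Matrix N N A) (v : N → A) (ν' : N) : R F b v ν' = ∑ ν, v ν * b ν ν' := rfl

theorem R_comp (b b' : Matrix N N A) (v : N → A) : R F b' (R F b v) = R F (b * b') v := by
  funext ν
  simp only [R_app, Matrix.mul_apply, Finset.sum_mul, Finset.mul_sum, mul_assoc]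
  exact Finset.sum_comm

theorem R_left (b : Matrix N N A) (x : A) (v : N → A) :
    R F b (fun ν => x * v ν) = fun ν => x * R F b v ν := by
  funext ν
  simp only [R_app, Finset.mul_sum, mul_assoc]

theorem R_ne {b : Matrix N N A} (h : b ≠ 0) : (⊤ : Submodule F (N → A)).map (R F b) ≠ ⊥ := by
  classical
  intro h0
  refine h (Matrix.ext fun ν ν' => ?_)
  have h1 : R F b (Pi.single ν 1) ∈ (⊤ : Submodule F (N → A)).map (R F b) := ⟨_, trivial, rfl⟩
  rw [h0, Submodule.mem_bot] at h1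
  have h2 := congrFun h1 ν'
  rw [R_app, Finset.sum_eq_single ν (fun μ _ hμ => by rw [Pi.single_eq_of_ne hμ, zero_mul])
    (fun h => absurd (Finset.mem_univ _) h), Pi.single_eq_same, one_mul] at h2
  exact h2

end R

theorem mom_og {G : Type*} [AddCommGroup G] (x : G) (k : AddMonoidAlgebra ℤ G) :
    mom 1 (og x * k) = mom 1 k := by
  induction k using AddMonoidAlgebra.induction_linear with
  | zero => rw [mul_zero]
  | add k k' h h' => rw [mul_add, mom_add, mom_add, h, h']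
  | single g c => rw [og, AddMonoidAlgebra.single_mul_single, mom_single, mom_single, one_mul]; rfl

theorem mom_split {G : Type*} [AddCommGroup G] {P q0 q1 q2 q3 : AddMonoidAlgebra ℤ G}
    {hT hK hM hM' : G → ℤ} {δ : G} (e : ∀ g, hM' (g + δ) = hT g - hK g)
    (e0 : act P hT = cf q0) (e1 : act P (hK - hM) = cf q1) (e2 : act P hM = cf q2)
    (e3 : act P hM' = cf q3) : mom 1 q0 = mom 1 q1 + mom 1 q2 + mom 1 q3 := by
  have h1 : hT = (hK - hM) + hM + act (og (-δ)) hM' := by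
    funext g
    rw [Pi.add_apply, act_og, sub_neg_eq_add, e, sub_add_cancel]
    ring
  have h2 : act P (act (og (-δ)) hM') = cf (og (-δ) * q3) := by
    rw [← act_cf, ← e3, ← Module.End.mul_apply, ← map_mul, mul_comm, map_mul,
      Module.End.mul_apply]
  rw [h1, map_add, map_add, e1, e2, h2, ← cf_add, ← cf_add] at e0
  rw [← cf_injective e0, mom_add, mom_add, mom_og]

theorem wt_one {Y : Type*} (α : Y →₀ ℕ) :
    Finsupp.weight (fun _ => (1 : ℤ)) α = (α.degree : ℤ) := by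
  simp [Finsupp.weight_apply, Finsupp.degree_apply, Finsupp.sum]

theorem fin_one {Y : Type*} [Finite Y] (g : ℤ) :
    {α : Y →₀ ℕ | Finsupp.weight (fun _ => (1 : ℤ)) α = g}.Finite :=
  (Finsupp.finite_of_degree_le g.toNat).subset fun α h => by
    have h1 : (α.degree : ℤ) = g := (wt_one α).symm.trans h
    show α.degree ≤ g.toNat
    omega

variable {τ a n r : ℕ} [NeZero a]

theorem wt_chi (α : Yt τ a n →₀ ℕ) :
    (Finsupp.weight chi α : Gt τ a).2 = Finsupp.weight (fun _ => (1 : ℤ)) α := by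
  simp only [Finsupp.weight_apply, Finsupp.sum, Prod.snd_sum, Prod.smul_snd, chi]

theorem sum_chi (m : Fin τ) (i : Fin a → Fin n) :
    ∑ j, (chi (m, j, i j) : Gt τ a) = (0, (a : ℤ)) := by
  refine Prod.ext ?_ ?_
  · simp only [Prod.fst_sum, chi, Finset.sum_sub_distrib, sub_eq_zero]
    exact (Equiv.sum_comp (Equiv.addRight (1 : Fin a))
      fun j => (Pi.single (m, j) 1 : Fin τ × Fin a → ℤ)).symm
  · simp [Prod.snd_sum, chi]

variable {F E : Type*} [Field F] [DivisionRing E] [Algebra F E]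
  {φ : Fin r → MvPolynomial (Fin n) F →ₗ[F] F} {ζ : F}
  {b : Matrix (Fin τ → Fin a) (Fin τ → Fin a) (Ar E τ a φ)}

omit [NeZero a] in
theorem hom {G : Type*} [AddCommGroup G] {γ : Gr F (Ar E τ a φ) G} {χ : Yt τ a n → G}
    (hγ : ∀ g, γ.pc g = Asp E τ a φ {α | Finsupp.weight χ α = g}) {pos : (Fin τ → Fin a) → G}
    {δ : G} (hb : ∀ ν ν', b ν ν' ∈ Asp E τ a φ {α | Finsupp.weight χ α = pos ν - pos ν' + δ}) :
    (γ.pi pos).Hom (R F b) δ := by
  refine Gr.hom_of_mem fun g w hw => ?_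
  rw [Gr.mem_pi_pc] at hw ⊢
  intro ν'
  rw [R_app, hγ]
  refine Submodule.sum_mem _ fun ν _ => Asp_mul E τ a φ ?_ (hγ _ ▸ hw ν) (hb ν ν')
  intro α hα β hβ
  show Finsupp.weight χ (α + β) = _
  rw [map_add, show Finsupp.weight χ α = _ from hα, show Finsupp.weight χ β = _ from hβ]
  abel

omit [NeZero a] in
theorem R_ev (p : MvPolynomial (Yt τ a n) F) (w : (Fin τ → Fin a) → Ar E τ a φ) :
    R F b (evV E τ a φ p w) = evV E τ a φ p (R F b w) := R_left b _ w

omit [NeZero a] in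
theorem R_es : ES E ((⊤ : Submodule F _).map (R F b)) := by
  rintro e _ ⟨v, -, rfl⟩
  refine ⟨fun ν => inE E τ a φ e * v ν, trivial, ?_⟩
  rw [R_left]
  funext ν
  exact inE_mul E τ a φ e _

theorem R_sm {d : ℕ} (hb : b ∈ Hd E τ a φ ζ d) (m : Fin τ) (v : (Fin τ → Fin a) → Ar E τ a φ) :
    R F b (Sm E τ a φ ζ m v) = Sm E τ a φ ζ m (R F b v) := by
  funext ν'
  obtain ⟨μ', rfl⟩ : ∃ μ' : Fin τ → Fin a, ν' = μ' + Pi.single m 1 :=
    ⟨ν' - Pi.single m 1, (sub_add_cancel _ _).symm⟩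
  show ∑ ν, (cz ζ m (ν - Pi.single m 1) • shA E τ a φ (Pi.single m 1) (v (ν - Pi.single m 1))) *
      b ν (μ' + Pi.single m 1) = cz ζ m (μ' + Pi.single m 1 - Pi.single m 1) •
      shA E τ a φ (Pi.single m 1) (∑ ν, v ν * b ν (μ' + Pi.single m 1 - Pi.single m 1))
  rw [add_sub_cancel_right, map_sum, Finset.smul_sum,
    ← Equiv.sum_comp (Equiv.addRight (Pi.single m 1 : Fin τ → Fin a))]
  refine Finset.sum_congr rfl fun μ _ => ?_
  rw [Equiv.coe_addRight, add_sub_cancel_right, map_mul, ← mul_smul_comm, ← hb.2 m μ μ',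
    smul_mul_assoc, mul_smul_comm]

theorem hd_one {d : ℕ} (hb : b ∈ Hd E τ a φ ζ d) (ν ν' : Fin τ → Fin a) :
    b ν ν' ∈ Asp E τ a φ {α | Finsupp.weight (fun _ => (1 : ℤ)) α = (0 : ℤ) - 0 + d} :=
  Asp_mono E τ a φ (fun α hα => by
    have h := congrArg Prod.snd (show Finsupp.weight chi α = _ from hα)
    rw [wt_chi] at h
    exact h) (hb.1 ν ν')

end HomDomAux

open HomDomAux in
theorem homDomP (hGrA : GrAStm.{u}) (hVDiv : VDivStm.{u}) (hVRank : VRankStm.{u}) :
    HomDomStm.{u} := by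
  intro F E _ _ _ _ τ a n r _ φ ζ hE hN hτ hζ d d' b hb b' hb' h0
  by_contra hne
  rw [not_or] at hne
  obtain ⟨γ, hγ, hγe⟩ := hGrA F E (Gt τ a) τ a n r φ chi (0, (a : ℤ)) sum_chi fun g =>
    (fin_one g.2).subset fun α hα => by
      show Finsupp.weight _ α = g.2
      rw [← wt_chi, show Finsupp.weight chi α = g from hα]
  obtain ⟨γ', hγ', -⟩ := hGrA F E ℤ τ a n r φ (fun _ => 1) a (fun _ _ => by simp) fin_one
  obtain ⟨c, hc, hR⟩ := hVRank F E τ a n r φ γ' hE (by omega) hγ'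
  have hu : (0 : ℤ) < ((finrank F E * a ^ τ * a ^ r : ℕ) : ℤ) := by
    have h1 := finrank_pos (R := F) (M := E)
    have h2 := NeZero.pos a
    positivity
  have key : ∀ {d : ℕ} {b : Matrix (Fin τ → Fin a) (Fin τ → Fin a) (Ar E τ a φ)},
      b ∈ Hd E τ a φ ζ d → b ≠ 0 → ∃ q, act ((1 - og (1 : ℤ)) ^ c)
        ((γ'.pi fun _ => 0).h ((⊤ : Submodule F _).map (R F b))) = cf q ∧
        ((finrank F E * a ^ τ * a ^ r : ℕ) : ℤ) ≤ mom 1 q := by
    intro d b hb hb0
    have hS : St (evV E τ a φ) ((⊤ : Submodule F _).map (R F b)) := st_top.map R_ev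
    obtain ⟨h1, h2⟩ := hVDiv F E τ a n r φ ζ γ γ' ((⊤ : Submodule F _).map (R F b)) hN hτ hζ hγ hγe
      hγ' ((Gr.hg_top _).map (hom hγ hb.1)) hS R_es (by
        rintro m _ ⟨v, -, rfl⟩
        exact ⟨_, trivial, R_sm hb m v⟩)
    obtain ⟨q, e1, -, -, e2⟩ := hR _ ⊥ h1 (Gr.hg_bot _) hS st_bot bot_le
    rw [Gr.h_bot, sub_zero] at e1
    exact ⟨q, e1, Int.le_of_dvd (e2 rfl (R_ne hb0)) (h2 c q hc e1)⟩
  obtain ⟨q2, e2, l2⟩ := key hb hne.1
  obtain ⟨q3, e3, l3⟩ := key hb' hne.2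
  have k1 := hom (pos := fun _ => 0) hγ' (hd_one hb)
  have k2 := hom (pos := fun _ => 0) hγ' (hd_one hb')
  obtain ⟨q0, e0, -, l0, -⟩ := hR ⊤ ⊥ (Gr.hg_top _) (Gr.hg_bot _) st_top st_bot bot_le
  obtain ⟨q1, e1, l1, -, -⟩ := hR (⊤ ⊓ (⊥ : Submodule F _).comap (R F b')) (Submodule.map (R F b) ⊤)
    ((Gr.hg_top _).inf ((Gr.hg_bot _).comap k2)) ((Gr.hg_top _).map k1)
    (st_top.inf (st_bot.comap R_ev)) (st_top.map R_ev) (by
      rintro _ ⟨v, -, rfl⟩
      refine ⟨trivial, ?_⟩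
      show R F b' (R F b v) = 0
      rw [R_comp, h0]
      funext ν
      simp [R_app])
  rw [Gr.h_bot, sub_zero] at e0
  have e := mom_split (δ := (d' : ℤ)) (fun g => by
    have h := Gr.h_pair (Gr.hg_top _) (Gr.hg_bot _) k2 g
    rwa [bot_sup_eq, Gr.h_bot, Pi.zero_apply, sub_zero] at h) e0 e1 e2 e3
  have := l0 rfl
  linarith

end Vale.Agent.P200G
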