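import Mathlib
import Vale.Agent.P200G.Stm2

/-! Independence properties of the parameter ring. -/

namespace Vale.Agent.P200G

open Module MvPolynomial TensorProduct

universe u

namespace IndepAux

variable {F : Type*} [Field F] {τ a n r : ℕ}

theorem lift (E : Type*) [DivisionRing E] [Algebra F E]
    (φ : Fin r → MvPolynomial (Fin n) F →ₗ[F] F) (θ : MvPolynomial (Yt τ a n) F →ₗ[F] F)
    (h : ∀ p k, θ (p * Om τ a (φ k)) = 0) :
    ∃ Θ : Ar E τ a φ →ₗ[F] E, ∀ e p, Θ (inE E τ a φ e * evA E τ a φ p) = θ p • e := by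
  obtain ⟨θ', h'⟩ := exists_liftR τ a φ θ fun p hp => by
    obtain ⟨c, rfl⟩ := Ideal.mem_span_range_iff_exists_fun.1 hp
    rw [map_sum]
    exact Finset.sum_eq_zero fun k _ => h _ _
  refine ⟨(TensorProduct.rid F E).toLinearMap ∘ₗ θ'.lTensor E, fun e p => ?_⟩
  rw [inE_mul_evA]
  simp [h']

theorem coeff_mul_hom {σ : Type*} {w : MvPolynomial σ F} (hw : w.IsHomogeneous a) {α : σ →₀ ℕ}
    (hα : α.degree ≤ a) (p : MvPolynomial σ F) : coeff α (p * w) = coeff 0 p * coeff α w := by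
  classical
  rw [coeff_mul, Finset.sum_eq_single (0, α)]
  · intro x hx hne
    rw [Finset.HasAntidiagonal.mem_antidiagonal] at hx
    refine mul_eq_zero_of_right _ (hw.coeff_eq_zero fun h2 => hne ?_)
    have h3 : α.degree = x.1.degree + x.2.degree := by rw [← hx, map_add]
    have h4 : x.1 = 0 := (Finsupp.degree_eq_zero_iff _).1 (by omega)
    rw [h4, zero_add] at hx
    exact Prod.ext h4 hx
  · intro h
    exact absurd (Finset.HasAntidiagonal.mem_antidiagonal.2 (zero_add α)) h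

/-- The exponent of a word. -/
noncomputable def xp (m : Fin τ) (i : Fin a → Fin n) : Yt τ a n →₀ ℕ :=
  ∑ j, Finsupp.single (m, j, i j) 1

theorem prod_X (m : Fin τ) (i : Fin a → Fin n) :
    ∏ j, (X (m, j, i j) : MvPolynomial (Yt τ a n) F) = monomial (xp m i) 1 := by
  rw [xp, monomial_sum_one]
  rfl

theorem deg_xp (m : Fin τ) (i : Fin a → Fin n) : (xp m i).degree = a := by
  simp [xp, map_sum]

theorem xp_inj {m m' : Fin τ} {i i' : Fin a → Fin n} (h : xp m i = xp m' i') (j : Fin a) :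
    m = m' ∧ i j = i' j := by
  classical
  have h1 : xp m' i' (m', j, i' j) ≠ 0 := by
    rw [xp, Finsupp.finsetSum_apply]
    intro h0
    have h2 := Finset.sum_eq_zero_iff.1 h0 j (Finset.mem_univ _)
    simp at h2
  rw [← h, xp, Finsupp.finsetSum_apply] at h1
  obtain ⟨k, -, hk⟩ := Finset.exists_ne_zero_of_sum_ne_zero h1
  have h3 := (Finsupp.single_apply_ne_zero.1 hk).1
  simp only [Prod.mk.injEq] at h3
  obtain ⟨e1, e2, e3⟩ := h3
  subst e2
  exact ⟨e1.symm, e3.symm⟩

theorem hom_Om (ψ : MvPolynomial (Fin n) F →ₗ[F] F) : (Om τ a ψ).IsHomogeneous a := by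
  refine IsHomogeneous.sum _ _ _ fun m _ => IsHomogeneous.sum _ _ _ fun i _ => ?_
  rw [prod_X, C_mul_monomial]
  exact isHomogeneous_monomial _ (deg_xp m i)

theorem coeff_Om [NeZero a] (ψ : MvPolynomial (Fin n) F →ₗ[F] F) (m : Fin τ)
    (i : Fin a → Fin n) : coeff (xp m i) (Om τ a ψ) = ψ (mon F i) := by
  classical
  simp only [Om, prod_X, C_mul_monomial, mul_one, coeff_sum, coeff_monomial]
  rw [Finset.sum_eq_single m, Finset.sum_eq_single i, if_pos rfl]
  · intro i' _ hne
    exact if_neg fun h => hne (funext fun j => (xp_inj h j).2)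
  · intro h
    exact absurd (Finset.mem_univ _) h
  · intro m' _ hne
    exact Finset.sum_eq_zero fun i' _ => if_neg fun h => hne (xp_inj h 0).1
  · intro h
    exact absurd (Finset.mem_univ _) h

theorem word (F : Type*) [Field F] (a : ℕ) (α : Fin n →₀ ℕ) (h : α.degree = a) :
    ∃ i : Fin a → Fin n, mon F i = monomial α 1 := by
  induction a generalizing α with
  | zero =>
    refine ⟨Fin.elim0, ?_⟩
    rw [(Finsupp.degree_eq_zero_iff _).1 h]
    simp [mon]
  | succ a ih =>
    have h0 : α ≠ 0 := fun h0 => by simp [h0] at h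
    obtain ⟨j, hj⟩ := Finsupp.ne_iff.1 h0
    obtain ⟨β, rfl⟩ := exists_add_of_le (a := Finsupp.single j 1) (b := α)
      (Finsupp.single_le_iff.2 (Nat.one_le_iff_ne_zero.2 hj))
    obtain ⟨i, hi⟩ := ih β (by rw [map_add, Finsupp.degree_single] at h; omega)
    refine ⟨Fin.cons j i, ?_⟩
    rw [mon] at hi
    rw [mon, Fin.prod_univ_succ]
    simp only [Fin.cons_zero, Fin.cons_succ]
    rw [hi, X, monomial_mul, one_mul]

theorem low (φ : Fin r → MvPolynomial (Fin n) F →ₗ[F] F) {α : Yt τ a n →₀ ℕ} (h : α.degree < a)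
    (p : MvPolynomial (Yt τ a n) F) (k : Fin r) : lcoeff F α (p * Om τ a (φ k)) = 0 := by
  rw [lcoeff_apply, coeff_mul_hom (hom_Om _) h.le, (hom_Om _).coeff_eq_zero h.ne, mul_zero]

theorem exists_theta [NeZero a] (m : Fin τ) {g : MvPolynomial (Fin n) F} (hg : g.IsHomogeneous a) :
    ∃ θ : MvPolynomial (Yt τ a n) F →ₗ[F] F, ∀ p ψ, θ (p * Om τ a ψ) = coeff 0 p * ψ g := by
  have hw : ∀ α : g.support, ∃ i : Fin a → Fin n, mon F i = monomial α.1 1 := fun α =>
    word F a α.1 (by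
      by_contra h
      exact mem_support_iff.1 α.2 (hg.coeff_eq_zero h))
  choose wd hwd using hw
  refine ⟨∑ α : g.support, coeff α.1 g • lcoeff F (xp m (wd α)), fun p ψ => ?_⟩
  have h1 : ψ g = ∑ α : g.support, coeff α.1 g * ψ (monomial α.1 1) := by
    conv_lhs => rw [g.as_sum, map_sum, ← Finset.sum_coe_sort]
    refine Finset.sum_congr rfl fun α _ => ?_
    rw [← smul_eq_mul, ← map_smul, smul_monomial, smul_eq_mul, mul_one]
  rw [h1, Finset.mul_sum, LinearMap.sum_apply]
  refine Finset.sum_congr rfl fun α _ => ?_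
  rw [LinearMap.smul_apply, lcoeff_apply, coeff_mul_hom (hom_Om _) (deg_xp _ _).le, coeff_Om, hwd,
    smul_eq_mul]
  ring

theorem ee_entry (E : Type*) [DivisionRing E] [Algebra F E] [NeZero a] (ha : 2 ≤ a)
    (φ : Fin r → MvPolynomial (Fin n) F →ₗ[F] F) (ζ : F) (m : Fin τ) (i : Fin n) :
    ee E τ a φ ζ i 0 (Pi.single m 1) = evA E τ a φ (X (m, 0, i)) := by
  have h1 : (1 : Fin a) ≠ 0 := by
    intro h
    have h2 := congrArg Fin.val h
    rw [Fin.val_one', Nat.mod_eq_of_lt (by omega)] at h2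
    simp at h2
  rw [ee, Matrix.sum_apply, Finset.sum_eq_single m]
  · simp [gam, cy]
  · intro m' _ hne
    refine if_neg fun h => ?_
    have h2 := congrFun h m
    rw [zero_add, Pi.single_eq_same, Pi.single_eq_of_ne hne.symm] at h2
    exact h1 h2
  · intro h
    exact absurd (Finset.mem_univ _) h

end IndepAux

open IndepAux in
theorem indepP : IndepStm.{u} := by
  intro F E _ _ _ τ a n r _ φ ζ ha hτ _
  classical
  refine ⟨?_, fun c hc => ?_, fun q ψ g hg h0 h1 c hc => ?_⟩
  · obtain ⟨Θ, hΘ⟩ := lift E φ (lcoeff F (0 : Yt τ a n →₀ ℕ)) (low φ (by simp; omega))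
    refine ⟨⟨1, 0, fun h => ?_⟩⟩
    have h1 := hΘ 1 1
    rw [map_one, map_one, mul_one, h, map_zero] at h1
    simp at h1
  · funext i
    obtain ⟨Θ, hΘ⟩ := lift E φ (lcoeff F (Finsupp.single ((⟨0, hτ⟩, 0, i) : Yt τ a n) 1))
      (low φ (by simp; omega))
    have h1 := congrFun (congrFun hc 0) (Pi.single ⟨0, hτ⟩ 1)
    rw [Matrix.sum_apply] at h1
    simp only [Matrix.scalar_apply, Matrix.diagonal_mul, ee_entry E ha] at h1
    have h2 := congrArg Θ h1
    rw [map_sum, Matrix.zero_apply, map_zero, Finset.sum_eq_single i] at h2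
    · simpa [hΘ] using h2
    · intro j _ hne
      rw [hΘ, lcoeff_apply, coeff_X, if_neg, zero_smul]
      intro h
      have h3 := (Finsupp.single_left_inj one_ne_zero).1 h
      simp only [Prod.mk.injEq] at h3
      exact hne h3.2.2
    · intro h
      exact absurd (Finset.mem_univ _) h
  · funext l
    obtain ⟨θ, hθ⟩ := exists_theta (⟨0, hτ⟩ : Fin τ) (hg l)
    obtain ⟨Θ, hΘ⟩ := lift E φ θ fun p k => by rw [hθ, h0, mul_zero]
    have h3 : ∀ l', θ (Om τ a (ψ l')) = if l' = l then 1 else 0 := fun l' => by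
      have h4 := hθ 1 (ψ l')
      rwa [one_mul, coeff_zero_one, one_mul, h1] at h4
    have h2 := congrArg Θ hc
    simpa [map_sum, hΘ, h3] using h2

end Vale.Agent.P200G
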