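import Mathlib
import Vale.Agent.P200G.Stm2

/-! The grading on the exterior algebra with coefficients. -/

namespace Vale.Agent.P200G

open Module

universe u

namespace LamAux

variable {F W G : Type*} [Field F] [AddCommGroup W] [Module F W]

/-- The grading concentrated in even parity. -/
def g2 (γ : Gr F W G) : Gr F W (G × ZMod 2) where
  π g := if g.2 = 0 then γ.π g.1 else 0
  idem g w := by split_ifs <;> simp [γ.idem]
  orth g g' w h := by
    split_ifs with h1 h2
    · exact γ.orth _ _ _ fun h3 => h (Prod.ext h3 (h1.trans h2.symm))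
    · simp
    · simp
    · simp
  sum w := by
    obtain ⟨s, hs⟩ := γ.sum w
    refine ⟨s.map ⟨fun g => (g, 0), fun _ _ h => (Prod.ext_iff.1 h).1⟩, ?_⟩
    rw [Finset.sum_map]
    exact (Finset.sum_congr rfl fun g _ => LinearMap.congr_fun (if_pos rfl) w).trans hs
  fd g := by
    by_cases h : g.2 = 0
    · rw [if_pos h]
      exact γ.fd _
    · rw [if_neg h, LinearMap.range_zero]
      infer_instance

theorem g2_h (γ : Gr F W G) (M : Submodule F W) (g : G × ZMod 2) :
    (g2 γ).h M g = if g.2 = 0 then γ.h M g.1 else 0 := by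
  by_cases h : g.2 = 0
  · have : (g2 γ).π g = γ.π g.1 := if_pos h
    rw [if_pos h, Gr.h, this, Gr.h]
  · have : (g2 γ).π g = 0 := if_neg h
    rw [if_neg h, Gr.h, this, Submodule.map_zero]
    simp

/-- A product of subspaces as a product of spaces. -/
def piEq {ι : Type*} (p : ι → Submodule F W) : (Submodule.pi Set.univ p) ≃ₗ[F] ∀ i, p i where
  toFun v i := ⟨v.1 i, v.2 i trivial⟩
  map_add' _ _ := rfl
  map_smul' _ _ := rfl
  invFun v := ⟨fun i => v i, fun i _ => (v i).2⟩
  left_inv _ := rfl
  right_inv _ := rfl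

theorem pi_h [AddCommGroup G] (γ : Gr F W G) {ι : Type*} [Fintype ι] (pos : ι → G)
    (M : Submodule F W) (g : G) :
    (γ.pi pos).h (Submodule.pi Set.univ fun _ => M) g = ∑ i, γ.h M (g - pos i) := by
  have h : (Submodule.pi Set.univ fun _ => M).map ((γ.pi pos).π g) =
      Submodule.pi Set.univ fun i => M.map (γ.π (g - pos i)) := by
    ext v
    constructor
    · rintro ⟨w, hw, rfl⟩ i -
      exact ⟨w i, hw i trivial, rfl⟩
    · intro hv
      choose w hw hw' using fun i => hv i trivial
      exact ⟨w, fun i _ => hw i, funext hw'⟩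
  simp only [Gr.h]
  rw [h, (piEq _).finrank_eq, Module.finrank_pi_fintype, Nat.cast_sum]

theorem sign (n : ℕ) (x : ℤ) :
    (if (0 : ZMod 2) - n = 0 then x else 0) - (if (1 : ZMod 2) - n = 0 then x else 0) =
      (-1) ^ n * x := by
  induction n generalizing x with
  | zero => simp
  | succ n ih =>
    have h1 : ∀ y : ZMod 2, (0 - (y + 1) = 0 ↔ 1 - y = 0) ∧ (1 - (y + 1) = 0 ↔ 0 - y = 0) := by
      decide
    simp only [Nat.cast_succ, h1]
    rw [pow_succ, ← neg_sub, ih]
    ring

theorem og_sum [AddCommGroup G] {J : Type*} (S : Finset J) (c : J → G) :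
    ∏ j ∈ S, og (c j) = og (∑ j ∈ S, c j) := by
  classical
  induction S using Finset.induction_on with
  | empty => simp [og_zero]
  | insert j S hj ih => rw [Finset.prod_insert hj, Finset.sum_insert hj, og_add, ih]

theorem prod_eq [AddCommGroup G] {J : Type*} [Fintype J] (c : J → G) :
    ∏ j, (1 - og (c j)) = ∑ S : Finset J, ((-1 : ℤ) ^ S.card) • og (∑ j ∈ S, c j) := by
  classical
  simp only [sub_eq_add_neg]
  rw [Finset.prod_one_add, Finset.powerset_univ]
  refine Finset.sum_congr rfl fun S _ => ?_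
  rw [Finset.prod_neg, og_sum]
  simp

end LamAux

open LamAux in
theorem lamP : LamStm.{u} := by
  intro F W G J _ _ _ _ _ _ γ c
  have hπ : ∀ g f S, ((g2 γ).pi fun S : Finset J => (∑ j ∈ S, c j, (S.card : ZMod 2))).π g f S =
      if g.2 = (S.card : ZMod 2) then γ.π (g.1 - ∑ j ∈ S, c j) (f S) else 0 := by
    intro g f S
    rw [Gr.pi_π]
    simp only [g2, Prod.snd_sub, Prod.fst_sub, sub_eq_zero]
    split_ifs <;> rfl
  have h2 : ∀ x y : ZMod 2, (x + 1 = y ↔ x = y + 1) ∧ (x + 1 = y + 1 ↔ x = y) := by decide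
  refine ⟨_, hπ, fun j g f => funext fun S => ?_, fun j g f => funext fun S => ?_, fun M _ => ?_⟩
  · rw [hπ]
    simp only [io, LinearMap.coe_mk, AddHom.coe_mk, hπ]
    by_cases h : j ∈ S
    · simp [h]
    · simp only [h, if_false, Finset.card_insert_of_notMem h, Finset.sum_insert h, Nat.cast_succ,
        Prod.snd_add, Prod.fst_add, (h2 _ _).1, map_smul]
      have : g.1 + -c j - ∑ j ∈ S, c j = g.1 - (c j + ∑ j ∈ S, c j) := by abel
      rw [this]
      split_ifs <;> simp
  · rw [hπ]
    simp only [ex, LinearMap.coe_mk, AddHom.coe_mk, hπ]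
    by_cases h : j ∈ S
    · rw [← Finset.card_erase_add_one h, ← Finset.add_sum_erase S c h]
      simp only [h, if_true, Nat.cast_succ, Prod.snd_add, Prod.fst_add, (h2 _ _).2, map_smul]
      have : g.1 + c j - (c j + ∑ j ∈ S.erase j, c j) = g.1 - ∑ j ∈ S.erase j, c j := by abel
      rw [this]
      split_ifs <;> simp
    · simp [h]
  · funext g
    rw [prod_eq, map_sum, LinearMap.sum_apply, Finset.sum_apply]
    simp only [sd, pi_h, g2_h, Prod.snd_sub, Prod.fst_sub, ← Finset.sum_sub_distrib, sign,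
      map_smul, LinearMap.smul_apply, Pi.smul_apply, act_og, smul_eq_mul]

end Vale.Agent.P200G
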