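import Mathlib
import Vale.Agent.P200G.Stm2

/-! The monomial ideal with prescribed slices. -/

namespace Vale.Agent.P200G

open Vale.Agent.P200

namespace LppAux

/-- The slice in two variables. -/
def L (a₂ : ℕ) (v : ℕ → ℕ) (i j : ℕ) : Prop :=
  a₂ ≤ j ∨ (i + j + 1 - a₂) + (i + j + 1 - v (i + j)) ≤ i

variable {a₁ a₂ : ℕ} {v v' : ℕ → ℕ}

theorem bound (h : Num2 a₁ a₂ v) (h1 : 1 ≤ a₂) (d : ℕ) (hd : a₂ ≤ d + 1) :
    d + 1 - v d ≤ a₂ := by
  induction d with
  | zero => omega
  | succ d ih =>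
    by_cases h1 : a₂ ≤ d + 1
    · have := ih h1
      have := h.snd d h1
      have := h.mac d
      have := h.le d
      omega
    · omega

theorem L_fst (h : Num2 a₁ a₂ v) {i j : ℕ} (hL : L a₂ v i j) : L a₂ v (i + 1) j := by
  unfold L at hL ⊢
  rw [show i + 1 + j = i + j + 1 by omega]
  have := h.snd (i + j)
  have := h.mac (i + j)
  have := h.le (i + j)
  omega

theorem L_snd (h : Num2 a₁ a₂ v) {i j : ℕ} (hL : L a₂ v i j) : L a₂ v i (j + 1) := by
  unfold L at hL ⊢
  rw [show i + (j + 1) = i + j + 1 by omega]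
  have := h.snd (i + j)
  have := h.mac (i + j)
  have := h.le (i + j)
  omega

theorem L_mono (h : Num2 a₁ a₂ v') (hv : ∀ d, v d ≤ v' d) {i j i' j' : ℕ} (hi : i ≤ i')
    (hj : j ≤ j') (hL : L a₂ v i j) : L a₂ v' i' j' := by
  have h1 : L a₂ v' i j := by
    unfold L at hL ⊢
    have := hv (i + j)
    omega
  have h2 : L a₂ v' i' j := Nat.le_induction h1 (fun _ _ h' => L_fst h h') i' hi
  exact Nat.le_induction h2 (fun _ _ h' => L_snd h h') j' hj

open Classical in
theorem card_L (h : Num2 a₁ a₂ v) (h1 : 1 ≤ a₂) (e : ℕ) :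
    ((Finset.range (e + 1)).filter fun i => L a₂ v i (e - i)).card = v e := by
  have hb := bound h h1 e
  have hl := h.le e
  have e1 : ((Finset.range (e + 1)).filter fun i => L a₂ v i (e - i)) =
      Finset.range (e + 1) \ Finset.Ico (e + 1 - a₂) ((e + 1 - a₂) + (e + 1 - v e)) := by
    ext i
    simp only [Finset.mem_filter, Finset.mem_range, Finset.mem_sdiff, Finset.mem_Ico]
    refine and_congr_right fun hi => ?_
    unfold L
    rw [show i + (e - i) = e by omega]
    omega
  rw [e1, Finset.card_sdiff_of_subset, Finset.card_range, Nat.card_Ico]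
  · omega
  · intro i hi
    simp only [Finset.mem_range, Finset.mem_Ico] at hi ⊢
    omega

theorem deg_tail {n : ℕ} (γ : Fin (n + 1) →₀ ℕ) : γ.degree = γ 0 + γ.tail.degree := by
  simp only [Finsupp.degree_eq_sum, Fin.sum_univ_succ, Finsupp.tail_apply]

theorem deg_two {m : ℕ} (γ : Fin (m + 2) →₀ ℕ) :
    γ.degree = γ 0 + γ 1 + γ.tail.tail.degree := by
  rw [deg_tail, deg_tail γ.tail, Finsupp.tail_apply]
  exact (add_assoc _ _ _).symm

end LppAux

open LppAux in
theorem lppP : LppStm := by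
  classical
  intro m a₁ a₂ v h1 h12 hN hm
  refine ⟨{γ | L a₂ (v γ.tail.tail) (γ 0) (γ 1)}, fun γ γ' hle hγ => ?_, fun d => ?_, ?_, ?_,
    fun i b hb => ?_⟩
  · exact L_mono (hN _) (fun d => hm _ _ d fun i => hle i.succ.succ) (hle 0) (hle 1) hγ
  · have e : ∑ k ∈ Finset.range (d + 1), ∑ β ∈ monos m k, v β (d - k) =
        ((Finset.range (d + 1)).sigma fun k => (monos m k).sigma fun β =>
          (Finset.range (d - k + 1)).filter fun i => L a₂ (v β) i (d - k - i)).card := by
      rw [Finset.card_sigma]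
      refine Finset.sum_congr rfl fun k _ => ?_
      rw [Finset.card_sigma]
      exact Finset.sum_congr rfl fun β _ => (card_L (hN β) (h1.trans h12) _).symm
    rw [e]
    refine Finset.card_bij' (fun γ _ => ⟨γ.tail.tail.degree, γ.tail.tail, γ 0⟩)
      (fun x _ => Finsupp.cons x.2.2 (Finsupp.cons (d - x.1 - x.2.2) x.2.1)) ?_ ?_ ?_ ?_
    · intro γ hγ
      simp only [Finset.mem_filter, mem_monos, Set.mem_ofPred_eq] at hγ
      have := deg_two γ
      simp only [Finset.mem_sigma, Finset.mem_range, Finset.mem_filter, mem_monos, true_and]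
      refine ⟨by omega, by omega, ?_⟩
      rw [show d - γ.tail.tail.degree - γ 0 = γ 1 by omega]
      exact hγ.2
    · rintro ⟨k, β, i⟩ hx
      simp only [Finset.mem_sigma, Finset.mem_range, Finset.mem_filter, mem_monos] at hx
      have e1 : (Finsupp.cons i (Finsupp.cons (d - k - i) β)) 1 = d - k - i := rfl
      simp only [Finset.mem_filter, mem_monos, Set.mem_ofPred_eq, deg_two, Finsupp.tail_cons,
        Finsupp.cons_zero, e1]
      exact ⟨by omega, hx.2.2.2⟩
    · intro γ hγ
      simp only [Finset.mem_filter, mem_monos] at hγ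
      have := deg_two γ
      have e1 : d - γ.tail.tail.degree - γ 0 = γ.tail 0 := by
        change _ = γ 1
        omega
      simp only [e1, Finsupp.cons_tail]
    · rintro ⟨k, β, i⟩ hx
      simp only [Finset.mem_sigma, Finset.mem_range, Finset.mem_filter, mem_monos] at hx
      simp only [Finsupp.tail_cons, Finsupp.cons_zero, hx.2.1]
  · have e1 : (Finsupp.single 0 a₁ : Fin (m + 2) →₀ ℕ) 1 = 0 := by simp
    simp only [Set.mem_ofPred_eq, Finsupp.single_eq_same, e1, L, add_zero]
    set β := (Finsupp.single 0 a₁ : Fin (m + 2) →₀ ℕ).tail.tail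
    have h2 := (hN β).fst
    obtain ⟨c, rfl⟩ : ∃ c, a₁ = c + 1 := ⟨a₁ - 1, by omega⟩
    have h3 := (hN β).snd c
    have h4 := (hN β).mac c
    have h5 := (hN β).le c
    omega
  · left
    simp
  · have e0 : (Finsupp.single i.succ.succ b : Fin (m + 2) →₀ ℕ) =
        Finsupp.cons 0 (Finsupp.cons 0 (Finsupp.single i b)) := by
      rw [Finsupp.cons_zero_single_eq_single_succ, Finsupp.cons_zero_single_eq_single_succ]
    have e1 : (Finsupp.cons 0 (Finsupp.cons 0 (Finsupp.single i b)) : Fin (m + 2) →₀ ℕ) 1 = 0 :=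
      rfl
    rw [e0]
    simp only [Set.mem_ofPred_eq, Finsupp.tail_cons, Finsupp.cons_zero, e1, L, add_zero]
    omega

end Vale.Agent.P200G
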