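import Mathlib
import Vale.Agent.P200G.Stm2

/-! Quotients by polynomials with pure powers as leading forms are free. -/

namespace Vale.Agent.P200G

open Module MvPolynomial

universe u

namespace MonicAux

variable {Z : Type*} [CommRing Z] {r : ℕ}

/-- Polynomials all of whose monomials have degree below `d`. -/
def Lt (Z : Type*) [CommRing Z] (r d : ℕ) : Submodule Z (MvPolynomial (Fin r) Z) where
  carrier := {p | ∀ α ∈ p.support, α.degree < d}
  add_mem' := by
    intro p q hp hq α hα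
    rcases Finset.mem_union.1 (support_add hα) with h | h
    · exact hp α h
    · exact hq α h
  zero_mem' := by simp
  smul_mem' := fun c p hp α hα => hp α (support_smul hα)

theorem mem_Lt {d : ℕ} {p : MvPolynomial (Fin r) Z} :
    p ∈ Lt Z r d ↔ ∀ α ∈ p.support, α.degree < d := Iff.rfl

theorem Lt_mono {d e : ℕ} (h : d ≤ e) {p : MvPolynomial (Fin r) Z} (hp : p ∈ Lt Z r d) :
    p ∈ Lt Z r e := fun α hα => lt_of_lt_of_le (hp α hα) h

theorem monomial_mem (γ : Fin r →₀ ℕ) (c : Z) : monomial γ c ∈ Lt Z r (γ.degree + 1) := by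
  classical
  intro α hα
  have := Finset.mem_singleton.1 (support_monomial_subset hα)
  rw [this]
  exact Nat.lt_succ_self _

theorem mul_mem_Lt {d e : ℕ} {p q : MvPolynomial (Fin r) Z} (hp : p ∈ Lt Z r d)
    (hq : q ∈ Lt Z r (e + 1)) : p * q ∈ Lt Z r (d + e) := by
  classical
  intro α hα
  obtain ⟨β, hβ, γ, hγ, rfl⟩ := Finset.mem_add.1 (support_mul p q hα)
  have h1 := hp β hβ
  have h2 := hq γ hγ
  rw [map_add]
  omega

theorem exists_Lt (p : MvPolynomial (Fin r) Z) : ∃ d, p ∈ Lt Z r d :=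
  ⟨p.support.sup Finsupp.degree + 1, fun _ hα =>
    Nat.lt_succ_of_le (Finset.le_sup (f := Finsupp.degree) hα)⟩

theorem eq_zero_of_Lt {p : MvPolynomial (Fin r) Z} (hp : p ∈ Lt Z r 0) : p = 0 := by
  rw [← MvPolynomial.support_eq_empty]
  exact Finset.eq_empty_of_forall_notMem fun α hα => Nat.not_lt_zero _ (hp α hα)

/-- The leading form is the given monomial. -/
def Top (p : MvPolynomial (Fin r) Z) (γ : Fin r →₀ ℕ) : Prop :=
  p - monomial γ 1 ∈ Lt Z r γ.degree

theorem Top.monomial (γ : Fin r →₀ ℕ) : Top (monomial γ (1 : Z)) γ := by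
  rw [Top, sub_self]
  exact zero_mem _

theorem Top.one : Top (1 : MvPolynomial (Fin r) Z) 0 := Top.monomial 0

theorem Top.mul {p q : MvPolynomial (Fin r) Z} {γ δ : Fin r →₀ ℕ} (hp : Top p γ) (hq : Top q δ) :
    Top (p * q) (γ + δ) := by
  have h1 : q ∈ Lt Z r (δ.degree + 1) := by
    have : q = (q - MvPolynomial.monomial δ 1) + MvPolynomial.monomial δ 1 := by ring
    rw [this]
    exact add_mem (Lt_mono (Nat.le_succ _) hq) (monomial_mem δ 1)
  have h2 : p * q - MvPolynomial.monomial (γ + δ) (1 : Z) =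
      (p - MvPolynomial.monomial γ 1) * q +
        (q - MvPolynomial.monomial δ 1) * MvPolynomial.monomial γ 1 := by
    have : MvPolynomial.monomial (γ + δ) (1 : Z) =
        MvPolynomial.monomial γ 1 * MvPolynomial.monomial δ 1 := by
      rw [monomial_mul, one_mul]
    rw [this]
    ring
  rw [Top, h2, map_add]
  refine add_mem (mul_mem_Lt hp h1) ?_
  rw [add_comm]
  exact mul_mem_Lt hq (monomial_mem γ 1)

theorem Top.pow {p : MvPolynomial (Fin r) Z} {γ : Fin r →₀ ℕ} (hp : Top p γ) (n : ℕ) :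
    Top (p ^ n) (n • γ) := by
  induction n with
  | zero => rw [pow_zero, zero_nsmul]; exact Top.one
  | succ n ih => rw [pow_succ, succ_nsmul]; exact ih.mul hp

theorem Top.prod {ι : Type*} (s : Finset ι) {p : ι → MvPolynomial (Fin r) Z}
    {γ : ι → Fin r →₀ ℕ} (hp : ∀ i ∈ s, Top (p i) (γ i)) :
    Top (∏ i ∈ s, p i) (∑ i ∈ s, γ i) := by
  classical
  induction s using Finset.induction_on with
  | empty => rw [Finset.prod_empty, Finset.sum_empty]; exact Top.one
  | insert i s hi ih =>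
    rw [Finset.prod_insert hi, Finset.sum_insert hi]
    exact (hp i (Finset.mem_insert_self _ _)).mul
      (ih fun j hj => hp j (Finset.mem_insert_of_mem hj))

section Tri

variable (Φ : MvPolynomial (Fin r) Z →ₗ[Z] MvPolynomial (Fin r) Z)
  (hΦ : ∀ γ, Top (Φ (monomial γ 1)) γ)

include hΦ

theorem tri_step {d : ℕ} {p : MvPolynomial (Fin r) Z} (hp : p ∈ Lt Z r (d + 1)) :
    Φ p - p ∈ Lt Z r d := by
  have h1 : Φ p - p = ∑ α ∈ p.support, coeff α p • (Φ (monomial α 1) - monomial α 1) := by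
    conv_lhs => rw [p.as_sum, map_sum, ← Finset.sum_sub_distrib]
    refine Finset.sum_congr rfl fun α _ => ?_
    rw [smul_sub, ← map_smul, smul_monomial, smul_eq_mul, mul_one]
  rw [h1]
  exact Submodule.sum_mem _ fun α hα =>
    Submodule.smul_mem _ _ (Lt_mono (Nat.le_of_lt_succ (hp α hα)) (hΦ α))

theorem tri_inj {p : MvPolynomial (Fin r) Z} (h : Φ p = 0) : p = 0 := by
  obtain ⟨d, hd⟩ := exists_Lt p
  induction d with
  | zero => exact eq_zero_of_Lt hd
  | succ d ih =>
    have h1 := tri_step Φ hΦ hd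
    rw [h, zero_sub] at h1
    exact ih (neg_mem_iff.1 h1)

theorem tri_surj (p : MvPolynomial (Fin r) Z) : ∃ q, Φ q = p := by
  obtain ⟨d, hd⟩ := exists_Lt p
  induction d generalizing p with
  | zero => exact ⟨0, by rw [eq_zero_of_Lt hd, map_zero]⟩
  | succ d ih =>
    obtain ⟨q, hq⟩ := ih _ (tri_step Φ hΦ hd)
    exact ⟨p - q, by rw [map_sub, hq]; ring⟩

end Tri

/-- The remainders of the exponents. -/
noncomputable def rem (a : ℕ) (γ : Fin r →₀ ℕ) : Fin r →₀ ℕ :=
  γ.mapRange (· % a) (Nat.zero_mod a)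

theorem rem_apply (a : ℕ) (γ : Fin r →₀ ℕ) (k : Fin r) : rem a γ k = γ k % a := rfl

/-- The expansion map. -/
noncomputable def Ex (a : ℕ) (Ω : Fin r → MvPolynomial (Fin r) Z) :
    MvPolynomial (Fin r) Z →ₗ[Z] MvPolynomial (Fin r) Z :=
  (basisMonomials (Fin r) Z).constr Z fun γ => (∏ k, Ω k ^ (γ k / a)) * monomial (rem a γ) 1

theorem Ex_monomial (a : ℕ) (Ω : Fin r → MvPolynomial (Fin r) Z) (γ : Fin r →₀ ℕ) :
    Ex a Ω (monomial γ 1) = (∏ k, Ω k ^ (γ k / a)) * monomial (rem a γ) 1 :=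
  (basisMonomials (Fin r) Z).constr_basis Z _ γ

theorem Ex_top {a : ℕ} {Ω : Fin r → MvPolynomial (Fin r) Z}
    (h : ∀ k, ∀ α ∈ (Ω k - X k ^ a).support, α.degree < a) (γ : Fin r →₀ ℕ) :
    Top (Ex a Ω (monomial γ 1)) γ := by
  have h1 : ∀ k, Top (Ω k) (Finsupp.single k a) := fun k => by
    rw [Top, ← X_pow_eq_monomial, Finsupp.degree_single]
    exact h k
  have h2 := (Top.prod Finset.univ fun k _ => (h1 k).pow (γ k / a)).mul (Top.monomial (rem a γ))
  have h3 : (∑ k, (γ k / a) • Finsupp.single k a) + rem a γ = γ := by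
    ext l
    rw [Finsupp.add_apply, Finsupp.finsetSum_apply, Finset.sum_eq_single l, rem_apply]
    · rw [Finsupp.smul_apply, Finsupp.single_eq_same, smul_eq_mul]
      exact Nat.div_add_mod' _ _
    · intro k _ hk
      rw [Finsupp.smul_apply, Finsupp.single_eq_of_ne (Ne.symm hk), smul_zero]
    · intro hl
      exact absurd (Finset.mem_univ l) hl
  rw [Ex_monomial]
  rwa [h3] at h2

theorem Ex_box {a : ℕ} (Ω : Fin r → MvPolynomial (Fin r) Z) {γ : Fin r →₀ ℕ}
    (hγ : ∀ k, γ k < a) : Ex a Ω (monomial γ 1) = monomial γ 1 := by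
  have h1 : rem a γ = γ := by
    ext k
    rw [rem_apply, Nat.mod_eq_of_lt (hγ k)]
  rw [Ex_monomial, h1, Finset.prod_eq_one, one_mul]
  intro k _
  rw [Nat.div_eq_of_lt (hγ k), pow_zero]

theorem Ex_box' {a : ℕ} (Ω : Fin r → MvPolynomial (Fin r) Z) {v : MvPolynomial (Fin r) Z}
    (hv : ∀ α ∈ v.support, ∀ k, α k < a) : Ex a Ω v = v := by
  conv_lhs => rw [v.as_sum, map_sum]
  conv_rhs => rw [v.as_sum]
  refine Finset.sum_congr rfl fun α hα => ?_
  rw [← mul_one (coeff α v), ← smul_eq_mul, ← smul_monomial, map_smul, Ex_box Ω (hv α hα)]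

theorem Ex_mul {a : ℕ} (ha : 0 < a) (Ω : Fin r → MvPolynomial (Fin r) Z) (k : Fin r)
    (q : MvPolynomial (Fin r) Z) : Ex a Ω (X k ^ a * q) = Ω k * Ex a Ω q := by
  induction q using MvPolynomial.induction_on' with
  | add p q hp hq => rw [mul_add, map_add, map_add, hp, hq, mul_add]
  | monomial γ c =>
    have h0 : monomial γ c = c • monomial γ (1 : Z) := by
      rw [smul_monomial, smul_eq_mul, mul_one]
    have h1 : rem a (Finsupp.single k a + γ) = rem a γ := by
      ext l
      rw [rem_apply, rem_apply, Finsupp.add_apply]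
      by_cases hl : l = k
      · rw [hl, Finsupp.single_eq_same, Nat.add_mod_left]
      · rw [Finsupp.single_eq_of_ne hl, zero_add]
    have h2 : (∏ l, Ω l ^ ((Finsupp.single k a + γ : Fin r →₀ ℕ) l / a)) =
        Ω k * ∏ l, Ω l ^ (γ l / a) := by
      rw [← Finset.mul_prod_erase _ _ (Finset.mem_univ k),
        ← Finset.mul_prod_erase _ (fun l => Ω l ^ (γ l / a)) (Finset.mem_univ k), ← mul_assoc]
      congr 1
      · rw [Finsupp.add_apply, Finsupp.single_eq_same, Nat.add_div_left _ ha, pow_succ']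
      · refine Finset.prod_congr rfl fun l hl => ?_
        rw [Finsupp.add_apply, Finsupp.single_eq_of_ne (Finset.ne_of_mem_erase hl), zero_add]
    rw [h0, mul_smul_comm, map_smul, map_smul, mul_smul_comm, X_pow_eq_monomial, monomial_mul,
      one_mul, Ex_monomial, Ex_monomial, h1, h2, mul_assoc]

theorem Ex_red {a : ℕ} (ha : 0 < a) (Ω : Fin r → MvPolynomial (Fin r) Z)
    (q : MvPolynomial (Fin r) Z) : ∃ v : MvPolynomial (Fin r) Z,
      (∀ α ∈ v.support, ∀ k, α k < a) ∧ Ex a Ω q - v ∈ Ideal.span (Set.range Ω) := by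
  classical
  induction q using MvPolynomial.induction_on' with
  | add p q hp hq =>
    obtain ⟨v, hv, hv'⟩ := hp
    obtain ⟨w, hw, hw'⟩ := hq
    refine ⟨v + w, fun α hα => ?_, ?_⟩
    · rcases Finset.mem_union.1 (support_add hα) with h | h
      · exact hv α h
      · exact hw α h
    · have : Ex a Ω (p + q) - (v + w) = (Ex a Ω p - v) + (Ex a Ω q - w) := by
        rw [map_add]; ring
      rw [this]
      exact add_mem hv' hw'
  | monomial γ c =>
    by_cases hγ : ∀ k, γ k < a
    · have hb : ∀ α ∈ (monomial γ c).support, ∀ k, α k < a := fun α hα => by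
        rw [Finset.mem_singleton.1 (support_monomial_subset hα)]
        exact hγ
      refine ⟨monomial γ c, hb, ?_⟩
      rw [Ex_box' Ω hb, sub_self]
      exact zero_mem _
    · obtain ⟨k, hk⟩ := not_forall.1 hγ
      have hle : Finsupp.single k a ≤ γ := Finsupp.single_le_iff.2 (not_lt.1 hk)
      have h1 : monomial γ c = X k ^ a * monomial (γ - Finsupp.single k a) c := by
        rw [X_pow_eq_monomial, monomial_mul, one_mul, add_tsub_cancel_of_le hle]
      refine ⟨0, by simp, ?_⟩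
      rw [sub_zero, h1, Ex_mul ha]
      exact Ideal.mul_mem_right _ _ (Ideal.subset_span ⟨k, rfl⟩)

end MonicAux

open MonicAux in
theorem monicP : MonicStm.{u} := by
  intro Z _ r a Ω h
  rcases Nat.eq_zero_or_pos a with rfl | ha
  · rcases Nat.eq_zero_or_pos r with rfl | hr
    · refine ⟨fun p => ⟨p, fun _ _ k => k.elim0, by rw [sub_self]; exact zero_mem _⟩,
        fun v _ hv => ?_⟩
      rwa [Set.range_eq_empty, Ideal.span_empty, Ideal.mem_bot] at hv
    · have h1 : Ω ⟨0, hr⟩ = 1 := by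
        have := eq_zero_of_Lt (h ⟨0, hr⟩)
        rwa [pow_zero, sub_eq_zero] at this
      refine ⟨fun p => ⟨0, by simp, ?_⟩, fun v hv _ => ?_⟩
      · rw [sub_zero, ← mul_one p, ← h1]
        exact Ideal.mul_mem_left _ _ (Ideal.subset_span ⟨_, rfl⟩)
      · exact eq_zero_of_Lt fun α hα => absurd (hv α hα ⟨0, hr⟩) (Nat.not_lt_zero _)
  · refine ⟨fun p => ?_, fun v hv hI => ?_⟩
    · obtain ⟨q, rfl⟩ := tri_surj (Ex a Ω) (Ex_top h) p
      exact Ex_red ha Ω q
    · obtain ⟨c, hc⟩ := Ideal.mem_span_range_iff_exists_fun.1 hI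
      choose q hq using fun k => tri_surj (Ex a Ω) (Ex_top h) (c k)
      have h1 : Ex a Ω (v - ∑ k, X k ^ a * q k) = 0 := by
        rw [map_sub, Ex_box' Ω hv, map_sum, ← hc, sub_eq_zero]
        refine Finset.sum_congr rfl fun k _ => ?_
        rw [Ex_mul ha, hq, mul_comm]
      have h2 : v = ∑ k, X k ^ a * q k := sub_eq_zero.1 (tri_inj (Ex a Ω) (Ex_top h) h1)
      rw [← MvPolynomial.support_eq_empty]
      refine Finset.eq_empty_of_forall_notMem fun α hα => mem_support_iff.1 hα ?_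
      have h3 := hv α hα
      rw [h2, coeff_sum]
      refine Finset.sum_eq_zero fun k _ => ?_
      rw [X_pow_eq_monomial, coeff_monomial_mul', if_neg]
      rw [Finsupp.single_le_iff]
      exact not_le.2 (h3 k)

end Vale.Agent.P200G
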