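import Mathlib
import Vale.Agent.P200G.Stm2

/-! Noetherian properties of finitely generated modules over the polynomial ring. -/

namespace Vale.Agent.P200G

open Module MvPolynomial

universe u

theorem noethP : NoethStm.{u} := by
  intro F W Y _ _ _ _ ev hfin
  letI : Module (MvPolynomial Y F) W := Module.compHom W ev.toRingHom
  have hs : ∀ (p : MvPolynomial Y F) (w : W), p • w = ev p w := fun _ _ => rfl
  have hC : ∀ (a : F) (w : W), (C a : MvPolynomial Y F) • w = a • w := fun a w => by
    rw [hs, ← algebraMap_eq, AlgHom.commutes]; rfl
  have hspan : ∀ (s : Set W) (w : W),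
      w ∈ gen ev s ↔ w ∈ Submodule.span (MvPolynomial Y F) s := by
    intro s w
    constructor
    · intro hw
      induction hw using Submodule.span_induction with
      | mem x hx =>
        obtain ⟨q, w, hw, rfl⟩ := hx
        rw [← hs]
        exact Submodule.smul_mem _ _ (Submodule.subset_span hw)
      | zero => exact zero_mem _
      | add x y _ _ hx hy => exact add_mem hx hy
      | smul a x _ hx => rw [← hC]; exact Submodule.smul_mem _ _ hx
    · intro hw
      induction hw using Submodule.span_induction with
      | mem x hx => exact subset_gen s hx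
      | zero => exact zero_mem _
      | add x y _ _ hx hy => exact add_mem hx hy
      | smul a x _ hx => exact st_gen s a x hx
  haveI : Module.Finite (MvPolynomial Y F) W := by
    obtain ⟨s, hs'⟩ := hfin
    refine ⟨⟨s, eq_top_iff.2 fun w _ => (hspan _ w).1 ?_⟩⟩
    rw [hs']; trivial
  haveI : IsNoetherian (MvPolynomial Y F) W := inferInstance
  refine ⟨fun Z hZ => ?_, fun B p hB => ?_⟩
  · let Z' : Submodule (MvPolynomial Y F) W :=
      { carrier := Z
        add_mem' := fun h h' => Z.add_mem h h'
        zero_mem' := Z.zero_mem
        smul_mem' := fun q z hz => hZ q z hz }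
    obtain ⟨s, hs'⟩ := IsNoetherian.noetherian Z'
    refine ⟨s, Submodule.ext fun w => ?_⟩
    rw [hspan, hs']
    rfl
  · let K : ℕ → Submodule (MvPolynomial Y F) W := fun k =>
      { carrier := {z | ev (p ^ k) z ∈ B}
        add_mem' := fun {x y} h h' => by
          simp only [Set.mem_setOf_eq, map_add] at h h' ⊢
          exact B.add_mem h h'
        zero_mem' := by simp
        smul_mem' := fun q z hz => by
          simp only [Set.mem_setOf_eq] at hz ⊢
          rw [hs, ev_comm]
          exact hB q _ hz }
    have hmono : Monotone K := monotone_nat_of_le_succ fun k z hz => by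
      change ev (p ^ (k + 1)) z ∈ B
      rw [pow_succ', map_mul]
      exact hB p _ hz
    obtain ⟨k, hk⟩ := monotone_stabilizes_iff_noetherian.2 this ⟨K, hmono⟩
    refine ⟨k, fun z hz => ?_⟩
    have e : K k = K (k + 1) := hk (k + 1) (Nat.le_succ k)
    have hz' : z ∈ K (k + 1) := hz
    rw [← e] at hz'
    exact hz'

end Vale.Agent.P200G
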