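import Mathlib
import Vale.Agent.P200G.Stm2

/-! The division ring of fractions of a domain which is finite over a central subring. -/

namespace Vale.Agent.P200G

open Module TensorProduct Vale.Agent.P200

universe u

namespace PackAux

theorem aux {K Z C N : Type u} [Field K] [CommRing Z] [IsDomain Z] [Ring C] [Algebra Z C]
    [NoZeroDivisors C] [Nontrivial C] [AddCommGroup N] [Module Z N] [Module.Finite Z N]
    (f : C →ₗ[Z] N) (hf : Function.Injective f)
    (htf : ∀ (p : Z) (y : C), p • y = 0 → p = 0 ∨ y = 0) (κ : K →+* Z) :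
    ∃ (E : DivExt K) (j : C →+* E.D), Function.Injective j ∧
      ∀ a, E.κ a = j (algebraMap Z C (κ a)) := by
  obtain ⟨hj, hdom⟩ := frac_domain htf
  have hb : Function.Injective (f.baseChange (FractionRing Z)) :=
    Module.Flat.lTensor_preserves_injective_linearMap (M := FractionRing Z) f hf
  have fin : FiniteDimensional (FractionRing Z) (FractionRing Z ⊗[Z] C) :=
    Module.Finite.of_injective _ hb
  let dD' : DivisionRing (FractionRing Z ⊗[Z] C) :=
    divisionRingOfFiniteDimensional (FractionRing Z) _
  let aK : Algebra K (FractionRing Z) := ((algebraMap Z (FractionRing Z)).comp κ).toAlgebra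
  refine ⟨{ F := FractionRing Z, D := FractionRing Z ⊗[Z] C },
    (Algebra.TensorProduct.includeRight : C →ₐ[Z] FractionRing Z ⊗[Z] C), hj, fun a => ?_⟩
  change algebraMap (FractionRing Z) (FractionRing Z ⊗[Z] C)
      (algebraMap Z (FractionRing Z) (κ a)) =
    (Algebra.TensorProduct.includeRight : C →ₐ[Z] FractionRing Z ⊗[Z] C) (algebraMap Z C (κ a))
  rw [← IsScalarTower.algebraMap_apply Z (FractionRing Z), AlgHom.commutes]

end PackAux

theorem packP : PackStm.{u} := by
  intro K F B _ _ _ _ _ _ C Z s hZC hZ hC hs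
  let cZ : CommRing Z :=
    { (inferInstance : Ring Z) with mul_comm := fun a b => Subtype.ext (hZ a a.2 b) }
  have nC : NoZeroDivisors C := ⟨fun {a b} h => by
    rcases hC a a.2 b b.2 (congrArg Subtype.val h) with h | h
    · exact Or.inl (Subtype.ext h)
    · exact Or.inr (Subtype.ext h)⟩
  have nZ : NoZeroDivisors Z := ⟨fun {a b} h => by
    rcases hC a (hZC a.2) b (hZC b.2) (congrArg Subtype.val h) with h | h
    · exact Or.inl (Subtype.ext h)
    · exact Or.inr (Subtype.ext h)⟩
  have dZ : IsDomain Z := NoZeroDivisors.to_isDomain Z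
  let aZ : Algebra Z C := RingHom.toAlgebra' (Subalgebra.inclusion hZC).toRingHom
    fun z c => Subtype.ext (hZ z z.2 c)
  have fN : Module.Finite Z (Submodule.span Z (s : Set B)) :=
    Module.Finite.span_of_finite Z s.finite_toSet
  let f : C →ₗ[Z] Submodule.span Z (s : Set B) :=
    { toFun := fun b => ⟨b, by
        obtain ⟨c, hc, e⟩ := hs b b.2
        rw [e]
        exact Submodule.sum_mem _ fun y hy =>
          Submodule.smul_mem _ (⟨c y, hc y⟩ : Z) (Submodule.subset_span hy)⟩
      map_add' := fun _ _ => rfl
      map_smul' := fun _ _ => rfl }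
  obtain ⟨E, j, hj, h⟩ := PackAux.aux f
    (fun a b h => Subtype.ext (congrArg (fun t : Submodule.span Z (s : Set B) => (t : B)) h))
    (fun p y h => by
      rcases hC p (hZC p.2) y y.2 (congrArg Subtype.val h) with h | h
      · exact Or.inl (Subtype.ext h)
      · exact Or.inr (Subtype.ext h))
    ((algebraMap F Z).comp (algebraMap K F))
  exact ⟨E, j, hj, h⟩

end Vale.Agent.P200G
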