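import Mathlib
import Vale.Agent.P200G.Stm2

/-! Moments of low degree vanish on powers of the augmentation ideal; finite differences. -/

universe u

namespace Vale.Agent.P200G

namespace PolyAux

variable {G : Type*} [AddCommGroup G]

theorem mom_smul (f : G → ℤ) (c : ℤ) (k : AddMonoidAlgebra ℤ G) :
    mom f (c • k) = c * mom f k := by
  simp only [mom, AddMonoidAlgebra.coeff_smul]
  rw [Finsupp.sum_smul_index' (by simp), Finsupp.mul_sum]
  simp [mul_assoc]

theorem mom_sub (f : G → ℤ) (k k' : AddMonoidAlgebra ℤ G) :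
    mom f (k - k') = mom f k - mom f k' := by
  have h := mom_add f (k - k') k'
  rw [sub_add_cancel] at h
  omega

theorem mom_og_mul (f : G → ℤ) (x : G) (k : AddMonoidAlgebra ℤ G) :
    mom f (og x * k) = mom (fun g => f (g + x)) k := by
  induction k using AddMonoidAlgebra.induction_on with
  | of y =>
    change mom f (og x * og y) = mom (fun g => f (g + x)) (og y)
    rw [← og_add]
    simp only [og, mom_single, add_comm]
  | add k k' h h' => rw [mul_add, mom_add, mom_add, h, h']
  | smul c k h => rw [mul_smul_comm, mom_smul, mom_smul, h]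

omit [AddCommGroup G] in
theorem mom_sub_left (f f' : G → ℤ) (k : AddMonoidAlgebra ℤ G) :
    mom (fun g => f g - f' g) k = mom f k - mom f' k := by
  simp only [mom, Finsupp.sum, mul_sub, Finset.sum_sub_distrib]

omit [AddCommGroup G] in
theorem mom_mul_left (c : ℤ) (f : G → ℤ) (k : AddMonoidAlgebra ℤ G) :
    mom (fun g => c * f g) k = c * mom f k := by
  simp only [mom, Finsupp.sum, Finset.mul_sum, mul_left_comm]

theorem mom_diff (f : G → ℤ) (x : G) (k : AddMonoidAlgebra ℤ G) :
    mom f ((1 - og x) * k) = mom (fun g => f g - f (g + x)) k := by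
  rw [sub_mul, one_mul, mom_sub, mom_og_mul, mom_sub_left]

/-- Functions killed by all difference operators of the given order. -/
def Pl : ℕ → (G → ℤ) → Prop
  | 0, f => ∀ g, f g = 0
  | N + 1, f => ∀ x, Pl N (fun g => f g - f (g + x))

theorem Pl.lin {N : ℕ} {f f' : G → ℤ} (h : Pl N f) (h' : Pl N f') (c : ℤ) :
    Pl N (fun g => f g - c * f' g) := by
  induction N generalizing f f' with
  | zero => intro g; simp [h g, h' g]
  | succ N ih =>
    intro x
    have h1 := ih (h x) (h' x)
    convert h1 using 2
    ring

theorem Pl.tr {N : ℕ} {f : G → ℤ} (h : Pl N f) (y : G) : Pl N (fun g => f (g + y)) := by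
  induction N generalizing f with
  | zero => intro g; exact h _
  | succ N ih =>
    intro x
    have h1 := ih (h x)
    simpa only [add_right_comm _ x y] using h1

theorem Pl.succ {N : ℕ} {f : G → ℤ} (h : Pl N f) : Pl (N + 1) f := fun x => by
  simpa only [one_mul] using h.lin (h.tr x) 1

theorem Pl.mono {N M : ℕ} {f : G → ℤ} (h : Pl N f) (hNM : N ≤ M) : Pl M f := by
  induction hNM with
  | refl => exact h
  | step _ ih => exact ih.succ

theorem Pl.mul {N : ℕ} {f : G → ℤ} (h : Pl N f) (θ : G →+ ℤ) :
    Pl (N + 1) (fun g => θ g * f g) := by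
  induction N generalizing f with
  | zero => intro x g; simp [h g, h (g + x)]
  | succ N ih =>
    intro x
    have h1 := (ih (h x)).lin (h.tr x) (θ x)
    convert h1 using 2
    simp only [map_add]
    ring

theorem pl_prod {ι : Type*} (t : Finset ι) (θ : ι → G →+ ℤ) :
    Pl (t.card + 1) (fun g => ∏ i ∈ t, θ i g) := by
  classical
  induction t using Finset.induction_on with
  | empty => intro x g; simp
  | insert i t hi ih =>
    simpa only [Finset.prod_insert hi, Finset.card_insert_of_notMem hi] using ih.mul (θ i)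

theorem Pl.mom_eq {Y : Type*} (χ : Y → G) {N : ℕ} {f : G → ℤ} (h : Pl N f) :
    ∀ η ∈ Jd χ ^ N, mom f η = 0 := by
  induction N generalizing f with
  | zero =>
    intro η _
    simp [mom, Finsupp.sum, h _]
  | succ N ih =>
    intro η hη
    rw [pow_succ'] at hη
    refine Submodule.mul_induction_on hη (fun m hm => ?_) fun a b ha hb => by
      rw [mom_add, ha, hb, add_zero]
    induction hm using Submodule.span_induction with
    | mem m hm =>
      obtain ⟨y, rfl⟩ := hm
      intro n hn
      rw [mom_diff]
      exact ih (h _) n hn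
    | zero => intro n _; rw [zero_mul, mom_zero]
    | add a b _ _ ha hb => intro n hn; rw [add_mul, mom_add, ha n hn, hb n hn, add_zero]
    | smul r a _ ha =>
      intro n hn
      rw [smul_eq_mul, mul_comm r a, mul_assoc]
      exact ha _ (Ideal.mul_mem_left _ r hn)

/-- The backward difference. -/
def Dd (δ : G) (F : G → ℤ) : G → ℤ := fun g => F g - F (g - δ)

theorem mom_pow (δ : G) (r : ℕ) (F : G → ℤ) (κ : AddMonoidAlgebra ℤ G) :
    mom F ((1 - og (-δ)) ^ r * κ) = mom ((Dd δ)^[r] F) κ := by
  induction r generalizing F with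
  | zero => simp
  | succ r ih =>
    rw [pow_succ', mul_assoc, mom_diff, ih, Function.iterate_succ_apply]
    simp only [← sub_eq_add_neg]
    rfl

theorem dd_mul (δ : G) (θ : G →+ ℤ) (F : G → ℤ) (r : ℕ) :
    (Dd δ)^[r + 1] (fun g => F g * θ g) =
      fun g => (Dd δ)^[r + 1] F g * θ g + (r + 1) * θ δ * (Dd δ)^[r] F (g - δ) := by
  induction r with
  | zero =>
    funext g
    simp only [zero_add, Function.iterate_one, Function.iterate_zero, id_eq, Dd, map_sub]
    push_cast
    ring
  | succ r ih =>
    funext g
    rw [Function.iterate_succ_apply', ih, Function.iterate_succ_apply' (Dd δ) (r + 1) F,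
      Function.iterate_succ_apply' (Dd δ) r F]
    simp only [Dd, map_sub]
    push_cast
    ring

theorem dd_pow (δ : G) (θ : G →+ ℤ) (f : G → ℤ) (hf : ∀ g, f (g - δ) = f g) (r : ℕ) :
    (Dd δ)^[r] (fun g => f g * θ g ^ r) = fun g => θ δ ^ r * r.factorial * f g := by
  induction r with
  | zero => simp
  | succ r ih =>
    have h1 := dd_mul δ θ (fun g => f g * θ g ^ r) r
    simp only [mul_assoc (f _), ← pow_succ] at h1
    rw [h1, Function.iterate_succ_apply', ih]
    funext g
    simp only [Dd, hf, Nat.factorial_succ]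
    push_cast
    ring

end PolyAux

open PolyAux in
theorem polyP : PolyStm := by
  intro G _
  refine ⟨fun Y ι χ N t θ ht => ((pl_prod t θ).mono ht).mom_eq χ, fun dg δ f r κ hf => ?_⟩
  rw [mom_pow, dd_pow δ dg f hf, mom_mul_left]

end Vale.Agent.P200G
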