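import Mathlib
import Vale.Agent.P200G.Stm2

/-! Powers of the generic linear form. -/

namespace Vale.Agent.P200G

open Module MvPolynomial TensorProduct Vale.Agent.P200

universe u

theorem powP : PowStm.{u} := by
  intro K D _ _ _ a n e
  induction a with
  | zero => simp [mon, Algebra.TensorProduct.one_def]
  | succ a ih =>
    rw [pow_succ', ih, Finset.sum_mul_sum, ← (Fin.consEquiv fun _ => Fin n).sum_comp,
      Fintype.sum_prod_type]
    refine Finset.sum_congr rfl fun i _ => Finset.sum_congr rfl fun w _ => ?_
    simp [mon, List.ofFn_succ, Fin.prod_univ_succ, Algebra.TensorProduct.tmul_mul_tmul,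
      Fin.consEquiv]

end Vale.Agent.P200G
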