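import Mathlib
import Vale.Agent.P200G.Stm2

/-! The binomial rule for elements that commute up to a root of unity. -/

namespace Vale.Agent.P200G

universe u

namespace QBAux

variable {F : Type*} [Field F]

/-- Gaussian binomial coefficients at `ζ`. -/
def gc (ζ : F) : ℕ → ℕ → F
  | _, 0 => 1
  | 0, _ + 1 => 0
  | N + 1, k + 1 => gc ζ N k + ζ ^ (k + 1) * gc ζ N (k + 1)

theorem gc_zero (ζ : F) (N : ℕ) : gc ζ N 0 = 1 := by cases N <;> rfl

theorem gc_succ (ζ : F) (N k : ℕ) :
    gc ζ (N + 1) (k + 1) = gc ζ N k + ζ ^ (k + 1) * gc ζ N (k + 1) := rfl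

theorem gc_big (ζ : F) (N : ℕ) : ∀ k, N < k → gc ζ N k = 0 := by
  induction N with
  | zero =>
    intro k hk
    obtain ⟨k, rfl⟩ : ∃ m, k = m + 1 := ⟨k - 1, by omega⟩
    rfl
  | succ N ih =>
    intro k hk
    obtain ⟨k, rfl⟩ : ∃ m, k = m + 1 := ⟨k - 1, by omega⟩
    rw [gc_succ, ih k (by omega), ih (k + 1) (by omega)]
    simp

theorem gc_self (ζ : F) (N : ℕ) : gc ζ N N = 1 := by
  induction N with
  | zero => rfl
  | succ N ih => rw [gc_succ, ih, gc_big ζ N (N + 1) (by omega)]; simp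

theorem gc_id (ζ : F) (N : ℕ) : ∀ k m, N = k + m →
    gc ζ N (k + 1) * (ζ ^ (k + 1) - 1) = gc ζ N k * (ζ ^ m - 1) := by
  induction N with
  | zero =>
    intro k m h
    obtain rfl : k = 0 := by omega
    obtain rfl : m = 0 := by omega
    rw [gc_big ζ 0 _ (by omega)]
    simp
  | succ N ih =>
    intro k m h
    rcases m with _ | m
    · rw [gc_big ζ _ _ (by omega)]
      simp
    rcases k with _ | k
    · obtain rfl : N = m := by omega
      have := ih 0 N (by omega)
      rw [gc_succ, gc_zero, gc_zero] at *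
      linear_combination ζ * this
    · have h1 := ih (k + 1) m (by omega)
      have h2 := ih k (m + 1) (by omega)
      rw [gc_succ, gc_succ]
      linear_combination ζ ^ (k + 2) * h1 + h2

theorem gc_mid {ζ : F} {n : ℕ} (h : IsPrimitiveRoot ζ n) :
    ∀ k, k + 1 < n → gc ζ n (k + 1) = 0 := by
  intro k
  induction k with
  | zero =>
    intro hk
    have h1 := gc_id ζ n 0 n (by omega)
    rw [h.pow_eq_one, sub_self, mul_zero] at h1
    exact (mul_eq_zero.1 h1).resolve_right
      (sub_ne_zero.2 (h.pow_ne_one_of_pos_of_lt (by omega) hk))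
  | succ k ih =>
    intro hk
    have h1 := gc_id ζ n (k + 1) (n - (k + 1)) (by omega)
    rw [ih (by omega), zero_mul] at h1
    exact (mul_eq_zero.1 h1).resolve_right
      (sub_ne_zero.2 (h.pow_ne_one_of_pos_of_lt (by omega) hk))

variable {B : Type*} [Ring B] [Algebra F B] {ζ : F} {x y : B}

theorem mul_pow_eq (h : x * y = ζ • (y * x)) (k : ℕ) : x * y ^ k = ζ ^ k • (y ^ k * x) := by
  induction k with
  | zero => simp
  | succ k ih =>
    rw [pow_succ y, ← mul_assoc, ih, smul_mul_assoc, mul_assoc, h, mul_smul_comm, smul_smul,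
      ← pow_succ, mul_assoc]

theorem expand (h : x * y = ζ • (y * x)) (N : ℕ) :
    (x + y) ^ N = ∑ k ∈ Finset.range (N + 1), gc ζ N k • (y ^ k * x ^ (N - k)) := by
  induction N with
  | zero => simp [gc_zero]
  | succ N ih =>
    have e1 : x * ∑ k ∈ Finset.range (N + 1), gc ζ N k • (y ^ k * x ^ (N - k)) =
        ∑ k ∈ Finset.range (N + 2), (ζ ^ k * gc ζ N k) • (y ^ k * x ^ (N + 1 - k)) := by
      rw [Finset.sum_range_succ _ (N + 1), gc_big ζ N (N + 1) (by omega), mul_zero, zero_smul,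
        add_zero, Finset.mul_sum]
      refine Finset.sum_congr rfl fun k hk => ?_
      have hk' : N + 1 - k = N - k + 1 := by have := Finset.mem_range.1 hk; omega
      rw [mul_smul_comm, ← mul_assoc, mul_pow_eq h, smul_mul_assoc, smul_smul, hk', pow_succ' x,
        mul_assoc, mul_comm (gc ζ N k)]
    have e2 : y * ∑ k ∈ Finset.range (N + 1), gc ζ N k • (y ^ k * x ^ (N - k)) =
        ∑ k ∈ Finset.range (N + 1), gc ζ N k • (y ^ (k + 1) * x ^ (N + 1 - (k + 1))) := by
      rw [Finset.mul_sum]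
      refine Finset.sum_congr rfl fun k _ => ?_
      rw [mul_smul_comm, ← mul_assoc, ← pow_succ', Nat.add_sub_add_right]
    rw [pow_succ', ih, add_mul, e1, e2, Finset.sum_range_succ' _ (N + 1),
      Finset.sum_range_succ' _ (N + 1), gc_zero, gc_zero, pow_zero ζ, one_mul (1 : F)]
    simp only [gc_succ, add_smul, Finset.sum_add_distrib]
    abel

theorem prim {n : ℕ} (hn : 0 < n) (hζ : IsPrimitiveRoot ζ n) (h : x * y = ζ • (y * x)) :
    (x + y) ^ n = x ^ n + y ^ n := by
  obtain ⟨m, rfl⟩ : ∃ m, n = m + 1 := ⟨n - 1, by omega⟩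
  rw [expand h, Finset.sum_range_succ, Finset.sum_range_succ', gc_zero, gc_self,
    Finset.sum_eq_zero fun k hk => by
      rw [gc_mid hζ k (by have := Finset.mem_range.1 hk; omega), zero_smul]]
  simp

end QBAux

open QBAux in
theorem qBP : QBStm.{u} := by
  intro K F _ _ _ _ a ha
  obtain ⟨p, hp⟩ := ExpChar.exists K
  obtain ⟨e, n, hn, rfl⟩ : ∃ e n : ℕ, (n : K) ≠ 0 ∧ a = p ^ e * n := by
    rcases hp with _ | hpr
    · exact ⟨0, a, Nat.cast_ne_zero.2 ha.ne', by simp⟩
    · obtain ⟨e, n, h1, h2⟩ := Nat.exists_eq_pow_mul_and_not_dvd ha.ne' p hpr.ne_one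
      exact ⟨e, n, fun h => h1 ((CharP.cast_eq_zero_iff K p n).1 h), h2⟩
  have : NeZero (n : K) := ⟨hn⟩
  have hn0 : 0 < n := Nat.pos_of_ne_zero (by rintro rfl; simp at hn)
  have : NeZero n := ⟨hn0.ne'⟩
  obtain ⟨ζ0, h0⟩ := HasEnoughRootsOfUnity.exists_primitiveRoot K n
  have hζ : IsPrimitiveRoot (algebraMap K F ζ0) n := h0.map_of_injective (algebraMap K F).injective
  refine ⟨algebraMap K F ζ0, ?_, fun B _ _ x y h => ?_⟩
  · rw [mul_comm, pow_mul, hζ.pow_eq_one, one_pow]
  · rcases subsingleton_or_nontrivial B with hB | hB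
    · exact Subsingleton.elim _ _
    have : ExpChar F p := expChar_of_injective_algebraMap (algebraMap K F).injective p
    have : ExpChar B p := expChar_of_injective_algebraMap (algebraMap F B).injective p
    have hc : Commute x (y ^ n) := by
      have := mul_pow_eq h n
      rwa [hζ.pow_eq_one, one_smul] at this
    rw [mul_comm, pow_mul, pow_mul, pow_mul, prim hn0 hζ h]
    exact add_pow_expChar_pow_of_commute p e (hc.pow_left n)

end Vale.Agent.P200G
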