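import Mathlib
import Vale.Agent.P200G.Stm2

/-! The numerator of the Hilbert series of a module with small support. -/

namespace Vale.Agent.P200G

open Module MvPolynomial TensorProduct

universe u

namespace SuppAux

/-- Filtration by the kernels of the powers of one variable. -/
theorem step (hN : NoethStm.{u}) {F W : Type u} {G Y : Type} [Field F] [AddCommGroup W]
    [Module F W] [AddCommGroup G] [Fintype Y] {γ : Gr F W G}
    {ev : MvPolynomial Y F →ₐ[F] Module.End F W} (hf : FinG ev) {u : Y} {δ : G}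
    (hu : γ.Hom (ev (X u)) δ) {Z B : Submodule F W} (hZ : γ.Hg Z) (hB : γ.Hg B) (sZ : St ev Z)
    (sB : St ev B) (hBZ : B ≤ Z) (I : Ideal (AddMonoidAlgebra ℤ G)) (D : AddMonoidAlgebra ℤ G)
    (hp : ∀ Z' B', γ.Hg Z' → γ.Hg B' → St ev Z' → St ev B' → B' ≤ Z' → B ≤ B' → Z' ≤ Z →
      (∀ z ∈ Z', ev (X u) z ∈ B') → ∃ k ∈ I, act D (γ.h Z' - γ.h B') = cf k) :
    ∃ (B' : Submodule F W) (j : ℕ), ∃ k ∈ I, γ.Hg B' ∧ St ev B' ∧ B ≤ B' ∧ B' ≤ Z ∧
      (∀ z ∈ B', ev (X u ^ j) z ∈ B) ∧ (∀ z ∈ Z, ev (X u) z ∈ B' → z ∈ B') ∧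
      act ((1 - og δ) * D) (γ.h Z - γ.h B) =
        act D (γ.h Z - γ.h (B' ⊔ Z.map (ev (X u)))) + cf ((1 - og δ) * k) := by
  obtain ⟨j, hj⟩ := (hN F W Y ev hf).2 B (X u) sB
  obtain ⟨T, hT⟩ : ∃ T : ℕ → Submodule F W, ∀ i, T i = Z ⊓ B.comap (ev (X u ^ i)) :=
    ⟨_, fun _ => rfl⟩
  have mem : ∀ i z, z ∈ T i ↔ z ∈ Z ∧ ev (X u ^ i) z ∈ B := fun i z => by rw [hT]; rfl
  have hg : ∀ i, γ.Hg (T i) := fun i => by
    rw [hT, map_pow]
    exact hZ.inf (hB.comap (hu.pow i))
  have st : ∀ i, St ev (T i) := fun i => by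
    rw [hT]
    exact sZ.inf (sB.comap fun p w => ev_comm _ _ _)
  have le1 : ∀ i, B ≤ T i := fun i z hz => (mem i z).2 ⟨hBZ hz, sB _ z hz⟩
  have le2 : ∀ i, T i ≤ Z := fun i z hz => ((mem i z).1 hz).1
  have pw : ∀ i z, ev (X u ^ (i + 1)) z = ev (X u ^ i) (ev (X u) z) := fun i z => by
    rw [pow_succ, map_mul, Module.End.mul_apply]
  have le3 : ∀ i, T i ≤ T (i + 1) := fun i z hz =>
    (mem _ z).2 ⟨le2 i hz, by rw [pw]; exact ((mem i _).1 (st i _ z hz)).2⟩
  have t0 : T 0 = B := le_antisymm (fun z hz => by simpa using ((mem 0 z).1 hz).2) (le1 0)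
  have tel : ∀ i, ∃ k ∈ I, act D (γ.h (T i) - γ.h B) = cf k := fun i => by
    induction i with
    | zero => exact ⟨0, I.zero_mem, by rw [t0, sub_self, map_zero, cf_zero]⟩
    | succ i ih =>
      obtain ⟨k, hk, e⟩ := ih
      obtain ⟨k', hk', e'⟩ := hp (T (i + 1)) (T i) (hg _) (hg _) (st _) (st _) (le3 i) (le1 i)
        (le2 _) fun z hz => (mem i _).2 ⟨sZ _ z (le2 _ hz), by
          rw [← pw]; exact ((mem _ z).1 hz).2⟩
      exact ⟨k' + k, I.add_mem hk' hk, by rw [cf_add, ← e, ← e', ← map_add, sub_add_sub_cancel]⟩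
  obtain ⟨k, hk, e⟩ := tel j
  have reg : ∀ z ∈ Z, ev (X u) z ∈ T j → z ∈ T j := fun z hz h =>
    (mem j z).2 ⟨hz, hj z (by rw [pw]; exact ((mem j _).1 h).2)⟩
  refine ⟨T j, j, k, hk, hg j, st j, le1 j, le2 j, fun z hz => ((mem j z).1 hz).2, reg, ?_⟩
  have e1 : Z ⊓ (T j).comap (ev (X u)) = T j :=
    le_antisymm (fun z hz => reg z hz.1 hz.2) fun z hz => ⟨le2 j hz, st j _ z hz⟩
  have e2 : act (1 - og δ) (γ.h Z - γ.h (T j)) = γ.h Z - γ.h (T j ⊔ Z.map (ev (X u))) := by
    funext g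
    have := Gr.h_pair hZ (hg j) hu (g - δ)
    rw [e1, sub_add_cancel] at this
    rw [map_sub act, map_one, LinearMap.sub_apply, Pi.sub_apply, act_og]
    simp only [Module.End.one_apply, Pi.sub_apply]
    omega
  rw [← act_cf, ← e, ← e2, ← Module.End.mul_apply, ← Module.End.mul_apply, ← map_mul, ← map_mul,
    mul_comm D, ← map_add, sub_add_sub_cancel]

theorem peel {F W Y : Type*} [Field F] [AddCommGroup W] [Module F W] [DecidableEq Y]
    {ev : MvPolynomial Y F →ₐ[F] Module.End F W} {u : Y} {σ : Finset Y} {Z B : Submodule F W}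
    (sZ : St ev Z) (reg : ∀ z ∈ Z, ev (X u) z ∈ B → z ∈ B) (n : ℕ) :
    ∀ p : MvPolynomial Y F, p.totalDegree < n → p ≠ 0 → p.vars ⊆ insert u σ →
      (∀ z ∈ Z, ev p z ∈ B) → ∃ q : MvPolynomial Y F, q ≠ 0 ∧ q.vars ⊆ σ ∧
        ∀ z ∈ Z, ev q z ∈ B ⊔ Z.map (ev (X u)) := by
  induction n with
  | zero => exact fun p h => absurd h (Nat.not_lt_zero _)
  | succ n ih =>
    intro p hn h0 hv hp
    have e := divMonomial_add_modMonomial_single p u
    by_cases hr : p.modMonomial (Finsupp.single u 1) = 0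
    · rw [hr, add_zero] at e
      have h1 : p.divMonomial (Finsupp.single u 1) ≠ 0 := fun h => h0 (by rw [← e, h, mul_zero])
      refine ih _ ?_ h1 (fun i hi => hv ?_) fun z hz => reg _ (sZ _ z hz) ?_
      · have := totalDegree_mul_of_isDomain (X_ne_zero (R := F) u) h1
        rw [e, totalDegree_X] at this
        omega
      · rw [mem_vars_iff_mem_support] at hi ⊢
        obtain ⟨d, hd, hi⟩ := hi
        refine ⟨Finsupp.single u 1 + d, by
          rwa [MvPolynomial.mem_support_iff, coeff_divMonomial,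
            ← MvPolynomial.mem_support_iff] at hd, ?_⟩
        rw [Finsupp.mem_support_iff] at hi ⊢
        rw [Finsupp.add_apply]
        omega
      · rw [← Module.End.mul_apply, ← map_mul, e]
        exact hp z hz
    · refine ⟨_, hr, fun i hi => ?_, fun z hz => ?_⟩
      · rw [mem_vars_iff_mem_support] at hi
        obtain ⟨d, hd, hi⟩ := hi
        rw [MvPolynomial.mem_support_iff] at hd
        have h1 : ¬ Finsupp.single u 1 ≤ d := fun h => hd (coeff_modMonomial_of_le p h)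
        rw [coeff_modMonomial_of_not_le p h1] at hd
        refine (Finset.mem_insert.1 (hv ((mem_vars_iff_mem_support i).2
          ⟨d, MvPolynomial.mem_support_iff.2 hd, hi⟩))).resolve_left ?_
        rintro rfl
        exact h1 (Finsupp.single_le_iff.2 (Nat.one_le_iff_ne_zero.2 (Finsupp.mem_support_iff.1 hi)))
      · rw [← eq_sub_iff_add_eq'] at e
        rw [e, map_sub, LinearMap.sub_apply, map_mul, Module.End.mul_apply]
        exact Submodule.sub_mem _ (Submodule.mem_sup_left (hp z hz))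
          (Submodule.mem_sup_right ⟨_, sZ _ z hz, rfl⟩)

end SuppAux

theorem suppP (hNoeth : NoethStm.{u}) (hBase : BaseStm.{u}) : SuppStm.{u} := by
  intro F W G Y _ _ _ _ _ _ γ ev χ hf hχ A
  induction A using Finset.induction_on with
  | empty =>
    intro N Z B hZ hB sZ sB hBZ hA hσ
    rcases N with _ | N
    · obtain ⟨k, hk, -⟩ := hBase F W G Y γ ev hf Z B hZ hB sZ sB hBZ fun u => hA u (by simp)
      exact ⟨k, by simp, by simp [hk]⟩
    · obtain ⟨p, h0, hv, hp⟩ := hσ ∅ subset_rfl (by simp)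
      rw [Finset.subset_empty, vars_eq_empty_iff_eq_C] at hv
      have h1 : p.coeff 0 ≠ 0 := fun h => h0 (by rw [hv, h, C_0])
      have h2 : Z = B := le_antisymm (fun z hz => by
        have := hp z hz
        rw [hv, ← algebraMap_eq, AlgHom.commutes] at this
        exact (B.smul_mem_iff h1).1 this) hBZ
      exact ⟨0, zero_mem _, by rw [h2, sub_self, map_zero, cf_zero]⟩
  | insert u A hu ih =>
    intro N Z B hZ hB sZ sB hBZ hA hσ
    have hc := Finset.card_insert_of_notMem hu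
    obtain ⟨B', j, k, hk, g1, s1, l1, l2, -, reg, e⟩ := SuppAux.step hNoeth hf (hχ u) hZ hB sZ sB
      hBZ (Jd χ ^ (N - 1)) (∏ v ∈ A, (1 - og (χ v))) fun Z' B' a1 a2 a3 a4 a5 a6 a7 a8 =>
        ih (N - 1) Z' B' a1 a2 a3 a4 a5 (fun v hv z hz => by
          by_cases h : v = u
          · exact h ▸ a8 z hz
          · exact a6 (hA v (by simp [h, hv]) z (a7 hz))) fun σ h1 h2 => by
          have := Finset.card_le_card h1
          obtain ⟨p, b1, b2, b3⟩ := hσ σ (h1.trans (Finset.subset_insert _ _)) (by omega)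
          exact ⟨p, b1, b2, fun z hz => a6 (b3 z (a7 hz))⟩
    obtain ⟨k', hk', e'⟩ := ih N Z (B' ⊔ Z.map (ev (X u))) hZ (g1.sup (hZ.map (hχ u))) sZ
      (s1.sup (sZ.map fun p w => ev_comm _ _ _))
      (sup_le l2 (by rintro _ ⟨z, hz, rfl⟩; exact sZ _ z hz)) (fun v hv z hz => by
        by_cases h : v = u
        · exact Submodule.mem_sup_right ⟨z, hz, by rw [h]⟩
        · exact Submodule.mem_sup_left (l1 (hA v (by simp [h, hv]) z hz))) fun σ h1 h2 => by
        have := Finset.card_insert_of_notMem fun h => hu (h1 h)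
        obtain ⟨p, b1, b2, b3⟩ := hσ (insert u σ) (Finset.insert_subset_insert _ h1) (by omega)
        exact SuppAux.peel sZ reg _ p (Nat.lt_succ_self _) b1 b2 fun z hz => l1 (b3 z hz)
    refine ⟨k' + (1 - og (χ u)) * k, add_mem hk' ?_,
      by rw [Finset.prod_insert hu, e, e', cf_add]⟩
    rcases N with _ | N
    · simp
    · rw [pow_succ']
      exact Ideal.mul_mem_mul (Ideal.subset_span ⟨u, rfl⟩) hk

end Vale.Agent.P200G
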