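import Mathlib
import Vale.Agent.P200G.Supp

/-! The rank over the polynomial ring. -/

namespace Vale.Agent.P200G

open Module MvPolynomial TensorProduct

universe u

namespace RankAux

theorem mom_og {G : Type*} [AddCommGroup G] (x : G) (k : AddMonoidAlgebra ℤ G) :
    mom 1 (og x * k) = mom 1 k := by
  induction k using AddMonoidAlgebra.induction_linear with
  | zero => rw [mul_zero]
  | add a b ha hb => rw [mul_add, mom_add, mom_add, ha, hb]
  | single m r => simp [og, AddMonoidAlgebra.single_mul_single, mom_single]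

theorem mom_zero' {G : Type*} [AddCommGroup G] (x : G) (k : AddMonoidAlgebra ℤ G) :
    mom 1 ((1 - og x) * k) = 0 := by
  have := mom_add 1 ((1 - og x) * k) (og x * k)
  rw [← add_mul, sub_add_cancel, one_mul, mom_og] at this
  omega

theorem red {F W Y : Type*} [Field F] [AddCommGroup W] [Module F W] [DecidableEq Y]
    {ev : MvPolynomial Y F →ₐ[F] Module.End F W} {A : Finset Y} {Z B : Submodule F W}
    (sZ : St ev Z) (sB : St ev B) (hA : ∀ u ∉ A, ∀ z ∈ Z, ev (X u) z ∈ B) {v : W} (hv : v ∈ Z)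
    (h : Z ≤ B ⊔ gen ev {v}) :
    ∀ z ∈ Z, ∃ q : MvPolynomial Y F, q.vars ⊆ A ∧ z - ev q v ∈ B := by
  have k1 : ∀ p : MvPolynomial Y F, ∃ q : MvPolynomial Y F, q.vars ⊆ A ∧ ev p v - ev q v ∈ B := by
    intro p
    induction p using MvPolynomial.induction_on with
    | C a => exact ⟨C a, by simp, by simp⟩
    | add p p' hp hp' =>
      obtain ⟨q, a1, a2⟩ := hp
      obtain ⟨q', b1, b2⟩ := hp'
      refine ⟨q + q', (vars_add_subset q q').trans (Finset.union_subset a1 b1), ?_⟩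
      rw [map_add, map_add, LinearMap.add_apply, LinearMap.add_apply, add_sub_add_comm]
      exact B.add_mem a2 b2
    | mul_X p u hp =>
      obtain ⟨q, a1, a2⟩ := hp
      rw [mul_comm, map_mul, Module.End.mul_apply]
      by_cases hu : u ∈ A
      · refine ⟨X u * q, (vars_mul _ _).trans (Finset.union_subset (by simpa) a1), ?_⟩
        rw [map_mul, Module.End.mul_apply, ← map_sub]
        exact sB _ _ a2
      · exact ⟨0, by simp, by simpa using hA u hu _ (sZ p v hv)⟩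
  have k2 : ∀ g ∈ gen ev {v}, ∃ p, g = ev p v := fun g hg => by
    induction hg using Submodule.span_induction with
    | mem x hx =>
      obtain ⟨p, w, rfl, rfl⟩ := hx
      exact ⟨p, rfl⟩
    | zero => exact ⟨0, by simp⟩
    | add x y _ _ hx hy =>
      obtain ⟨p, rfl⟩ := hx
      obtain ⟨q, rfl⟩ := hy
      exact ⟨p + q, by simp⟩
    | smul a x _ hx =>
      obtain ⟨p, rfl⟩ := hx
      exact ⟨a • p, by simp⟩
  intro z hz
  obtain ⟨b, hb, g, hg, rfl⟩ := Submodule.mem_sup.1 (h hz)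
  obtain ⟨p, rfl⟩ := k2 g hg
  obtain ⟨q, a1, a2⟩ := k1 p
  exact ⟨q, a1, by rw [add_sub_assoc]; exact B.add_mem hb a2⟩

theorem main (hNoeth : NoethStm.{u}) (hBase : BaseStm.{u}) {F W : Type u} {Y : Type} [Field F]
    [AddCommGroup W] [Module F W] [Fintype Y] [DecidableEq Y] {γ : Gr F W ℤ}
    {ev : MvPolynomial Y F →ₐ[F] Module.End F W} (hf : FinG ev) (hχ : ∀ u, γ.Hom (ev (X u)) 1)
    (A : Finset Y) : ∀ Z B : Submodule F W, γ.Hg Z → γ.Hg B → St ev Z → St ev B → B ≤ Z →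
      (∀ u ∉ A, ∀ z ∈ Z, ev (X u) z ∈ B) → ∃ q : AddMonoidAlgebra ℤ ℤ,
      act ((1 - og (1 : ℤ)) ^ A.card) (γ.h Z - γ.h B) = cf q ∧ 0 ≤ mom 1 q ∧
      (∀ s : Finset W, (s : Set W) ⊆ Z → Z ≤ B ⊔ gen ev (s : Set W) → mom 1 q ≤ s.card) ∧
      ∀ v ∈ Z, Z ≤ B ⊔ gen ev {v} →
        (∀ p : MvPolynomial Y F, p.vars ⊆ A → ev p v ∈ B → p = 0) → 0 < mom 1 q := by
  induction A using Finset.induction_on with
  | empty =>
    intro Z B hZ hB sZ sB hBZ hA
    obtain ⟨k, a1, a2, a3, a4⟩ := hBase F W ℤ Y γ ev hf Z B hZ hB sZ sB hBZ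
      fun u => hA u (by simp)
    exact ⟨k, by simp [a1], a2, a3, fun v hv _ h => a4 fun hle =>
      one_ne_zero (h 1 (by simp) (by simpa using hle hv))⟩
  | insert u A hu ih =>
    intro Z B hZ hB sZ sB hBZ hA
    obtain ⟨B', j, k, -, g1, s1, l1, l2, l3, -, e⟩ := SuppAux.step hNoeth hf (hχ u) hZ hB sZ sB
      hBZ ⊤ ((1 - og (1 : ℤ)) ^ A.card) fun Z' B' a1 a2 a3 a4 a5 a6 a7 a8 => by
        obtain ⟨q, hq, -⟩ := ih Z' B' a1 a2 a3 a4 a5 fun v hv z hz => by
          by_cases h : v = u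
          · exact h ▸ a8 z hz
          · exact a6 (hA v (by simp [h, hv]) z (a7 hz))
        exact ⟨q, trivial, hq⟩
    obtain ⟨q, a1, a2, a3, a4⟩ := ih Z (B' ⊔ Z.map (ev (X u))) hZ (g1.sup (hZ.map (hχ u))) sZ
      (s1.sup (sZ.map fun p w => ev_comm _ _ _))
      (sup_le l2 (by rintro _ ⟨z, hz, rfl⟩; exact sZ _ z hz)) fun v hv z hz => by
        by_cases h : v = u
        · exact Submodule.mem_sup_right ⟨z, hz, by rw [h]⟩
        · exact Submodule.mem_sup_left (l1 (hA v (by simp [h, hv]) z hz))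
    have l4 : ∀ S : Submodule F W, B ⊔ S ≤ B' ⊔ Z.map (ev (X u)) ⊔ S := fun S =>
      sup_le_sup_right (l1.trans le_sup_left) S
    have e2 : mom 1 (q + (1 - og (1 : ℤ)) * k) = mom 1 q := by rw [mom_add, mom_zero', add_zero]
    refine ⟨q + (1 - og 1) * k, by rw [Finset.card_insert_of_notMem hu, pow_succ', e, a1, cf_add],
      e2.symm ▸ a2, fun s h1 h2 => e2.symm ▸ a3 s h1 (h2.trans (l4 _)), fun v hv h1 h2 =>
      e2.symm ▸ a4 v hv (h1.trans (l4 _)) fun p hp hpv => ?_⟩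
    obtain ⟨b, hb, _, ⟨z, hz, rfl⟩, e3⟩ := Submodule.mem_sup.1 hpv
    obtain ⟨q', b1, b2⟩ := red sZ sB hA hv h1 z hz
    have c1 : ev (p - X u * q') v ∈ B' := by
      rw [map_sub, LinearMap.sub_apply, ← e3, map_mul, Module.End.mul_apply, add_sub_assoc,
        ← map_sub]
      exact B'.add_mem hb (l1 (sB _ _ b2))
    have c0 : (X u : MvPolynomial Y F).vars ⊆ insert u A := by simp
    have c2 := h2 (X u ^ j * (p - X u * q'))
      ((vars_mul _ _).trans (Finset.union_subset ((vars_pow _ _).trans c0)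
        ((vars_sub_subset _).trans (Finset.union_subset (hp.trans (Finset.subset_insert _ _))
          ((vars_mul _ _).trans (Finset.union_subset c0 b1))))))
      (by rw [map_mul, Module.End.mul_apply]; exact l3 _ c1)
    have c3 : p = X u * q' :=
      sub_eq_zero.1 ((mul_eq_zero.1 c2).resolve_left (pow_ne_zero _ (X_ne_zero u)))
    by_contra h0
    obtain ⟨d, hd⟩ := support_nonempty.2 h0
    refine hu (hp ((mem_vars_iff_mem_support u).2 ⟨d, hd, ?_⟩))
    rw [c3, support_X_mul, Finset.mem_map] at hd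
    obtain ⟨d', -, rfl⟩ := hd
    simp

end RankAux

theorem rankP (hNoeth : NoethStm.{u}) (hBase : BaseStm.{u}) : RankStm.{u} := by
  intro F W Y _ _ _ _ γ ev hf hχ Z B hZ hB sZ sB hBZ
  classical
  obtain ⟨q, a1, a2, a3, a4⟩ := RankAux.main hNoeth hBase hf hχ Finset.univ Z B hZ hB sZ sB hBZ
    fun u hu => absurd (Finset.mem_univ u) hu
  exact ⟨q, a1, a2, a3, fun v hv h1 h2 => a4 v hv h1 fun p _ => h2 p⟩

end Vale.Agent.P200G
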