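import Mathlib
import Vale.Agent.P200G.Stm2

namespace Vale.Agent.P200G

universe u

namespace RowAux

theorem ker {R : Type u} [DivisionRing R] {ι : Type} [Fintype ι] {q : ℕ} (h : Fintype.card ι < q)
    (w : ι → Fin q → R) : ∃ c : Fin q → R, c ≠ 0 ∧ ∀ i, ∑ j, w i j * c j = 0 := by
  have h1 : ¬ LinearIndependent Rᵐᵒᵖ fun (j : Fin q) (i : ι) => MulOpposite.op (w i j) := by
    intro hl
    have := hl.fintype_card_le_finrank
    rw [Module.finrank_pi, Fintype.card_fin] at this
    omega
  obtain ⟨g, hg, j, hj⟩ := Fintype.not_linearIndependent_iff.1 h1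
  refine ⟨fun j => (g j).unop, fun h0 => hj ?_, fun i => ?_⟩
  · exact MulOpposite.unop_injective (congrFun h0 j)
  · have := congrArg MulOpposite.unop (congrFun hg i)
    simpa [Finset.sum_apply, Finset.unop_sum] using this

theorem ker' {D : Type u} [DivisionRing D] (T : Subfield D) {ι : Type} [Fintype ι] {q : ℕ}
    (h : Fintype.card ι < q) (w : ι → Fin q → D) (hw : ∀ i j, w i j ∈ T) :
    ∃ c : Fin q → D, c ≠ 0 ∧ (∀ j, c j ∈ T) ∧ ∀ i, ∑ j, w i j * c j = 0 := by
  obtain ⟨c, hc, h1⟩ := ker (R := T) h fun i j => ⟨w i j, hw i j⟩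
  refine ⟨fun j => c j, fun h0 => hc (funext fun j => Subtype.ext (congrFun h0 j)),
    fun j => (c j).2, fun i => ?_⟩
  have := congrArg T.subtype (h1 i)
  simpa using this

end RowAux

theorem rowP : RowStm.{u} := by
  intro D _ q m s v₀ v T hq h0 h1 h2 h3 h4
  classical
  rw [Fintype.linearIndependent_iff]
  intro g hg
  rw [Fin.sum_univ_add] at hg
  simp only [Fin.append_left, Fin.append_right] at hg
  have hb : ∀ i, g (Fin.natAdd m i) = 0 := by
    by_contra hne
    obtain ⟨i, hi, hmax⟩ := Finset.exists_max_image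
      (Finset.univ.filter fun i => g (Fin.natAdd m i) ≠ 0) id (by
        obtain ⟨i, hi⟩ := not_forall.1 hne
        exact ⟨i, Finset.mem_filter.2 ⟨Finset.mem_univ _, hi⟩⟩)
    have hi' := (Finset.mem_filter.1 hi).2
    obtain ⟨c, hc, hT, hk⟩ := RowAux.ker' (T i) (ι := Fin m ⊕ Fin i.1) (q := q)
      (by simp only [Fintype.card_sum, Fintype.card_fin]; omega)
      (Sum.elim v₀ fun l => v ⟨l.1, l.2.trans i.2⟩) (by
        rintro (k | l) j
        · exact h1 i k j
        · exact h2 i _ j l.2)
    have e : ∑ j, (∑ k, g (Fin.castAdd s k) • v₀ k + ∑ l, g (Fin.natAdd m l) • v l) j * c j = 0 := by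
      rw [hg]; simp
    simp only [Pi.add_apply, Finset.sum_apply, Pi.smul_apply, smul_eq_mul, add_mul,
      Finset.sum_mul, Finset.sum_add_distrib, mul_assoc] at e
    rw [Finset.sum_comm, Finset.sum_comm (s := Finset.univ (α := Fin q))] at e
    simp only [← Finset.mul_sum] at e
    rw [Finset.sum_eq_zero, zero_add, Finset.sum_eq_single i] at e
    · refine hc (h4 i c hT ?_)
      rw [← (mul_eq_zero.1 e).resolve_left hi']
      exact Finset.sum_congr rfl fun j _ => h3 i _ (hT j) j
    · intro l _ hl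
      rcases lt_or_gt_of_ne hl with h | h
      · have : ∑ j, v l j * c j = 0 := hk (Sum.inr ⟨l.1, h⟩)
        rw [this, mul_zero]
      · have : g (Fin.natAdd m l) = 0 := by
          by_contra hn
          exact absurd (hmax l (Finset.mem_filter.2 ⟨Finset.mem_univ _, hn⟩)) (not_le.2 h)
        rw [this, zero_mul]
    · intro h; exact absurd (Finset.mem_univ i) h
    · intro k _
      have : ∑ j, v₀ k j * c j = 0 := hk (Sum.inl k)
      rw [this, mul_zero]
  simp only [hb, zero_smul, Finset.sum_const_zero, add_zero] at hg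
  have ha := Fintype.linearIndependent_iff.1 h0 _ hg
  intro k
  induction k using Fin.addCases with
  | left k => exact ha k
  | right l => exact hb l

end Vale.Agent.P200G
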