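import Mathlib
import Vale.Agent.P200G.Stm2

/-! Slicing a graded left ideal along the monomials in the last variables. -/

namespace Vale.Agent.P200G

open Module Vale.Agent.P200

universe u

namespace SliceAux

variable {m : ℕ} {D : Type*} [DivisionRing D]

/-- Prepending two exponents. -/
noncomputable def emb (β : Fin m →₀ ℕ) (x : ℕ × ℕ) : Fin (m + 2) →₀ ℕ :=
  Finsupp.cons x.1 (Finsupp.cons x.2 β)

/-- The last exponents. -/
noncomputable def tl (γ : Fin (m + 2) →₀ ℕ) : Fin m →₀ ℕ := γ.tail.tail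

/-- The first two exponents. -/
def hd (γ : Fin (m + 2) →₀ ℕ) : ℕ × ℕ := (γ 0, γ (Fin.succ 0))

theorem tl_emb (β : Fin m →₀ ℕ) (x : ℕ × ℕ) : tl (emb β x) = β := by simp [tl, emb]

theorem hd_emb (β : Fin m →₀ ℕ) (x : ℕ × ℕ) : hd (emb β x) = x := by
  simp only [hd, emb, Finsupp.cons_zero, Finsupp.cons_succ]

theorem tl_apply (γ : Fin (m + 2) →₀ ℕ) (i : Fin m) : tl γ i = γ i.succ.succ := rfl

theorem emb_tl (γ : Fin (m + 2) →₀ ℕ) : emb (tl γ) (hd γ) = γ := by
  have h : γ (Fin.succ 0) = γ.tail 0 := rfl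
  simp only [emb, tl, hd, h, Finsupp.cons_tail]

theorem tl_add (γ γ' : Fin (m + 2) →₀ ℕ) : tl (γ + γ') = tl γ + tl γ' := by
  ext i; rfl

theorem hd_add (γ γ' : Fin (m + 2) →₀ ℕ) : hd (γ + γ') = hd γ + hd γ' := rfl

theorem emb_add (β β' : Fin m →₀ ℕ) (x x' : ℕ × ℕ) :
    emb (β + β') (x + x') = emb β x + emb β' x' := by
  rw [← emb_tl (emb β x + emb β' x'), tl_add, hd_add, tl_emb, tl_emb, hd_emb, hd_emb]

theorem emb_inj (β : Fin m →₀ ℕ) : Function.Injective (emb β) := fun x y h => by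
  rw [← hd_emb β x, h, hd_emb]

theorem emb_deg (β : Fin m →₀ ℕ) (x : ℕ × ℕ) : (emb β x).degree = x.1 + x.2 + β.degree := by
  simp only [Finsupp.degree_eq_sum, Fin.sum_univ_succ, emb, Finsupp.cons_zero, Finsupp.cons_succ,
    add_assoc]

theorem single_zero : (Finsupp.single 0 1 : Fin (m + 2) →₀ ℕ) = emb 0 (1, 0) := by
  simp [emb, Finsupp.cons_zero_eq_single_zero]

theorem single_one : (Finsupp.single (Fin.succ 0) 1 : Fin (m + 2) →₀ ℕ) = emb 0 (0, 1) := by
  simp only [emb, Finsupp.cons_zero_eq_single_zero, Finsupp.cons_zero_single_eq_single_succ]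

theorem single_succ (i : Fin m) (b : ℕ) :
    (Finsupp.single i.succ.succ b : Fin (m + 2) →₀ ℕ) = emb (Finsupp.single i b) 0 := by
  simp only [emb, Prod.fst_zero, Prod.snd_zero, Finsupp.cons_zero_single_eq_single_succ]

/-- The slice. -/
noncomputable def cs (D : Type*) [DivisionRing D] (β : Fin m →₀ ℕ) :
    ((Fin (m + 2) →₀ ℕ) →₀ D) →ₗ[D] (ℕ × ℕ →₀ D) := Finsupp.lcomapDomain (emb β) (emb_inj β)

theorem cs_apply (β : Fin m →₀ ℕ) (p : (Fin (m + 2) →₀ ℕ) →₀ D) (x : ℕ × ℕ) :
    cs D β p x = p (emb β x) := rfl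

section
variable {M : Type*} [AddMonoid M] [IsRightCancelAdd M]

theorem sh_apply (δ γ : M) (p : M →₀ D) : sh D δ p (γ + δ) = p γ :=
  Finsupp.mapDomain_apply (add_left_injective δ) p γ

omit [IsRightCancelAdd M] in
theorem sh_zero' {δ γ : M} (p : M →₀ D) (h : ∀ γ', γ' + δ ≠ γ) : sh D δ p γ = 0 :=
  Finsupp.mapDomain_of_notMem_range p γ fun ⟨γ', h'⟩ => h γ' h'

theorem sh_zero (p : M →₀ D) : sh D (0 : M) p = p := by
  ext γ
  simpa using sh_apply 0 γ p

omit [IsRightCancelAdd M] in
theorem sh_add (δ δ' : M) (p : M →₀ D) : sh D (δ + δ') p = sh D δ' (sh D δ p) := by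
  simp only [sh, Finsupp.lmapDomain_apply, ← Finsupp.mapDomain_comp]
  congr 1
  funext x
  simp [add_assoc]

end

theorem cs_sh (β β' : Fin m →₀ ℕ) (x' : ℕ × ℕ) (p : (Fin (m + 2) →₀ ℕ) →₀ D) :
    cs D (β + β') (sh D (emb β' x') p) = sh D x' (cs D β p) := by
  ext1 y
  by_cases h : ∃ z, z + x' = y
  · obtain ⟨z, rfl⟩ := h
    rw [cs_apply, emb_add, sh_apply, sh_apply, cs_apply]
  · rw [cs_apply, sh_zero' _ fun z hz => h ⟨z, hz⟩]
    refine sh_zero' _ fun γ hγ => h ⟨hd γ, ?_⟩
    have := congrArg hd hγ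
    rwa [hd_add, hd_emb, hd_emb] at this

theorem cs_sh0 (β : Fin m →₀ ℕ) (x' : ℕ × ℕ) (p : (Fin (m + 2) →₀ ℕ) →₀ D) :
    cs D β (sh D (emb 0 x') p) = sh D x' (cs D β p) := by
  simpa using cs_sh β 0 x' p

theorem cs_kill (i : Fin m) (p : (Fin (m + 2) →₀ ℕ) →₀ D) :
    cs D 0 (sh D (Finsupp.single i.succ.succ 1) p) = 0 := by
  ext1 y
  refine sh_zero' _ fun γ hγ => ?_
  have := congrArg (fun γ => tl γ i) hγ
  simp [tl_add, tl_emb, single_succ] at this

/-- The filtration. -/
noncomputable def GG (D : Type*) [DivisionRing D] (β : Fin m →₀ ℕ) :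
    Submodule D ((Fin (m + 2) →₀ ℕ) →₀ D) :=
  Finsupp.supported D D {γ | toColex β ≤ toColex (tl γ)}

theorem sh_GG {β : Fin m →₀ ℕ} (β' : Fin m →₀ ℕ) (x' : ℕ × ℕ) {p : (Fin (m + 2) →₀ ℕ) →₀ D}
    (h : p ∈ GG D β) : sh D (emb β' x') p ∈ GG D (β + β') := by
  refine Finsupp.supported_comap_lmapDomain D D _ _ (Finsupp.supported_mono (fun γ hγ => ?_) h)
  change toColex (β + β') ≤ toColex (tl (γ + emb β' x'))
  rw [tl_add, tl_emb, toColex_add, toColex_add]
  exact add_le_add hγ le_rfl

theorem sh_mem {N : ℕ → Submodule D ((Fin (m + 2) →₀ ℕ) →₀ D)}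
    (h : ∀ d i, ∀ p ∈ N d, sh D (Finsupp.single i 1) p ∈ N (d + 1)) (δ : Fin (m + 2) →₀ ℕ) :
    ∀ d, ∀ p ∈ N d, sh D δ p ∈ N (d + δ.degree) := by
  induction δ using Finsupp.induction_linear with
  | zero => intro d p hp; simpa [sh_zero] using hp
  | add f g hf hg =>
    intro d p hp
    rw [sh_add, map_add, ← add_assoc]
    exact hg _ _ (hf d p hp)
  | single a b =>
    induction b with
    | zero => intro d p hp; simpa [sh_zero] using hp
    | succ b ih =>
      intro d p hp
      rw [Finsupp.single_add, sh_add, map_add, ← add_assoc, Finsupp.degree_single a 1]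
      exact h _ _ _ (ih d p hp)

theorem rank_null {V W : Type*} [AddCommGroup V] [Module D V] [AddCommGroup W] [Module D W]
    (f : V →ₗ[D] W) (S : Submodule D V) [FiniteDimensional D S] :
    finrank D S = finrank D (S.map f) + finrank D (S ⊓ LinearMap.ker f : Submodule D V) := by
  rw [← LinearMap.finrank_range_add_finrank_ker (f.domRestrict S), LinearMap.range_domRestrict,
    LinearMap.ker_domRestrict, ← Submodule.finrank_map_subtype_eq, Submodule.map_comap_subtype]

theorem count (Bs : Finset (Fin m →₀ ℕ)) : ∀ (W : Submodule D ((Fin (m + 2) →₀ ℕ) →₀ D))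
    [FiniteDimensional D W], W ≤ Finsupp.supported D D {γ | tl γ ∈ Bs} →
    finrank D W = ∑ β ∈ Bs, finrank D ((W ⊓ GG D β).map (cs D β)) := by
  classical
  induction Bs using Finset.induction_on_min_value (fun β : Fin m →₀ ℕ => toColex β) with
  | empty =>
    intro W _ hW
    have : W = ⊥ := by simpa using hW
    simp [this]
  | insert β0 s h0 hmin ih =>
    intro W _ hW
    have h1 : W ⊓ GG D β0 = W := by
      refine inf_eq_left.2 (hW.trans (Finsupp.supported_mono fun γ hγ => ?_))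
      rcases Finset.mem_insert.1 hγ with h | h
      · exact (congrArg toColex h).ge
      · exact hmin _ h
    have : FiniteDimensional D (W ⊓ LinearMap.ker (cs D β0) : Submodule D _) :=
      Submodule.finiteDimensional_of_le inf_le_left
    rw [Finset.sum_insert h0, h1, rank_null (cs D β0) W, ih (W ⊓ LinearMap.ker (cs D β0))]
    · congr 1
      refine Finset.sum_congr rfl fun β hβ => ?_
      have : W ⊓ LinearMap.ker (cs D β0) ⊓ GG D β = W ⊓ GG D β := by
        refine le_antisymm (inf_le_inf_right _ inf_le_left) fun p hp => ⟨⟨hp.1, ?_⟩, hp.2⟩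
        ext1 x
        refine (Finsupp.mem_supported' D p).1 hp.2 _ fun hx => h0 ?_
        have h2 : toColex β ≤ toColex β0 := by simpa [tl_emb] using hx
        have h3 : β0 = β := toColex.injective (le_antisymm (hmin β hβ) h2)
        rwa [h3]
      rw [this]
    · intro p hp
      refine (Finsupp.mem_supported' D p).2 fun γ hγ => ?_
      by_cases h : tl γ = β0
      · have := congrArg (fun q => q (hd γ)) (LinearMap.mem_ker.1 hp.2)
        simpa only [cs_apply, ← h, emb_tl, Finsupp.coe_zero, Pi.zero_apply] using this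
      · exact (Finsupp.mem_supported' D p).1 (hW hp.1) γ fun h' =>
          (Finset.mem_insert.1 h').elim h hγ

theorem colex_lt {i j : Fin m} (h : i < j) (a : ℕ) {β : Fin m →₀ ℕ} (hβ : β j ≠ 0) :
    toColex (Finsupp.single i a) ≤ toColex β := by
  refine le_trans (le_of_lt ?_) (Finsupp.toColex_monotone
    (Finsupp.single_le_iff.2 (Nat.one_le_iff_ne_zero.2 hβ) : Finsupp.single j 1 ≤ β))
  rw [Finsupp.Colex.lt_iff]
  refine ⟨j, fun k hk => ?_, ?_⟩
  · simp [Finsupp.single_eq_of_ne (h.trans hk).ne', Finsupp.single_eq_of_ne hk.ne']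
  · simp [Finsupp.single_eq_of_ne h.ne']

theorem ex_succ (j : Fin (m + 2)) (h : 2 ≤ j.val) : ∃ i : Fin m, j = i.succ.succ :=
  ⟨⟨j.val - 2, by omega⟩, Fin.ext (by simp; omega)⟩

end SliceAux

open SliceAux in
theorem sliceP : SliceStm.{u} := by
  intro D _ m c a a₁ a₂ d₀ N f₁ f₂ h
  have hG0 : ∀ p, p ∈ GG D (0 : Fin m →₀ ℕ) := fun p γ _ =>
    Finsupp.toColex_monotone (zero_le (a := tl γ))
  refine ⟨fun β d => (N (d + β.degree) ⊓ GG D β).map (cs D β), cs D 0 f₁, cs D 0 f₂, ?_, ?_, ?_,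
    ⟨f₁, ⟨by simpa using h.mem₁, hG0 _⟩, rfl⟩, ⟨f₂, ⟨by simpa using h.mem₂, hG0 _⟩, rfl⟩, ?_, ?_,
    ?_⟩
  · rintro β d _ ⟨p, hp, rfl⟩
    refine (Finsupp.mem_supported' D _).2 fun x hx => ?_
    refine (Finsupp.mem_supported' D p).1 (h.deg _ hp.1) _ fun h' => hx ?_
    have : (emb β x).degree = d + β.degree := h'
    rw [emb_deg] at this
    exact Nat.add_right_cancel this
  · rintro β d _ ⟨p, hp, rfl⟩
    have key : ∀ (i : Fin (m + 2)) (x : ℕ × ℕ), Finsupp.single i 1 = emb 0 x →
        sh D x (cs D β p) ∈ (N (d + 1 + β.degree) ⊓ GG D β).map (cs D β) := fun i x e => by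
      refine ⟨sh D (emb 0 x) p, ⟨?_, by simpa using sh_GG 0 x hp.2⟩, cs_sh0 _ _ _⟩
      rw [← e, add_right_comm]
      exact h.cl _ i p hp.1
    exact ⟨key _ _ single_zero, key _ _ single_one⟩
  · rintro β β' d hβ _ ⟨p, hp, rfl⟩
    obtain ⟨δ, rfl⟩ := exists_add_of_le hβ
    refine ⟨sh D (emb δ 0) p, ⟨?_, sh_GG δ 0 hp.2⟩, by rw [cs_sh, sh_zero]⟩
    have := sh_mem h.cl (emb δ 0) _ p hp.1
    rw [emb_deg] at this
    simpa [add_assoc] using this
  · intro U hU h1 h2 d hd
    have key := h.col (fun d => (U d).comap (cs D 0)) (fun d i p hp => by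
      rw [Submodule.mem_comap] at hp ⊢
      refine Fin.cases ?_ (fun i => Fin.cases ?_ (fun i => ?_) i) i
      · rw [single_zero, cs_sh0]
        exact (hU d _ hp).1
      · rw [single_one, cs_sh0]
        exact (hU d _ hp).2
      · rw [cs_kill]
        exact zero_mem _) h1 h2 (fun γ j hj hγ => by
      obtain ⟨i, rfl⟩ := ex_succ j hj
      have : cs D 0 (Finsupp.single γ (1 : D)) = 0 := by
        ext1 x
        refine Finsupp.single_eq_of_ne fun e => hγ ?_
        rw [← e, ← tl_apply, tl_emb]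
        rfl
      rw [Submodule.mem_comap, this]
      exact zero_mem _)
    rw [V2, Finsupp.supported_eq_span_single, Submodule.span_le]
    rintro _ ⟨x, hx, rfl⟩
    have e : (emb (0 : Fin m →₀ ℕ) x).degree = d := by rw [emb_deg, map_zero, add_zero]; exact hx
    have := key (emb 0 x) (by rwa [e])
    rw [e, Submodule.mem_comap] at this
    have e2 : cs D (0 : Fin m →₀ ℕ) (Finsupp.single (emb 0 x) (1 : D)) = Finsupp.single x 1 := by
      ext1 y
      simp only [cs_apply, Finsupp.single_apply, (emb_inj _).eq_iff]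
    rwa [e2] at this
  · intro i hi hbot
    obtain ⟨p, hp, q, hq, e⟩ := Submodule.mem_sup.1
      (h.pow i.succ.succ (by simp) (by simpa [add_assoc] using hi))
    have hqG : q ∈ GG D (Finsupp.single i a) := by
      refine Finsupp.supported_mono (fun γ hγ => ?_) hq
      obtain ⟨-, j, hj, hγ⟩ := hγ
      obtain ⟨k, rfl⟩ := ex_succ j (by omega)
      refine colex_lt (j := k) ?_ a hγ
      rw [Fin.lt_def]
      simp at hj
      omega
    have hpG : p ∈ GG D (Finsupp.single i a) := by
      rw [eq_sub_of_add_eq e]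
      refine Submodule.sub_mem _ (Finsupp.single_mem_supported D _ ?_) hqG
      rw [single_succ]
      exact (congrArg toColex (tl_emb _ _)).ge
    have h1 : cs D (Finsupp.single i a) p ∈ (⊥ : Submodule D _) := by
      rw [← hbot]
      exact ⟨p, ⟨by simpa using hp, hpG⟩, rfl⟩
    have h2 := congrArg (fun r => r 0) ((Submodule.mem_bot D).1 h1)
    have h3 : q (Finsupp.single i.succ.succ a) = 0 := by
      refine (Finsupp.mem_supported' D q).1 hq _ ?_
      rintro ⟨-, j, hj, hγ⟩
      refine hγ (Finsupp.single_eq_of_ne ?_)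
      rintro rfl
      simp at hj
      omega
    have h4 := congrArg (fun r => r (Finsupp.single i.succ.succ a)) e
    simp only [cs_apply, ← single_succ, Finsupp.coe_zero, Pi.zero_apply] at h2
    simp [h2, h3] at h4
  · intro d
    have : FiniteDimensional D (Finsupp.supported D D {γ : Fin (m + 2) →₀ ℕ | γ.degree = d}) := by
      rw [Finsupp.supported_eq_span_single]
      exact FiniteDimensional.span_of_finite D
        (((monos (m + 2) d).finite_toSet.subset fun γ hγ => mem_monos.2 hγ).image _)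
    have : FiniteDimensional D (N d) := Submodule.finiteDimensional_of_le (h.deg d)
    rw [count ((Finset.range (d + 1)).biUnion (monos m)) (N d), Finset.sum_biUnion]
    · refine Finset.sum_congr rfl fun k hk => Finset.sum_congr rfl fun β hβ => ?_
      have : d - k + β.degree = d := by
        rw [mem_monos.1 hβ]
        have := Finset.mem_range.1 hk
        omega
      beta_reduce
      rw [this]
    · intro k _ k' _ hk
      exact Finset.disjoint_left.2 fun β h1 h2 =>
        hk ((mem_monos.1 h1).symm.trans (mem_monos.1 h2))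
    · refine (h.deg d).trans (Finsupp.supported_mono fun γ hγ => ?_)
      refine Finset.mem_biUnion.2 ⟨(tl γ).degree, Finset.mem_range.2 ?_, mem_monos.2 rfl⟩
      have e : γ.degree = d := hγ
      rw [← emb_tl γ, emb_deg] at e
      omega

end Vale.Agent.P200G
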