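import Mathlib
import Vale.Agent.P200G.Stm2

/-! One step of the tower, from the centre to the base field. -/

namespace Vale.Agent.P200G

open Module MvPolynomial TensorProduct Vale.Agent.P200

universe u

namespace StepAux

variable {K F : Type*} [Field K] [Field F] [Algebra K F] {n : ℕ}

theorem ex_ext (F : Type*) [Field F] [Algebra K F] (ψ : MvPolynomial (Fin n) K →ₗ[K] K) :
    ∃ ψF : MvPolynomial (Fin n) F →ₗ[F] F,
      ∀ p, ψF (map (algebraMap K F) p) = algebraMap K F (ψ p) := by
  refine ⟨(basisMonomials (Fin n) F).constr F fun α => algebraMap K F (ψ (monomial α 1)),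
    fun p => ?_⟩
  induction p using MvPolynomial.induction_on' with
  | monomial α c =>
    have h1 : (monomial α (algebraMap K F c) : MvPolynomial (Fin n) F) =
        algebraMap K F c • basisMonomials (Fin n) F α := by
      rw [coe_basisMonomials, smul_monomial, smul_eq_mul, mul_one]
    have h2 : (monomial α c : MvPolynomial (Fin n) K) = c • monomial α 1 := by
      rw [smul_monomial, smul_eq_mul, mul_one]
    rw [map_monomial, h1, map_smul, Basis.constr_basis, h2, map_smul, smul_eq_mul, smul_eq_mul,
      map_mul]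
  | add p q hp hq => simp only [map_add, hp, hq]

theorem map_mon {a : ℕ} (i : Fin a → Fin n) : map (algebraMap K F) (mon K i) = mon F i := by
  simp only [mon, map_prod, map_X]

end StepAux

open StepAux in
theorem stepP (hStepF : StepFStm.{u}) (hQB : QBStm.{u}) : StepStm.{u} := by
  intro K _ _ E a n r φ ha hE hN
  obtain ⟨ζ, hζ⟩ := hQB K E.F a (by omega)
  choose ext hext using fun ψ : MvPolynomial (Fin n) K →ₗ[K] K => ex_ext E.F ψ
  have hm : ∀ ψ (i : Fin a → Fin n), ext ψ (mon E.F i) = algebraMap K E.F (ψ (mon K i)) :=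
    fun ψ i => by rw [← map_mon (K := K), hext]
  obtain ⟨E', j, e, hj, h⟩ := hStepF K E a n r (fun k => ext (φ k)) ζ ha hζ (by
    obtain ⟨α, hα⟩ := hE
    refine ⟨α, fun k l => ?_⟩
    rw [hm, hα]
    split_ifs
    · exact map_one _
    · exact map_zero _) (by
    intro L _ _ lam c p hp
    letI : Algebra K L := ((algebraMap E.F L).comp (algebraMap K E.F)).toAlgebra
    refine hN L lam c p fun i => ?_
    rw [← hp i]
    refine Finset.sum_congr rfl fun k _ => ?_
    rw [hm]
    rfl)
  have hT : ∀ ψ, TT a E'.κ e ψ = TT a (j.comp (algebraMap E.F E.D)) e (ext ψ) := fun ψ =>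
    Finset.sum_congr rfl fun i _ => by
      rw [hm, ← hj]
      rfl
  refine ⟨E', j, e, hj, h.comm, fun k => (hT _).trans (h.zero k), h.ind,
    fun q ψ g g1 g2 g3 c hc h0 => h.inda q (fun l => ext (ψ l))
      (fun l => map (algebraMap K E.F) (g l)) (fun l => (g1 l).map _) (fun k l => ?_)
      (fun l l' => ?_) c hc ?_⟩
  · rw [hext, g2, map_zero]
  · rw [hext, g3]
    split_ifs
    · exact map_one _
    · exact map_zero _
  · simpa only [hT] using h0

end Vale.Agent.P200G
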