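import Mathlib
import Vale.Agent.P200G.Stm2

/-! One step over the centre. -/

namespace Vale.Agent.P200G

open Module MvPolynomial TensorProduct Vale.Agent.P200

universe u

namespace StepFAux

theorem map_TT {K D D' : Type*} [Field K] [Ring D] [Ring D'] {n : ℕ} (a : ℕ) (κ : K →+* D)
    (j : D →+* D') (e : Fin n → D) (ψ : MvPolynomial (Fin n) K →ₗ[K] K) :
    j (TT a κ e ψ) = TT a (j.comp κ) (fun i => j (e i)) ψ := by
  simp only [TT, map_sum, map_mul, map_list_prod, List.map_ofFn, RingHom.comp_apply]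
  rfl

/-- Transport of the properties of a new row along an injective homomorphism from a subalgebra. -/
theorem newRow_of_sub {F D B D' : Type*} [Field F] [Ring D] [Algebra F D] [Ring B] [Algebra F B]
    [Ring D'] {n r : ℕ} (a : ℕ) (φ : Fin r → MvPolynomial (Fin n) F →ₗ[F] F)
    (C : Subalgebra F B) (ι : D →ₐ[F] B) (hι : ∀ d, ι d ∈ C) (e : Fin n → B) (he : ∀ i, e i ∈ C)
    (j₀ : C →+* D') (hj : Function.Injective j₀)
    (h : NewRow a (algebraMap F B) φ (Set.range ι) e) :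
    NewRow a ((j₀.comp (ι.codRestrict C hι : D →+* C)).comp (algebraMap F D)) φ
      (Set.range (j₀.comp (ι.codRestrict C hι : D →+* C))) fun i => j₀ ⟨e i, he i⟩ := by
  have hκ : (j₀.comp (ι.codRestrict C hι : D →+* C)).comp (algebraMap F D) =
      j₀.comp (algebraMap F C) := by
    ext x
    simp
  have hT : ∀ ψ, TT a ((j₀.comp (ι.codRestrict C hι : D →+* C)).comp (algebraMap F D))
      (fun i => j₀ ⟨e i, he i⟩) ψ = j₀ (TT a (algebraMap F C) (fun i => ⟨e i, he i⟩) ψ) := by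
    intro ψ
    rw [hκ, map_TT]
  have hT' : ∀ ψ, ((TT a (algebraMap F C) (fun i => ⟨e i, he i⟩) ψ : C) : B) =
      TT a (algebraMap F B) e ψ := by
    intro ψ
    exact map_TT a (algebraMap F C) (C.val : C →+* B) (fun i => ⟨e i, he i⟩) ψ
  refine ⟨?_, fun k => ?_, fun c hc h0 => ?_, fun q ψ g hg hφ hψ c hc h0 => ?_⟩
  · rintro _ ⟨d, rfl⟩ i
    change j₀ _ * j₀ _ = j₀ _ * j₀ _
    rw [← map_mul, ← map_mul]
    congr 1
    exact Subtype.ext (h.comm _ ⟨d, rfl⟩ i)
  · rw [hT]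
    have : TT a (algebraMap F C) (fun i => ⟨e i, he i⟩) (φ k) = 0 :=
      Subtype.ext ((hT' _).trans (h.zero k))
    rw [this, map_zero]
  · choose d hd using hc
    have h1 : (∑ i, (⟨ι (d i), hι _⟩ : C) * ⟨e i, he i⟩) = 0 := by
      apply hj
      rw [map_sum, map_zero, ← h0]
      refine Finset.sum_congr rfl fun i _ => ?_
      rw [map_mul, ← hd i]
      rfl
    have h2 : ∑ i, ι (d i) * e i = 0 := by
      have := congrArg Subtype.val h1
      simpa using this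
    have h3 := h.ind (fun i => ι (d i)) (fun i => ⟨d i, rfl⟩) h2
    funext i
    rw [← hd i]
    change j₀ _ = 0
    have : (ι.codRestrict C hι : D →+* C) (d i) = 0 := Subtype.ext (congrFun h3 i)
    rw [this, map_zero]
  · choose d hd using hc
    have h1 : (∑ l, (⟨ι (d l), hι _⟩ : C) *
        TT a (algebraMap F C) (fun i => ⟨e i, he i⟩) (ψ l)) = 0 := by
      apply hj
      rw [map_sum, map_zero, ← h0]
      refine Finset.sum_congr rfl fun l _ => ?_
      rw [map_mul, ← hd l, hT]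
      rfl
    have h2 : ∑ l, ι (d l) * TT a (algebraMap F B) e (ψ l) = 0 := by
      have := congrArg Subtype.val h1
      simpa [hT'] using this
    have h3 := h.inda q ψ g hg hφ hψ (fun l => ι (d l)) (fun l => ⟨d l, rfl⟩) h2
    funext l
    rw [← hd l]
    change j₀ _ = 0
    have : (ι.codRestrict C hι : D →+* C) (d l) = 0 := Subtype.ext (congrFun h3 l)
    rw [this, map_zero]

/-- The new row inside the matrix ring. -/
theorem newRow_mat (hBlock : BlockStm.{u}) (hIndep : IndepStm.{u}) (F E : Type u) [Field F]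
    [DivisionRing E] [Algebra F E] (τ a n r : ℕ) [NeZero a]
    (φ : Fin r → MvPolynomial (Fin n) F →ₗ[F] F) (ζ : F) (ha : 2 ≤ a) (hτ : 1 ≤ τ)
    (hq : QB ζ a) :
    NewRow a (algebraMap F (Matrix (Fin τ → Fin a) (Fin τ → Fin a) (Ar E τ a φ))) φ
      (Set.range ((Matrix.scalarAlgHom (Fin τ → Fin a) F).comp (inE E τ a φ)))
      (ee E τ a φ ζ) := by
  obtain ⟨hb1, hb2⟩ := hBlock F E τ a n r φ ζ hq
  obtain ⟨-, hi1, hi2⟩ := hIndep F E τ a n r φ ζ ha hτ hq.1
  refine ⟨?_, fun k => ?_, fun c hc h0 => ?_, fun q ψ g hg hφ hψ c hc h0 => ?_⟩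
  · rintro _ ⟨d, rfl⟩ i
    exact hb1 d i
  · rw [hb2, evA_Om, map_zero]
  · choose d hd using hc
    have h1 : d = 0 := hi1 d (by
      rw [← h0]
      exact Finset.sum_congr rfl fun i _ => by rw [← hd i]; rfl)
    funext i
    rw [← hd i, h1]
    exact map_zero _
  · choose d hd using hc
    have h1 : d = 0 := hi2 q ψ g hg hφ hψ d (by
      refine (Matrix.scalar_inj (n := Fin τ → Fin a)).mp ?_
      rw [map_sum, map_zero, ← h0]
      refine Finset.sum_congr rfl fun l _ => ?_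
      rw [map_mul, ← hd l, hb2]
      rfl)
    funext l
    rw [← hd l, h1]
    exact map_zero _

end StepFAux

open StepFAux in
theorem stepFP (hHomDom : HomDomStm.{u}) (hHd : HdStm.{u}) (hGrDom : GrDomStm.{u})
    (hBlock : BlockStm.{u}) (hIndep : IndepStm.{u}) (hPack : PackStm.{u}) (hFinB : FinBStm.{u}) :
    StepFStm.{u} := by
  intro K _ E a n r φ ζ ha hq hE hN
  haveI : NeZero a := ⟨by omega⟩
  obtain ⟨τ, hτ⟩ : ∃ τ, 2 * r + 1 ≤ τ := ⟨_, le_rfl⟩
  obtain ⟨hd1, hd2, hd3, hd4, hd5⟩ := hHd E.F E.D τ a n r φ ζ hq.1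
  have hdom := hHomDom E.F E.D τ a n r φ ζ hE hN hτ hq.1
  have hone : (1 : Matrix (Fin τ → Fin a) (Fin τ → Fin a) (Ar E.D τ a φ)) ∈
      Hd E.D τ a φ ζ 0 := by
    have := hd2 1
    rwa [map_one, map_one] at this
  obtain ⟨C, hC, hCdom⟩ := hGrDom E.F _ (Hd E.D τ a φ ζ) hd1 hone hd5 hdom
  have hmem : ∀ d, ∀ b ∈ Hd E.D τ a φ ζ d, b ∈ C := fun d b hb => by
    rw [← Subalgebra.mem_toSubmodule, hC]
    exact Submodule.mem_iSup_of_mem d hb
  obtain ⟨s, hs⟩ := hFinB E.F E.D τ a n r φ ζ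
  haveI : Nontrivial (Ar E.D τ a φ) := (hIndep E.F E.D τ a n r φ ζ ha (by omega) hq.1).1
  let sc : MvPolynomial (Yt τ a n) E.F →ₐ[E.F]
      Matrix (Fin τ → Fin a) (Fin τ → Fin a) (Ar E.D τ a φ) :=
    (Matrix.scalarAlgHom (Fin τ → Fin a) E.F).comp (evA E.D τ a φ)
  have hZ : (Zinv E.F τ a n).map sc ≤ C := by
    rw [Subalgebra.map_le, Zinv]
    refine Algebra.adjoin_le ?_
    rintro p ⟨d, hp, hp'⟩
    exact hmem d _ (hd4 d p hp hp')
  obtain ⟨E', j₀, hj, hκ⟩ := hPack K E.F _ C ((Zinv E.F τ a n).map sc) s hZ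
    (by
      rintro _ ⟨p, -, rfl⟩ b
      exact (Matrix.scalar_commute _ (fun x => evA_comm E.D τ a φ p x) b).eq)
    hCdom
    (fun b hb => by
      obtain ⟨c, hc, hb'⟩ := hs b (by rw [← hC]; exact hb)
      exact ⟨fun y => sc (c y), fun y => ⟨c y, hc y, rfl⟩, hb'⟩)
  have hι : ∀ d, ((Matrix.scalarAlgHom (Fin τ → Fin a) E.F).comp (inE E.D τ a φ)) d ∈ C :=
    fun d => hmem 0 _ (hd2 d)
  refine ⟨E', _, _, fun x => ?_, newRow_of_sub a φ C _ hι (ee E.D τ a φ ζ)
    (fun i => hmem 1 _ (hd3 i)) j₀ hj (newRow_mat hBlock hIndep E.F E.D τ a n r φ ζ ha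
      (by omega) hq)⟩
  rw [hκ]
  exact congrArg j₀ (AlgHom.commutes (AlgHom.codRestrict _ C hι) _)

end Vale.Agent.P200G
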