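import Mathlib
import Vale.Agent.P200G.Stm2

/-! The Koszul complex with homotopies. -/

namespace Vale.Agent.P200G

open Module MvPolynomial TensorProduct

universe u

namespace TateAux

section Ring

variable {P R J : Type*} [CommRing P] [Ring R] (φ : P →+* R)

theorem term {T T' : R} (h : ∀ p, φ p * T = T * φ p) (h' : ∀ p, φ p * T' = T' * φ p) (a b : P) :
    φ a * T * (φ b * T') + φ b * T' * (φ a * T) = φ (a * b) * (T * T' + T' * T) := by
  have e1 : φ a * T * (φ b * T') = φ (a * b) * (T * T') := by
    rw [map_mul, mul_assoc, mul_assoc, ← mul_assoc T, ← h, mul_assoc]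
  have e2 : φ b * T' * (φ a * T) = φ (a * b) * (T' * T) := by
    rw [mul_comm a b, map_mul, mul_assoc, mul_assoc, ← mul_assoc T', ← h', mul_assoc]
  rw [e1, e2, mul_add]

theorem anti [Fintype J] {T T' : J → R} (h : ∀ i p, φ p * T i = T i * φ p)
    (h' : ∀ i p, φ p * T' i = T' i * φ p) (a b : J → P) :
    (∑ i, φ (a i) * T i) * (∑ j, φ (b j) * T' j) + (∑ j, φ (b j) * T' j) * (∑ i, φ (a i) * T i) =
      ∑ i, ∑ j, φ (a i * b j) * (T i * T' j + T' j * T i) := by
  rw [Finset.sum_mul_sum, Finset.sum_mul_sum, Finset.sum_comm (f := fun j i =>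
    φ (b j) * T' j * (φ (a i) * T i)), ← Finset.sum_add_distrib]
  refine Finset.sum_congr rfl fun i _ => ?_
  rw [← Finset.sum_add_distrib]
  exact Finset.sum_congr rfl fun j _ => term φ (h i) (h' j) _ _

theorem anti1 [Fintype J] {T : J → R} {T' : R} (h' : ∀ p, φ p * T' = T' * φ p) (a : J → P) :
    (∑ i, φ (a i) * T i) * T' + T' * (∑ i, φ (a i) * T i) =
      ∑ i, φ (a i) * (T i * T' + T' * T i) := by
  rw [Finset.sum_mul, Finset.mul_sum, ← Finset.sum_add_distrib]
  refine Finset.sum_congr rfl fun i _ => ?_
  rw [mul_add, ← mul_assoc T', ← h', mul_assoc, mul_assoc]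

theorem sq_sum {x : J → R} (h : ∀ i j, x i * x j + x j * x i = 0) (h' : ∀ i, x i * x i = 0)
    (s : Finset J) : (∑ i ∈ s, x i) * (∑ i ∈ s, x i) = 0 := by
  classical
  induction s using Finset.induction_on with
  | empty => simp
  | insert i s hi ih =>
    have e : x i * (∑ j ∈ s, x j) + (∑ j ∈ s, x j) * x i = 0 := by
      rw [Finset.sum_mul, Finset.mul_sum, ← Finset.sum_add_distrib]
      exact Finset.sum_eq_zero fun j _ => h i j
    rw [Finset.sum_insert hi, add_mul, mul_add, mul_add, h', ih, zero_add, add_zero, e]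

theorem sq0 [Fintype J] {T : J → R} (h : ∀ i p, φ p * T i = T i * φ p)
    (h1 : ∀ i j, T i * T j + T j * T i = 0) (h2 : ∀ i, T i * T i = 0) (a : J → P) :
    (∑ i, φ (a i) * T i) * (∑ i, φ (a i) * T i) = 0 := by
  refine sq_sum (fun i j => ?_) (fun i => ?_) _
  · rw [term φ (h i) (h j), h1, mul_zero]
  · rw [mul_assoc, ← mul_assoc (T i), ← h, mul_assoc, h2, mul_zero, mul_zero]

theorem diag [Fintype J] [DecidableEq J] {T T' : J → R} (h : ∀ i p, φ p * T i = T i * φ p)
    (h' : ∀ i p, φ p * T' i = T' i * φ p)
    (h1 : ∀ i j, T i * T' j + T' j * T i = if i = j then 1 else 0) (a b : J → P) :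
    (∑ i, φ (a i) * T i) * (∑ j, φ (b j) * T' j) + (∑ j, φ (b j) * T' j) * (∑ i, φ (a i) * T i) =
      φ (∑ i, a i * b i) := by
  rw [anti φ h h', map_sum]
  refine Finset.sum_congr rfl fun i _ => ?_
  simp only [h1, mul_ite, mul_one, mul_zero, Finset.sum_ite_eq, Finset.mem_univ, if_true]

end Ring

section Lift

variable {F W : Type*} [Field F] [AddCommGroup W] [Module F W]

/-- Coordinatewise action. -/
def lift (F W ι : Type*) [Field F] [AddCommGroup W] [Module F W] :
    Module.End F W →ₐ[F] Module.End F (ι → W) where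
  toFun T := T.compLeft ι
  map_one' := rfl
  map_mul' _ _ := rfl
  map_zero' := rfl
  map_add' _ _ := rfl
  commutes' _ := rfl

theorem lift_apply {ι : Type*} (T : Module.End F W) (f : ι → W) (S : ι) :
    lift F W ι T f S = T (f S) := rfl

variable {J : Type*} [LinearOrder J]

theorem io_apply (j : J) (f : Finset J → W) (S : Finset J) :
    io F W j f S = if j ∈ S then 0 else sgn F j S • f (insert j S) := rfl

theorem ex_apply (j : J) (f : Finset J → W) (S : Finset J) :
    ex F W j f S = if j ∈ S then sgn F j S • f (S.erase j) else 0 := rfl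

theorem lift_io (T : Module.End F W) (j : J) :
    lift F W (Finset J) T * io F W j = io F W j * lift F W (Finset J) T := by
  refine LinearMap.ext fun f => funext fun S => ?_
  simp only [Module.End.mul_apply, lift_apply, io_apply]
  split_ifs <;> simp

theorem lift_ex (T : Module.End F W) (j : J) :
    lift F W (Finset J) T * ex F W j = ex F W j * lift F W (Finset J) T := by
  refine LinearMap.ext fun f => funext fun S => ?_
  simp only [Module.End.mul_apply, lift_apply, ex_apply]
  split_ifs <;> simp

theorem io_mem (M : Submodule F W) (j : J) (f : Finset J → W)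
    (hf : f ∈ Submodule.pi Set.univ fun _ => M) :
    io F W j f ∈ Submodule.pi Set.univ fun _ => M := fun S _ => by
  rw [io_apply]
  split_ifs
  · exact M.zero_mem
  · exact M.smul_mem _ (hf _ trivial)

theorem ex_mem (M : Submodule F W) (j : J) (f : Finset J → W)
    (hf : f ∈ Submodule.pi Set.univ fun _ => M) :
    ex F W j f ∈ Submodule.pi Set.univ fun _ => M := fun S _ => by
  rw [ex_apply]
  split_ifs
  · exact M.smul_mem _ (hf _ trivial)
  · exact M.zero_mem

variable {E : Type*} [DivisionRing E] [Algebra F E] [Module E W] [IsScalarTower F E W]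

theorem io_smul (j : J) (e : E) (f : Finset J → W) : io F W j (e • f) = e • io F W j f := by
  funext S
  simp only [io_apply, Pi.smul_apply]
  split_ifs
  · simp
  · exact smul_comm _ _ _

theorem ex_smul (j : J) (e : E) (f : Finset J → W) : ex F W j (e • f) = e • ex F W j f := by
  funext S
  simp only [ex_apply, Pi.smul_apply]
  split_ifs
  · exact smul_comm _ _ _
  · simp

end Lift

section Gen

variable {F W G Y : Type*} [Field F] [AddCommGroup W] [Module F W]

theorem hom_sum [AddCommGroup G] {γ : Gr F W G} {J : Type*} [Fintype J] {T : J → Module.End F W}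
    {δ : G} (h : ∀ j, γ.Hom (T j) δ) : γ.Hom (∑ j, T j : Module.End F W) δ := fun g w => by
  simp only [LinearMap.sum_apply, map_sum]
  exact Finset.sum_congr rfl fun j _ => h j g w

theorem finG {ev : MvPolynomial Y F →ₐ[F] Module.End F W} (h : FinG ev) (ι : Type*) [Fintype ι] :
    FinG ((lift F W ι).comp ev) := by
  classical
  obtain ⟨s, hs⟩ := h
  refine ⟨(Finset.univ ×ˢ s).image fun x : ι × W => Pi.single x.1 x.2, eq_top_iff.2 fun f _ => ?_⟩
  rw [← Finset.univ_sum_single f]
  refine Submodule.sum_mem _ fun S _ => ?_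
  have h1 : gen ev (s : Set W) ≤ Submodule.comap (LinearMap.single F (fun _ => W) S)
      (gen ((lift F W ι).comp ev)
        ((Finset.univ ×ˢ s).image fun x : ι × W => (Pi.single x.1 x.2 : ι → W))) := by
    refine St.gen_le (fun p z hz => ?_) fun z hz => subset_gen _ ?_
    · have h2 := st_gen (ev := (lift F W ι).comp ev) _ p _ hz
      have h3 : (lift F W ι).comp ev p (LinearMap.single F (fun _ => W) S z) =
          LinearMap.single F (fun _ => W) S (ev p z) := by
        funext S'
        change ev p ((Pi.single S z : ι → W) S') = (Pi.single S (ev p z) : ι → W) S'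
        by_cases h : S' = S
        · subst h; simp
        · simp [h]
      rwa [h3] at h2
    · exact Finset.mem_coe.2 (Finset.mem_image.2 ⟨(S, z), by simpa using hz, rfl⟩)
  exact h1 (hs ▸ Submodule.mem_top : f S ∈ gen ev (s : Set W))

end Gen

end TateAux

open TateAux in
theorem tateP (hDbl : DblStm.{u}) (hCar : CarStm.{u}) (hLam : LamStm.{u}) : TateStm.{u} := by
  intro F E W G Y J _ _ _ _ _ _ _ _ _ _ _ γ ev χ r N δ w ξ M hfin hX hπ hev hw hξ h0 hM hSt hES hp
  classical
  let _ : LinearOrder J := LinearOrder.lift' (Fintype.equivFin J) (Fintype.equivFin J).injective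
  obtain ⟨Γ, hΓ, hio, hex, hsd⟩ := hLam F W G J γ fun j => χ (w j)
  set ev' := (lift F W (Finset J)).comp ev with hev'
  let φ : MvPolynomial Y F →+* Module.End F (Finset J → W) := ev'
  have ap : ∀ p f S, ev' p f S = ev p (f S) := fun _ _ _ => rfl
  have cio : ∀ j p, φ p * io F W j = io F W j * φ p :=
    fun j p => lift_io (ev p) j
  have cex : ∀ j p, φ p * ex F W j = ex F W j * φ p :=
    fun j p => lift_ex (ev p) j
  have hom : ∀ p x, γ.Hom (ev p) x → Γ.Hom (ev' p) (x, 0) := fun p x h g f => by
    funext S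
    rw [ap, hΓ, hΓ, ap]
    simp only [Prod.snd_add, Prod.fst_add, add_zero]
    split_ifs
    · rw [add_sub_right_comm, h]
    · simp
  have car := hCar F W J
  have cm : ∀ (T : J → Module.End F (Finset J → W)) (a : J → MvPolynomial Y F),
      (∀ j p, φ p * T j = T j * φ p) → ∀ p v,
      (∑ j, ev' (a j) * T j) (ev' p v) = ev' p ((∑ j, ev' (a j) * T j) v) := by
    intro T a h p v
    simp only [LinearMap.sum_apply, map_sum, Module.End.mul_apply]
    refine Finset.sum_congr rfl fun j _ => ?_
    rw [ev_comm p]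
    exact congrArg _ (LinearMap.congr_fun (h j p) v).symm
  have sm : ∀ (T : J → Module.End F (Finset J → W)) (a : J → MvPolynomial Y F),
      (∀ j (e : E) v, T j (e • v) = e • T j v) → ∀ (e : E) v,
      (∑ j, ev' (a j) * T j) (e • v) = e • (∑ j, ev' (a j) * T j) v := by
    intro T a h e v
    simp only [LinearMap.sum_apply, Finset.smul_sum, Module.End.mul_apply, h]
    exact Finset.sum_congr rfl fun j _ => funext fun S => hev _ _ _
  have st : St ev' (Submodule.pi Set.univ fun _ => M) := fun p z hz S _ => hSt p _ (hz S trivial)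
  have pres : ∀ (T : J → Module.End F (Finset J → W)) (a : J → MvPolynomial Y F),
      (∀ j, ∀ v ∈ Submodule.pi Set.univ fun _ => M, T j v ∈ Submodule.pi Set.univ fun _ => M) →
      ∀ v ∈ Submodule.pi Set.univ fun _ => M,
      (∑ j, ev' (a j) * T j) v ∈ Submodule.pi Set.univ fun _ => M := by
    intro T a h v hv
    simp only [LinearMap.sum_apply, Module.End.mul_apply]
    exact Submodule.sum_mem _ fun j _ => st _ _ (h j v hv)
  have hcard : (Finset.univ \ Finset.univ.image w).card + Fintype.card J = Fintype.card Y := by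
    rw [← Finset.card_univ, ← Finset.card_image_of_injective _ hw,
      Finset.card_sdiff_add_card_eq_card (Finset.subset_univ _), Finset.card_univ]
  obtain ⟨κ, η, h1, h2⟩ := hDbl F E (Finset J → W) G Y J Γ ev' χ r N δ
    (∑ j, ev' (X (w j)) * io F W j) (fun k => ∑ j, ev' (ξ k j) * ex F W j) w (ex F W)
    (Finset.univ \ Finset.univ.image w) (Submodule.pi Set.univ fun _ => M) (finG hfin _)
    (fun u => hom _ _ (hX u))
    (fun g e v => funext fun S => by
      rw [Pi.smul_apply, hΓ, hΓ, Pi.smul_apply]
      split_ifs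
      · exact hπ _ _ _
      · simp)
    (fun u hu => by simpa using hu)
    (hom_sum fun j => by simpa using (hom _ _ (hX (w j))).mul (hio j))
    (fun k => hom_sum fun j => by simpa using (hom _ _ (hξ k j)).mul (hex j))
    (cm _ _ cio) (fun k => cm _ _ cex) (sm _ _ io_smul) (fun k => sm _ _ ex_smul)
    (sq0 φ cio (fun i j => (car i j).1) (fun i => (car i i).2.1) _)
    (fun k => sq0 φ cex (fun i j => (car i j).2.2.1) (fun i => (car i i).2.2.2.1) _)
    (fun k l => (anti φ cex cex (ξ k) (ξ l)).trans
      (Finset.sum_eq_zero fun i _ => Finset.sum_eq_zero fun j _ => by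
        rw [(car i j).2.2.1, mul_zero]))
    (fun k => (diag φ cio cex (fun i j => by convert (car i j).2.2.2.2)
      (fun j => X (w j)) (ξ k)).trans (by
        simp only [mul_comm (X (w _))]
        change lift F W (Finset J) (ev _) = 0
        rw [h0, map_zero]))
    (fun j k => by
      rw [add_comm]
      exact (anti1 φ (cex j) (ξ k)).trans
        (Finset.sum_eq_zero fun i _ => by rw [(car i j).2.2.1, mul_zero]))
    (fun j => (anti1 φ (cex j) fun i => X (w i)).trans (by
      simp only [fun i => (car i j).2.2.2.2, mul_ite, mul_one, mul_zero, Finset.sum_ite_eq',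
        Finset.mem_univ, if_true]
      rfl))
    (fun g z hz S _ => by
      rw [hΓ]
      split_ifs
      · exact hM _ _ (hz S trivial)
      · exact M.zero_mem)
    st (fun e z hz S _ => hES e _ (hz S trivial)) (pres _ _ (io_mem M))
    (fun k => pres _ _ (ex_mem M)) (ex_mem M)
    (fun σ hσ hc => by
      obtain ⟨p, p0, p1, p2⟩ := hp σ (fun j hj => by simpa using hσ hj) (by omega)
      refine ⟨p, p0, p1, fun k => ?_⟩
      obtain ⟨c, hc⟩ := p2 k
      refine ⟨∑ j, ev' (c j) * io F W j, pres _ _ (io_mem M), fun l => ?_⟩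
      refine (diag φ cio cex (fun i j => by convert (car i j).2.2.2.2)
        c (ξ l)).trans ?_
      rw [hc]
      split_ifs
      · rfl
      · exact map_zero _)
  refine ⟨κ, η, ?_, h2⟩
  rw [← h1, hsd M hM, ← Module.End.mul_apply, ← map_mul,
    ← Finset.prod_sdiff (Finset.subset_univ (Finset.univ.image w)),
    Finset.prod_image fun i _ j _ h => hw h]

end Vale.Agent.P200G
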