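import Mathlib
import Vale.Agent.P200G.Stm2

namespace Vale.Agent.P200G

open Module MvPolynomial TensorProduct

universe u

namespace ThetaAux

section Deg

variable {Z σ : Type*} [CommRing Z]

/-- Polynomials of degree less than `d`. -/
noncomputable def Lt (d : ℕ) : Submodule Z (MvPolynomial σ Z) :=
  restrictSupport Z {α : σ →₀ ℕ | α.degree < d}

theorem mem_Lt {d : ℕ} {p : MvPolynomial σ Z} : p ∈ Lt d ↔ ∀ α ∈ p.support, α.degree < d :=
  Iff.rfl

theorem Lt_mul {d e : ℕ} {p q : MvPolynomial σ Z} (hp : p ∈ Lt (d + 1)) (hq : q ∈ Lt e) :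
    p * q ∈ Lt (d + e) := by
  classical
  rw [mem_Lt] at hp hq ⊢
  intro α hα
  obtain ⟨β, hβ, γ, hγ, rfl⟩ := Finset.mem_add.1 (support_mul p q hα)
  have := hp β hβ
  have := hq γ hγ
  rw [map_add]
  omega

theorem Lt_mono {d e : ℕ} (h : d ≤ e) {p : MvPolynomial σ Z} (hp : p ∈ Lt d) : p ∈ Lt e :=
  fun α hα => lt_of_lt_of_le (hp hα) h

theorem C_mem (c : Z) : (C c : MvPolynomial σ Z) ∈ Lt 1 := by
  classical
  rw [mem_Lt]
  intro α hα
  rw [MvPolynomial.mem_support_iff, coeff_C] at hα
  split_ifs at hα with h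
  · simp [← h]
  · exact (hα rfl).elim

theorem X_mem (k : σ) : (X k : MvPolynomial σ Z) ∈ Lt 2 := by
  classical
  rw [mem_Lt]
  intro α hα
  rw [MvPolynomial.mem_support_iff, coeff_X'] at hα
  split_ifs at hα with h
  · simp [← h]
  · exact (hα rfl).elim

theorem prod_mem {ι : Type*} (t : Finset ι) (y : ι → MvPolynomial σ Z) (c : ι → Z)
    (hy : ∀ j, y j ∈ Lt 2) : (∏ j ∈ t, (y j + C (c j)) ∈ Lt (t.card + 1)) ∧
      ∏ j ∈ t, (y j + C (c j)) - ∏ j ∈ t, y j ∈ Lt t.card := by
  classical
  induction t using Finset.induction_on with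
  | empty => exact ⟨by simpa using C_mem (σ := σ) (1 : Z), by simp⟩
  | insert j t hj ih =>
    rw [Finset.prod_insert hj, Finset.prod_insert hj, Finset.card_insert_of_notMem hj]
    constructor
    · exact Lt_mono (by omega)
        (Lt_mul (d := 1) (add_mem (hy j) (Lt_mono (by omega) (C_mem (c j)))) ih.1)
    · have e : (y j + C (c j)) * ∏ j ∈ t, (y j + C (c j)) - y j * ∏ j ∈ t, y j =
          y j * (∏ j ∈ t, (y j + C (c j)) - ∏ j ∈ t, y j) +
            C (c j) * ∏ j ∈ t, (y j + C (c j)) := by ring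
      rw [e]
      exact add_mem (Lt_mono (by omega) (Lt_mul (d := 1) (hy j) ih.2))
        (Lt_mono (by omega) (Lt_mul (d := 0) (C_mem (c j)) ih.1))

end Deg

section Iso

variable (F : Type*) [Field F] {Y : Type} {r : ℕ} (lead : Fin r → Y) (sp : Y → Fin r → Prop)

open Classical in
/-- The leading part of a variable. -/
noncomputable def yv {A : Type*} [CommRing A] (x : Fin r → A) (u : Y) : A :=
  ∑ k, if sp u k then x k else 0

open Classical in
/-- The constant part of a variable. -/
noncomputable def cv (u : Y) : MvPolynomial {u // u ∉ Set.range lead} F :=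
  if h : u ∉ Set.range lead then X ⟨u, h⟩ else 0

/-- The change of variables. -/
noncomputable def Th : MvPolynomial Y F →ₐ[F]
    MvPolynomial (Fin r) (MvPolynomial {u // u ∉ Set.range lead} F) :=
  aeval fun u => yv sp X u + C (cv F lead u)

/-- The new parameters. -/
noncomputable def zv (u : {u // u ∉ Set.range lead}) : MvPolynomial Y F :=
  X u.1 - yv sp (fun k => X (lead k)) u.1

/-- The inverse change of variables. -/
noncomputable def Ti : MvPolynomial (Fin r) (MvPolynomial {u // u ∉ Set.range lead} F) →ₐ[F]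
    MvPolynomial Y F := aevalTower (aeval (zv F lead sp)) fun k => X (lead k)

theorem map_yv {A B H : Type*} [CommRing A] [CommRing B] [FunLike H A B] [RingHomClass H A B]
    (f : H) (x : Fin r → A) (u : Y) : f (yv sp x u) = yv sp (fun k => f (x k)) u := by
  simp only [yv, map_sum]
  refine Finset.sum_congr rfl fun k _ => ?_
  split_ifs
  · rfl
  · exact map_zero f

variable {lead sp}

theorem yv_lead (h : ∀ k l, sp (lead k) l ↔ l = k) {A : Type*} [CommRing A] (x : Fin r → A)
    (k : Fin r) : yv sp x (lead k) = x k := by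
  simp [yv, h]

theorem Th_lead (h : ∀ k l, sp (lead k) l ↔ l = k) (k : Fin r) :
    Th F lead sp (X (lead k)) = X k := by
  rw [Th, aeval_X, yv_lead h, cv, dif_neg (by simp), map_zero, add_zero]

theorem Ti_C (p : MvPolynomial {u // u ∉ Set.range lead} F) :
    Ti F lead sp (C p) = aeval (zv F lead sp) p := aevalTower_C _ _ _

theorem Ti_X (k : Fin r) : Ti F lead sp (X k) = X (lead k) := aevalTower_X _ _ _

theorem Ti_Th (h : ∀ k l, sp (lead k) l ↔ l = k) (x : MvPolynomial Y F) :
    Ti F lead sp (Th F lead sp x) = x := by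
  have : (Ti F lead sp).comp (Th F lead sp) = AlgHom.id F _ := by
    refine MvPolynomial.algHom_ext fun u => ?_
    rw [AlgHom.comp_apply, AlgHom.id_apply]
    by_cases hu : u ∈ Set.range lead
    · obtain ⟨k, rfl⟩ := hu
      rw [Th_lead F h, Ti_X]
    · rw [Th, aeval_X, map_add, map_yv, Ti_C, cv, dif_pos hu, aeval_X, zv]
      simp only [Ti_X]
      ring
  exact AlgHom.congr_fun this x

theorem Th_aeval (h : ∀ k l, sp (lead k) l ↔ l = k)
    (p : MvPolynomial {u // u ∉ Set.range lead} F) :
    Th F lead sp (aeval (zv F lead sp) p) = C p := by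
  have : (Th F lead sp).comp (aeval (zv F lead sp)) = IsScalarTower.toAlgHom F _ _ := by
    refine MvPolynomial.algHom_ext fun u => ?_
    rw [AlgHom.comp_apply, aeval_X, zv, map_sub, map_yv]
    simp only [Th_lead F h]
    rw [Th, aeval_X, cv, dif_pos u.2, add_sub_cancel_left]
    rfl
  exact AlgHom.congr_fun this p

theorem zv_hom (u : {u // u ∉ Set.range lead}) : (zv F lead sp u).IsHomogeneous 1 := by
  refine (isHomogeneous_X F _).sub (IsHomogeneous.sum _ _ _ fun k _ => ?_)
  split_ifs
  · exact isHomogeneous_X F _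
  · exact isHomogeneous_zero _ _ _

theorem yv_mem {Z : Type*} [CommRing Z] (u : Y) :
    yv sp (X : Fin r → MvPolynomial (Fin r) Z) u ∈ Lt 2 := by
  refine Submodule.sum_mem _ fun k _ => ?_
  split_ifs
  · exact X_mem k
  · exact zero_mem _

end Iso

theorem map_mem {A B H ι : Type*} [CommRing A] [CommRing B] [FunLike H A B] [RingHomClass H A B]
    (f : H) (g : ι → A) {x : A} (hx : x ∈ Ideal.span (Set.range g)) :
    f x ∈ Ideal.span (Set.range fun k => f (g k)) := by
  have := Ideal.mem_map_of_mem f hx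
  rwa [Ideal.map_span, ← Set.range_comp] at this

variable {τ a n r : ℕ}

/-- The special variables. -/
def spc (h : r ≤ τ) (α : Fin r → Fin a → Fin n) (u : Yt τ a n) (k : Fin r) : Prop :=
  u.1 = Fin.castLE h k ∧ u.2.2 = α k u.2.1

theorem prod_yv [NeZero a] (h : r ≤ τ) (α : Fin r → Fin a → Fin n) {A : Type*} [CommRing A]
    (x : Fin r → A) (m : Fin τ) (i : Fin a → Fin n) :
    ∏ j, yv (spc h α) x (m, j, i j) =
      ∑ l, if m = Fin.castLE h l ∧ i = α l then x l ^ a else 0 := by
  by_cases hm : ∃ l, m = Fin.castLE h l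
  · obtain ⟨l, rfl⟩ := hm
    have e : ∀ j, yv (spc h α) x (Fin.castLE h l, j, i j) = if i j = α l j then x l else 0 := by
      intro j
      rw [yv, Finset.sum_eq_single l]
      · simp [spc]
      · intro k _ hk
        exact if_neg fun h' => hk (Fin.castLE_injective h h'.1).symm
      · simp
    simp only [e]
    rw [Finset.sum_eq_single l, Fintype.prod_ite_zero]
    · simp [funext_iff]
    · intro k _ hk
      exact if_neg fun h' => hk (Fin.castLE_injective h h'.1).symm
    · simp
  · rw [Finset.prod_eq_zero (Finset.mem_univ (0 : Fin a)), Finset.sum_eq_zero]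
    · exact fun l _ => if_neg fun h' => hm ⟨l, h'.1⟩
    · exact Finset.sum_eq_zero fun l _ => if_neg fun h' => hm ⟨l, h'.1⟩

theorem Th_Om [NeZero a] {F : Type*} [Field F] (h : r ≤ τ) (α : Fin r → Fin a → Fin n)
    (lead : Fin r → Yt τ a n) (ψ : MvPolynomial (Fin n) F →ₗ[F] F) (k : Fin r)
    (hψ : ∀ l, ψ (mon F (α l)) = if k = l then 1 else 0) :
    Th F lead (spc h α) (Om τ a ψ) - X k ^ a ∈ Lt a := by
  have e : (X k : MvPolynomial (Fin r) (MvPolynomial {u // u ∉ Set.range lead} F)) ^ a =
      ∑ m : Fin τ, ∑ i : Fin a → Fin n,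
        C (C (ψ (mon F i))) * ∏ j, yv (spc h α) X (m, j, i j) := by
    simp only [prod_yv, Finset.mul_sum, mul_ite, mul_zero, ite_and]
    rw [Finset.sum_congr rfl fun m _ => Finset.sum_comm, Finset.sum_comm,
      Finset.sum_eq_single k]
    · simp [hψ]
    · intro l _ hl
      simp [hψ, hl.symm]
    · simp
  rw [e, Om, map_sum, ← Finset.sum_sub_distrib]
  refine Submodule.sum_mem _ fun m _ => ?_
  rw [map_sum, ← Finset.sum_sub_distrib]
  refine Submodule.sum_mem _ fun i _ => ?_
  have e2 : Th F lead (spc h α) (C (ψ (mon F i))) = C (C (ψ (mon F i))) :=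
    (Th F lead (spc h α)).commutes _
  rw [map_mul, e2, ← mul_sub, map_prod, C_mul']
  refine Submodule.smul_mem _ _ ?_
  simp only [Th, aeval_X]
  have := (prod_mem Finset.univ (fun j => yv (spc h α) X (m, j, i j))
    (fun j => cv F lead (m, j, i j)) fun j => yv_mem _).2
  rwa [Finset.card_univ, Fintype.card_fin] at this

end ThetaAux

open ThetaAux in
theorem thetaP (hMonic : MonicStm.{u}) : ThetaStm.{u} := by
  classical
  intro F _ τ a n r _ φ ⟨α, hα⟩ h
  let lead : Fin r → Yt τ a n := fun k => (Fin.castLE h k, 0, α k 0)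
  have hinj : Function.Injective lead := fun k l hkl =>
    Fin.castLE_injective h (congrArg Prod.fst hkl)
  have hsp : ∀ k l, spc h α (lead k) l ↔ l = k := fun k l =>
    ⟨fun h' => (Fin.castLE_injective h h'.1).symm, fun h' => h' ▸ ⟨rfl, rfl⟩⟩
  obtain ⟨M1, M2⟩ := hMonic _ r a (fun k => Th F lead (spc h α) (Om τ a (φ k)))
    fun k => mem_Lt.1 (Th_Om h α lead (φ k) k (hα k))
  have hback : ∀ y ∈ Ideal.span (Set.range fun k => Th F lead (spc h α) (Om τ a (φ k))),
      Ti F lead (spc h α) y ∈ idl τ a φ := by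
    intro y hy
    have := map_mem (Ti F lead (spc h α)) _ hy
    simpa only [Ti_Th F hsp, idl] using this
  let bb : (Fin r →₀ ℕ) → MvPolynomial (Yt τ a n) F := fun γ => Ti F lead (spc h α) (monomial γ 1)
  refine ⟨{u // u ∉ Set.range lead}, inferInstance, zv F lead (spc h α),
    Finset.univ.image fun β : Fin r → Fin a =>
      bb (Finsupp.equivFunOnFinite.symm fun k => (β k : ℕ)), ?_, zv_hom F, ?_, ?_, ?_⟩
  · have h1 := Fintype.card_subtype_compl (fun u => u ∈ Set.range lead)
    have h2 : Fintype.card {u // u ∈ Set.range lead} = r := by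
      rw [← Fintype.card_congr (Equiv.ofInjective lead hinj), Fintype.card_fin]
    have h3 := Fintype.card_subtype_le (fun u => u ∈ Set.range lead)
    omega
  · refine Finset.card_image_le.trans ?_
    simp
  · intro p hp x hx
    have h1 := map_mem (Th F lead (spc h α)) _ hx
    rw [map_mul, Th_aeval F hsp] at h1
    obtain ⟨v, hv, hv'⟩ := M1 (Th F lead (spc h α) x)
    have h2 : C p * v = 0 := by
      refine M2 _ (fun β hβ => hv β ?_) ?_
      · rw [C_mul'] at hβ
        exact support_smul hβ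
      · have := sub_mem h1 (Ideal.mul_mem_left _ (C p) hv')
        rwa [mul_sub, sub_sub_cancel] at this
    rw [(mul_eq_zero.1 h2).resolve_left (by simpa using hp), sub_zero] at hv'
    simpa only [Ti_Th F hsp] using hback _ hv'
  · intro x
    obtain ⟨v, hv, hv'⟩ := M1 (Th F lead (spc h α) x)
    refine ⟨fun b => ∑ γ ∈ v.support with bb γ = b, coeff γ v, ?_⟩
    have h1 := hback _ hv'
    rw [map_sub, Ti_Th F hsp] at h1
    convert h1 using 2
    conv_rhs => rw [v.as_sum, map_sum]
    rw [← Finset.sum_fiberwise_of_maps_to (g := bb)]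
    · refine Finset.sum_congr rfl fun b _ => ?_
      rw [map_sum, Finset.sum_mul]
      refine Finset.sum_congr rfl fun γ hγ => ?_
      rw [← (Finset.mem_filter.1 hγ).2, ← Ti_C, ← map_mul, C_mul_monomial, mul_one]
    · intro γ hγ
      exact Finset.mem_image.2 ⟨fun k => ⟨γ k, hv γ hγ k⟩, Finset.mem_univ _, by simp⟩

end Vale.Agent.P200G
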