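import Mathlib
import Vale.Agent.P200G.Stm2

/-! The tower of division rings. -/

namespace Vale.Agent.P200G

open Module MvPolynomial TensorProduct Vale.Agent.P200

universe u

namespace TowerAux

variable {K D D' : Type*} [Field K] [DivisionRing D] [DivisionRing D'] {n r a : ℕ}

theorem tt_map {κ : K →+* D} {κ' : K →+* D'} (j : D →+* D') (h : ∀ x, j (κ x) = κ' x)
    (e : Fin n → D) (ψ : MvPolynomial (Fin n) K →ₗ[K] K) :
    TT a κ' (fun k => j (e k)) ψ = j (TT a κ e ψ) := by
  unfold TT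
  rw [map_sum]
  refine Finset.sum_congr rfl fun i _ => ?_
  rw [map_mul, h, map_list_prod, List.map_ofFn]
  rfl

theorem ind_map {m : ℕ} (j : D →+* D') {T : Set D} {y : Fin m → D}
    (h : ∀ c : Fin m → D, (∀ i, c i ∈ T) → ∑ i, c i * y i = 0 → c = 0) (c : Fin m → D')
    (hc : ∀ i, c i ∈ j '' T) (h0 : ∑ i, c i * j (y i) = 0) : c = 0 := by
  choose d h1 h2 using hc
  have h3 : j (∑ i, d i * y i) = 0 := by
    rw [map_sum, ← h0]
    exact Finset.sum_congr rfl fun i _ => by rw [map_mul, h2]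
  have h4 := h d h1 ((map_eq_zero j).1 h3)
  funext i
  rw [← h2, h4, Pi.zero_apply, Pi.zero_apply, map_zero]

theorem row_map {κ : K →+* D} {κ' : K →+* D'} (j : D →+* D') (h : ∀ x, j (κ x) = κ' x)
    {φ : Fin r → MvPolynomial (Fin n) K →ₗ[K] K} {T : Set D} {e : Fin n → D}
    (hr : NewRow a κ φ T e) : NewRow a κ' φ (j '' T) fun k => j (e k) where
  comm := by
    rintro _ ⟨c, hc, rfl⟩ i
    rw [← map_mul, hr.comm c hc, map_mul]
  zero k := by rw [tt_map j h, hr.zero, map_zero]
  ind := ind_map j hr.ind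
  inda q ψ g h1 h2 h3 c hc h0 := by
    simp only [tt_map j h] at h0
    exact ind_map j (hr.inda q ψ g h1 h2 h3) c hc h0

end TowerAux

theorem towerP (hStep : StepStm.{u}) : TowerStm.{u} := by
  intro K _ _ a n r s φ ha h1 h2
  induction s with
  | zero => exact ⟨{ F := K, D := K }, Fin.elim0, Fin.elim0, fun i => i.elim0, fun i => i.elim0,
      fun i => i.elim0⟩
  | succ s ih =>
    obtain ⟨E, e, T, p1, p2, p3⟩ := ih
    obtain ⟨E', j, e1, q1, q2⟩ := hStep K E a n r φ ha h1 h2
    refine ⟨E', Fin.snoc (α := fun _ => Fin n → E'.D) (fun i k => j (e i k)) e1,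
      Fin.snoc (α := fun _ => Subfield E'.D) (fun i => (T i).map j) j.fieldRange,
      fun i x => ?_, fun i i' k h => ?_, fun i => ?_⟩
    · refine Fin.lastCases ?_ (fun i => ?_) i
      · rw [Fin.snoc_last]
        exact ⟨_, q1 x⟩
      · rw [Fin.snoc_castSucc]
        exact ⟨_, p1 i x, q1 x⟩
    · obtain ⟨i', rfl⟩ := Fin.exists_castSucc_eq.2 (h.trans_le (Fin.le_last i)).ne
      rw [Fin.snoc_castSucc]
      induction i using Fin.lastCases with
      | last =>
        rw [Fin.snoc_last]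
        exact ⟨_, rfl⟩
      | cast i =>
        rw [Fin.snoc_castSucc]
        exact ⟨_, p2 i i' k (Fin.castSucc_lt_castSucc_iff.1 h), rfl⟩
    · refine Fin.lastCases ?_ (fun i => ?_) i
      · rw [Fin.snoc_last, Fin.snoc_last]
        exact q2
      · rw [Fin.snoc_castSucc, Fin.snoc_castSucc]
        exact TowerAux.row_map j q1 (p3 i)

end Vale.Agent.P200G
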