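import Mathlib
import Vale.Agent.P200G.Stm2

/-! Transport to the span of the monomials in the commuting linear forms. -/

namespace Vale.Agent.P200G

open Module MvPolynomial TensorProduct Vale.Agent.P200

universe u

namespace TransAux

theorem ind {n : ℕ} {P : (Fin n →₀ ℕ) → Prop} (h0 : P 0)
    (h1 : ∀ γ i, P γ → P (γ + Finsupp.single i 1)) (γ : Fin n →₀ ℕ) : P γ := by
  have : ∀ (d : ℕ) (γ : Fin n →₀ ℕ), γ.degree = d → P γ := by
    intro d
    induction d with
    | zero =>
      intro γ hγ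
      rwa [(Finsupp.degree_eq_zero_iff γ).mp hγ]
    | succ d ih =>
      intro γ hγ
      obtain ⟨i, hi⟩ : ∃ i, γ i ≠ 0 := by
        by_contra h
        push Not at h
        have : γ = 0 := Finsupp.ext h
        simp [this] at hγ
      have h2 : γ = (γ - Finsupp.single i 1) + Finsupp.single i 1 :=
        (Finsupp.sub_add_single_one_cancel hi).symm
      have h3 : (γ - Finsupp.single i 1).degree = d := by
        rw [h2, map_add, Finsupp.degree_single] at hγ
        omega
      rw [h2]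
      exact h1 _ _ (ih _ h3)
  exact this _ γ rfl

theorem inj_of {D V W : Type*} [DivisionRing D] [AddCommGroup V] [Module D V] [AddCommGroup W]
    [Module D W] (Θ : V →ₗ[D] W) (P : Submodule D V) [FiniteDimensional D P]
    (h : finrank D (P.map Θ) = finrank D P) : ∀ p ∈ P, ∀ q ∈ P, Θ p = Θ q → p = q := by
  intro p hp q hq hpq
  have h1 := LinearMap.finrank_range_add_finrank_ker (Θ ∘ₗ P.subtype)
  rw [LinearMap.range_comp, Submodule.range_subtype, h, Nat.add_eq_left,
    Submodule.finrank_eq_zero, LinearMap.ker_eq_bot] at h1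
  exact congrArg Subtype.val (@h1 ⟨p, hp⟩ ⟨q, hq⟩ hpq)

theorem finrank_of_inj {D V W : Type*} [DivisionRing D] [AddCommGroup V] [Module D V]
    [AddCommGroup W] [Module D W] (Θ : V →ₗ[D] W) (P : Submodule D V)
    (h : ∀ p ∈ P, ∀ q ∈ P, Θ p = Θ q → p = q) : finrank D P = finrank D (P.map Θ) := by
  rw [← LinearMap.finrank_range_of_inj (f := Θ ∘ₗ P.subtype) fun p q e =>
    Subtype.ext (h _ p.2 _ q.2 e), LinearMap.range_comp, Submodule.range_subtype]

variable {K D : Type*} [Field K] [DivisionRing D] [Algebra K D] {n : ℕ}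

theorem deg_ideal {f : Fin n → MvPolynomial (Fin n) K} {dg : Fin n → ℕ}
    (hf : ∀ i, (f i).IsHomogeneous (dg i)) {T : Set (Fin n)} {d : ℕ}
    (P : Submodule K (MvPolynomial (Fin n) K))
    (hP : ∀ i ∈ T, ∀ (e : ℕ) (s : MvPolynomial (Fin n) K), s.IsHomogeneous e → e + dg i = d →
      s * f i ∈ P) : idealDeg (Ideal.span (f '' T)) d ≤ P := by
  have h1 : ∀ p ∈ Ideal.span (f '' T), ∀ c, homogeneousComponent d (c * p) ∈ P := by
    intro p hp
    induction hp using Submodule.span_induction with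
    | mem x hx =>
      obtain ⟨i, hi, rfl⟩ := hx
      intro c
      rw [← c.sum_homogeneousComponent, Finset.sum_mul, map_sum]
      refine Submodule.sum_mem _ fun e _ => ?_
      have h2 := homogeneousComponent_isHomogeneous e c
      rw [homogeneousComponent_of_mem (h2.mul (hf i))]
      split_ifs with h
      · exact hP i hi e _ h2 h.symm
      · exact zero_mem _
    | zero => simp
    | add x y _ _ hx hy =>
      intro c
      rw [mul_add, map_add]
      exact add_mem (hx c) (hy c)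
    | smul a x _ hx =>
      intro c
      rw [smul_eq_mul, ← mul_assoc]
      exact hx _
  intro p hp
  have h2 := h1 p hp.2 1
  rwa [one_mul, homogeneousComponent_of_mem hp.1, if_pos rfl] at h2

theorem bc_le {P : Submodule K (MvPolynomial (Fin n) K)}
    {U : Submodule D (D ⊗[K] MvPolynomial (Fin n) K)} (h : ∀ s ∈ P, (1 : D) ⊗ₜ[K] s ∈ U) :
    P.baseChange D ≤ U := by
  rw [Submodule.baseChange_eq_span, Submodule.span_le]
  rintro _ ⟨s, hs, rfl⟩
  exact h s hs

theorem deg_ideal_bc {f : Fin n → MvPolynomial (Fin n) K} {dg : Fin n → ℕ}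
    (hf : ∀ i, (f i).IsHomogeneous (dg i)) {T : Set (Fin n)} {d : ℕ}
    (U : Submodule D (D ⊗[K] MvPolynomial (Fin n) K))
    (hU : ∀ i ∈ T, ∀ (e : ℕ) (s : MvPolynomial (Fin n) K), s.IsHomogeneous e → e + dg i = d →
      (1 : D) ⊗ₜ[K] (s * f i) ∈ U) : (idealDeg (Ideal.span (f '' T)) d).baseChange D ≤ U :=
  bc_le fun _ hs => deg_ideal hf
    ((U.restrictScalars K).comap (TensorProduct.mk K D (MvPolynomial (Fin n) K) 1)) hU hs

theorem central (g : MvPolynomial (Fin n) K) (x : D ⊗[K] MvPolynomial (Fin n) K) :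
    x * (1 : D) ⊗ₜ[K] g = (1 : D) ⊗ₜ[K] g * x := by
  induction x using TensorProduct.induction_on with
  | zero => simp
  | tmul b s => simp [mul_comm]
  | add x x' h h' => rw [add_mul, mul_add, h, h']

/-- The span of the monomials of degree `d`. -/
abbrev V (D : Type*) [DivisionRing D] (n d : ℕ) : Submodule D ((Fin n →₀ ℕ) →₀ D) :=
  Finsupp.supported D D {γ | γ.degree = d}

theorem sh_mem {S S' : Set (Fin n →₀ ℕ)} {x : Fin n →₀ ℕ} (h : ∀ γ ∈ S, γ + x ∈ S')
    {p : (Fin n →₀ ℕ) →₀ D} (hp : p ∈ Finsupp.supported D D S) :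
    sh D x p ∈ Finsupp.supported D D S' :=
  Finsupp.supported_comap_lmapDomain D D (· + x) S' (Finsupp.supported_mono h hp)

theorem sh_V {d : ℕ} (i : Fin n) {p : (Fin n →₀ ℕ) →₀ D} (hp : p ∈ V D n d) :
    sh D (Finsupp.single i 1) p ∈ V D n (d + 1) :=
  sh_mem (fun γ hγ => by
    have h : γ.degree = d := hγ
    show (γ + Finsupp.single i 1).degree = d + 1
    rw [map_add, h, Finsupp.degree_single]) hp

theorem single_V (γ : Fin n →₀ ℕ) : Finsupp.single γ (1 : D) ∈ V D n γ.degree :=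
  Finsupp.single_mem_supported D 1 rfl

theorem V_eq (d : ℕ) : V D n d = Finsupp.supported D D (monos n d : Set (Fin n →₀ ℕ)) :=
  congrArg (Finsupp.supported D D) (Set.ext fun _ => (Finset.mem_coe.trans mem_monos).symm)

theorem finrank_V (d : ℕ) : FiniteDimensional D (V D n d) ∧
    finrank D (V D n d) = (monos n d).card := by
  rw [V_eq]
  have e := Finsupp.supportedEquivFinsupp (M := D) (R := D) (monos n d : Set (Fin n →₀ ℕ))
  refine ⟨e.symm.finiteDimensional, ?_⟩
  rw [e.finrank_eq, Module.finrank_finsupp_self]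
  exact Fintype.card_coe _

variable {y : Fin n → D ⊗[K] MvPolynomial (Fin n) K}
  {m : (Fin n →₀ ℕ) → D ⊗[K] MvPolynomial (Fin n) K}

theorem th_sh (hm : ∀ γ i, m (γ + Finsupp.single i 1) = m γ * y i) (i : Fin n)
    (p : (Fin n →₀ ℕ) →₀ D) : Finsupp.linearCombination D m (sh D (Finsupp.single i 1) p) =
      Finsupp.linearCombination D m p * y i := by
  induction p using Finsupp.induction_linear with
  | zero => simp
  | add p q hp hq => rw [map_add, map_add, map_add, hp, hq, add_mul]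
  | single γ b => simp [sh, hm, smul_mul_tensor]

theorem m_single (hm0 : m 0 = 1) (hm : ∀ γ i, m (γ + Finsupp.single i 1) = m γ * y i)
    (i : Fin n) (a : ℕ) : m (Finsupp.single i a) = y i ^ a := by
  induction a with
  | zero => simp [hm0]
  | succ a ih => rw [Finsupp.single_add, hm, ih, pow_succ]

end TransAux

open TransAux in
theorem transP : TransStm.{u} := by
  intro K D _ _ _ k c a d₀ f dg y I hc ha hf hda hd1 hd₀ hF hI
  obtain ⟨m, hm0, hm⟩ := exists_monomial_map y hF.comm
  set Θ := Finsupp.linearCombination D m with hΘ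
  have hmap : ∀ d, (V D (k + 2) d).map Θ =
      (homogeneousSubmodule (Fin (k + 2)) K d).baseChange D := fun d => by
    rw [V_eq, hΘ, ← Finsupp.span_image_eq_map_linearCombination,
      span_monos_eq y hF.deg hF.span m hm0 hm]
  have hinj : ∀ d, ∀ p ∈ V D (k + 2) d, ∀ q ∈ V D (k + 2) d, Θ p = Θ q → p = q := by
    intro d
    have := (finrank_V (D := D) (n := k + 2) d).1
    refine inj_of Θ _ ?_
    rw [hmap, (finrank_submodule_baseChange _).2, finrank_homogeneousSubmodule, (finrank_V d).2]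
  have hpre : ∀ d (s : MvPolynomial (Fin (k + 2)) K), s.IsHomogeneous d →
      ∃ p ∈ V D (k + 2) d, Θ p = (1 : D) ⊗ₜ[K] s := fun d s hs => by
    have h : (1 : D) ⊗ₜ[K] s ∈ (V D (k + 2) d).map Θ := by
      rw [hmap]
      exact Submodule.tmul_mem_baseChange_of_mem 1 hs
    exact h
  have hΘ1 : ∀ γ, Θ (Finsupp.single γ 1) = m γ := fun γ => by simp [hΘ]
  let N : ℕ → Submodule D ((Fin (k + 2) →₀ ℕ) →₀ D) := fun d =>
    V D (k + 2) d ⊓ ((idealDeg I d).baseChange D).comap Θ
  have hN : ∀ d, (N d).map Θ = (idealDeg I d).baseChange D := fun d => by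
    refine le_antisymm (Submodule.map_le_iff_le_comap.2 inf_le_right) (bc_le fun s hs => ?_)
    obtain ⟨p, hp, hps⟩ := hpre d s hs.1
    refine ⟨p, ⟨hp, ?_⟩, hps⟩
    refine Submodule.mem_comap.2 ?_
    rw [hps]
    exact Submodule.tmul_mem_baseChange_of_mem 1 hs
  obtain ⟨f₁, hf₁, e₁⟩ := hpre _ _ (hf 0)
  obtain ⟨f₂, hf₂, e₂⟩ := hpre _ _ (hf 1)
  refine ⟨N, f₁, f₂, ⟨fun d => inf_le_left, fun d i p hp => ⟨sh_V i hp.1, ?_⟩, ⟨hf₁, ?_⟩,
    ⟨hf₂, ?_⟩, fun i h2 hi => ?_, fun U hU h1 h2 h3 γ hγ => ?_⟩, fun d => ?_⟩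
  · refine Submodule.mem_comap.2 ?_
    rw [hΘ, th_sh hm]
    exact mul_mem_baseChange (P := idealDeg I d) (T := idealDeg I (d + 1)) (fun p hp q hq =>
      ⟨IsHomogeneous.mul hp.1 hq, I.mul_mem_right q hp.2⟩) hp.2 (hF.deg i)
  · refine Submodule.mem_comap.2 ?_
    rw [e₁]
    exact Submodule.tmul_mem_baseChange_of_mem 1 ⟨hf 0, hI 0 (by simp; omega)⟩
  · refine Submodule.mem_comap.2 ?_
    rw [e₂]
    exact Submodule.tmul_mem_baseChange_of_mem 1 ⟨hf 1, hI 1 (by simp; omega)⟩
  · have h3 := hF.pow i h2 hi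
    rw [← Set.image_univ] at h3
    obtain ⟨u, hu, hu'⟩ := deg_ideal_bc hf ((N a ⊔ Finsupp.supported D D
        {γ | γ.degree = a ∧ ∃ j : Fin (k + 2), c ≤ j.val ∧ γ j ≠ 0}).map Θ) (by
      intro j _ e s hs he
      by_cases hj : j.val < c
      · refine Submodule.map_mono le_sup_left ?_
        rw [hN]
        exact Submodule.tmul_mem_baseChange_of_mem 1
          ⟨he ▸ hs.mul (hf j), I.mul_mem_left s (hI j hj)⟩
      · obtain ⟨q, hq, hqs⟩ := hpre e s hs
        refine ⟨sh D (Finsupp.single j 1) q, Submodule.mem_sup_right (sh_mem ?_ hq), ?_⟩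
        · intro γ hγ
          have h : γ.degree = e := hγ
          refine ⟨?_, j, not_lt.1 hj, by simp⟩
          rw [map_add, h, Finsupp.degree_single, ← he, hd1 j (not_lt.1 hj)]
        · rw [hΘ, th_sh hm, ← hΘ, hqs, hF.lin j (not_lt.1 hj),
            Algebra.TensorProduct.tmul_mul_tmul, one_mul]) h3
    have h4 : u ∈ V D (k + 2) a :=
      (sup_le inf_le_left (Finsupp.supported_mono fun γ hγ => hγ.1) : _ ≤ V D (k + 2) a) hu
    have h5 := single_V (D := D) (Finsupp.single i a)
    rw [Finsupp.degree_single] at h5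
    rw [← hinj a u h4 _ h5 (by rw [hu', hΘ1, m_single hm0 hm])]
    exact hu
  · let U' : ℕ → Submodule D (D ⊗[K] MvPolynomial (Fin (k + 2)) K) := fun d =>
      (U d ⊓ V D (k + 2) d).map Θ
    have c1 : ∀ d i, ∀ x ∈ U' d, x * y i ∈ U' (d + 1) := by
      rintro d i _ ⟨p, hp, rfl⟩
      exact ⟨_, ⟨hU d i p hp.1, sh_V i hp.2⟩, th_sh hm i p⟩
    have c2 : ∀ d, ∀ x ∈ U' d, ∀ δ, x * m δ ∈ U' (δ.degree + d) := by
      intro d x hx δ
      induction δ using ind with
      | h0 => simpa [hm0] using hx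
      | h1 δ i ih =>
        rw [hm, ← mul_assoc, map_add, Finsupp.degree_single, add_right_comm]
        exact c1 _ i _ ih
    have c3 : ∀ d (g : MvPolynomial (Fin (k + 2)) K), (1 : D) ⊗ₜ[K] g ∈ U' d →
        ∀ e (s : MvPolynomial (Fin (k + 2)) K), s.IsHomogeneous e →
          (1 : D) ⊗ₜ[K] (s * g) ∈ U' (e + d) := by
      intro d g hg e s hs
      have h4 : ∀ w ∈ Submodule.span D (m '' (monos (k + 2) e)),
          w * (1 : D) ⊗ₜ[K] g ∈ U' (e + d) := by
        intro w hw
        induction hw using Submodule.span_induction with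
        | mem w hw =>
          obtain ⟨δ, hδ, rfl⟩ := hw
          rw [central, ← mem_monos.1 hδ]
          exact c2 d _ hg δ
        | zero => simp
        | add w w' _ _ h h' => rw [add_mul]; exact add_mem h h'
        | smul b w _ h => rw [smul_mul_tensor]; exact Submodule.smul_mem _ _ h
      have h5 := h4 _ (one_tmul_mem_span_monos y hF.span m hm0 hm e s hs)
      rwa [Algebra.TensorProduct.tmul_mul_tmul, one_mul] at h5
    have c4 : ∀ (j : Fin (k + 2)) (b : ℕ), 2 ≤ j.val → b ≠ 0 → y j ^ b ∈ U' b := by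
      intro j b hj hb
      have h4 := h3 (Finsupp.single j b) j hj (by simpa using hb)
      have h5 := single_V (D := D) (Finsupp.single j b)
      rw [Finsupp.degree_single] at h4 h5
      exact ⟨_, ⟨h4, h5⟩, by rw [hΘ1, m_single hm0 hm]⟩
    have c5 : ∀ j : Fin (k + 2), j.val < 2 ∨ c ≤ j.val → (1 : D) ⊗ₜ[K] f j ∈ U' (dg j) := by
      intro j hj
      rcases hj with hj | hj
      · have : j = 0 ∨ j = 1 := by
          rcases (by omega : j.val = 0 ∨ j.val = 1) with h | h
          · exact Or.inl (Fin.ext h)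
          · exact Or.inr (Fin.ext h)
        rcases this with rfl | rfl
        · exact ⟨f₁, ⟨h1, hf₁⟩, e₁⟩
        · exact ⟨f₂, ⟨h2, hf₂⟩, e₂⟩
      · rw [← hF.lin j hj, hd1 j hj]
        simpa using c4 j 1 (by omega) one_ne_zero
    have c6 : ∀ j : Fin (k + 2), (1 : D) ⊗ₜ[K] f j ∈ U' (dg j) := by
      intro j
      by_cases hj : j.val < 2 ∨ c ≤ j.val
      · exact c5 j hj
      rw [not_or, not_lt, not_le] at hj
      rw [hda j hj.1 hj.2]
      refine (sup_le (deg_ideal_bc (d := a) hf _ fun i hi e s hs he => he ▸ c3 _ _ (c5 i hi) e s hs)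
        (Submodule.span_le.2 ?_) : _ ≤ U' a) (hF.back j hj.1 hj.2)
      rintro _ ⟨i, hi, rfl⟩
      exact c4 i a hi.1 (by omega)
    have c7 : (homogeneousSubmodule (Fin (k + 2)) K γ.degree).baseChange D ≤ U' γ.degree :=
      bc_le fun s hs => deg_ideal_bc (T := Set.univ) hf _
        (fun i _ e s hs he => he ▸ c3 _ _ (c6 i) e s hs)
        (Submodule.tmul_mem_baseChange_of_mem 1
          ⟨hs, by rw [Set.image_univ]; exact hd₀ _ hγ s hs⟩)
    obtain ⟨u, hu, hu'⟩ := c7 (monomial_mem_baseChange y hF.deg m hm0 hm _ γ rfl)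
    rw [← hinj _ u hu.2 _ (single_V γ) (by rw [hu', hΘ1])]
    exact hu.1
  · have := Submodule.finiteDimensional_of_le
      (inf_le_left : idealDeg I d ≤ homogeneousSubmodule (Fin (k + 2)) K d)
    rw [← (finrank_submodule_baseChange (D := D) (idealDeg I d)).2, ← hN]
    exact finrank_of_inj Θ _ fun p hp q hq => hinj d p hp.1 q hq.1

end Vale.Agent.P200G
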