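import Mathlib
import Vale.Agent.P200G.Stm2

/-! Left ideals in two variables: numerical conditions. -/

namespace Vale.Agent.P200G

open Module

universe u

namespace TwoVarAux

variable {D : Type u} [DivisionRing D]

theorem sh_apply (x y : ℕ × ℕ) (p : ℕ × ℕ →₀ D) : sh D x p (y + x) = p y :=
  Finsupp.mapDomain_apply (add_left_injective x) p y

theorem sh_inj (x : ℕ × ℕ) : Function.Injective (sh D x) :=
  Finsupp.mapDomain_injective (add_left_injective x)

theorem sh_zero (i : ℕ) (p : ℕ × ℕ →₀ D) : sh D ((0, 1) : ℕ × ℕ) p (i, 0) = 0 := by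
  refine Finsupp.mapDomain_of_notMem_range _ _ ?_
  rintro ⟨y, hy⟩
  simpa using congrArg Prod.snd hy

theorem sh_comm (x y : ℕ × ℕ) (p : ℕ × ℕ →₀ D) : sh D x (sh D y p) = sh D y (sh D x p) := by
  simp only [sh, Finsupp.lmapDomain_apply, ← Finsupp.mapDomain_comp]
  congr 1
  funext z
  simp only [Function.comp_apply]
  rw [add_right_comm]

theorem V2_eq (d : ℕ) :
    V2 D d = Finsupp.supported D D (Finset.HasAntidiagonal.antidiagonal d : Set (ℕ × ℕ)) := by
  rw [V2]
  congr 1
  ext x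
  simp

instance (d : ℕ) : FiniteDimensional D (V2 D d) := by
  rw [V2_eq]
  exact (Finsupp.supportedEquivFinsupp _).symm.finiteDimensional

theorem finrank_V2 (d : ℕ) : finrank D (V2 D d) = d + 1 := by
  rw [V2_eq, (Finsupp.supportedEquivFinsupp _).finrank_eq, finrank_finsupp_self]
  simp

theorem finrank_map (x : ℕ × ℕ) (U : Submodule D (ℕ × ℕ →₀ D)) :
    finrank D (U.map (sh D x)) = finrank D U :=
  (Submodule.equivMapOfInjective _ (sh_inj x) U).finrank_eq.symm

/-- the next graded piece -/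
noncomputable def nx (U : Submodule D (ℕ × ℕ →₀ D)) : Submodule D (ℕ × ℕ →₀ D) :=
  U.map (sh D ((1, 0) : ℕ × ℕ)) ⊔ U.map (sh D ((0, 1) : ℕ × ℕ))

/-- the variables map `U` into `U'` -/
def Into (U U' : Submodule D (ℕ × ℕ →₀ D)) : Prop :=
  ∀ p ∈ U, sh D ((1, 0) : ℕ × ℕ) p ∈ U' ∧ sh D ((0, 1) : ℕ × ℕ) p ∈ U'

theorem into_nx (U : Submodule D (ℕ × ℕ →₀ D)) : Into U (nx U) := fun _ hp =>
  ⟨Submodule.mem_sup_left (Submodule.mem_map_of_mem hp),
    Submodule.mem_sup_right (Submodule.mem_map_of_mem hp)⟩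

instance (U : Submodule D (ℕ × ℕ →₀ D)) [FiniteDimensional D U] :
    FiniteDimensional D (nx U) := by
  unfold nx
  infer_instance

theorem concave {U U' : Submodule D (ℕ × ℕ →₀ D)} [FiniteDimensional D U'] (h : Into U U') :
    finrank D (nx U') + finrank D U ≤ 2 * finrank D U' := by
  have h1 := Submodule.finrank_sup_add_finrank_inf_eq (U'.map (sh D ((1, 0) : ℕ × ℕ)))
    (U'.map (sh D ((0, 1) : ℕ × ℕ)))
  have h2 : (U.map (sh D ((0, 1) : ℕ × ℕ))).map (sh D ((1, 0) : ℕ × ℕ)) ≤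
      U'.map (sh D ((1, 0) : ℕ × ℕ)) ⊓ U'.map (sh D ((0, 1) : ℕ × ℕ)) := by
    rintro _ ⟨_, ⟨p, hp, rfl⟩, rfl⟩
    exact ⟨⟨_, (h p hp).2, rfl⟩, ⟨_, (h p hp).1, sh_comm _ _ p⟩⟩
  have h3 := Submodule.finrank_mono h2
  rw [finrank_map, finrank_map] at h3 h1
  rw [nx]
  omega

theorem mac {U U' : Submodule D (ℕ × ℕ →₀ D)} [FiniteDimensional D U'] (h : Into U U')
    (h0 : 0 < finrank D U) : finrank D U + 1 ≤ finrank D U' := by
  by_contra hn
  have h1 : U.map (sh D ((0, 1) : ℕ × ℕ)) = U' :=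
    Submodule.eq_of_le_of_finrank_le (by rintro _ ⟨p, hp, rfl⟩; exact (h p hp).2)
      (by rw [finrank_map]; omega)
  have h2 : ∀ j, ∀ p ∈ U, ∀ i, p (i, j) = 0 := by
    intro j
    induction j with
    | zero =>
      intro p hp i
      obtain ⟨q, -, hq⟩ := h1.ge (h p hp).1
      rw [← sh_apply (1, 0), ← hq]
      exact sh_zero _ q
    | succ j ih =>
      intro p hp i
      obtain ⟨q, hq', hq⟩ := h1.ge (h p hp).1
      rw [← sh_apply (1, 0), ← hq]
      exact (sh_apply (0, 1) (i + 1, j) q).trans (ih q hq' _)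
  have h3 : U = ⊥ := (Submodule.eq_bot_iff _).2 fun p hp => Finsupp.ext fun x => h2 x.2 p hp x.1
  rw [h3, finrank_bot] at h0
  exact lt_irrefl _ h0

/-- the continuation of two consecutive pieces -/
noncomputable def sq (A B : Submodule D (ℕ × ℕ →₀ D)) : ℕ → Submodule D (ℕ × ℕ →₀ D)
  | 0 => A
  | 1 => B
  | k + 2 => nx (sq A B (k + 1))

theorem sq_spec {A B : Submodule D (ℕ × ℕ →₀ D)} [FiniteDimensional D A] [FiniteDimensional D B]
    (h : Into A B) (h1 : finrank D B ≤ finrank D A + 1) (k : ℕ) :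
    FiniteDimensional D (sq A B k) ∧ FiniteDimensional D (sq A B (k + 1)) ∧
      Into (sq A B k) (sq A B (k + 1)) ∧
      finrank D (sq A B (k + 1)) ≤ finrank D (sq A B k) + 1 ∧
      finrank D (sq A B k) ≤ finrank D A + k := by
  induction k with
  | zero => exact ⟨‹_›, ‹_›, h, h1, le_rfl⟩
  | succ k ih =>
    obtain ⟨-, i2, i3, i4, i5⟩ := ih
    have h2 := concave i3
    refine ⟨i2, ?_, into_nx _, ?_, by omega⟩
    · change FiniteDimensional D (nx (sq A B (k + 1)))
      infer_instance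
    · change finrank D (nx (sq A B (k + 1))) ≤ _
      omega

theorem key {J : ℕ → Submodule D (ℕ × ℕ →₀ D)} {d d₀ : ℕ} [FiniteDimensional D (J d)]
    [FiniteDimensional D (J (d + 1))] (h : ∀ k ≤ d, Into (J k) (J (k + 1)))
    (h1 : finrank D (J (d + 1)) ≤ finrank D (J d) + 1) (h2 : finrank D (J d) ≤ d)
    (h3 : ∀ U : ℕ → Submodule D (ℕ × ℕ →₀ D), Cl2 U → (∀ k ≤ d + 1, U k = J k) →
      ∀ k ≥ d₀, V2 D k ≤ U k) : False := by
  have hs := sq_spec (h d le_rfl) h1
  have h4 := h3 (fun k => if k < d then J k else sq (J d) (J (d + 1)) (k - d)) (fun k => ?_)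
    (fun k hk => ?_) (d + d₀) (by omega)
  · rw [if_neg (by omega), Nat.add_sub_cancel_left] at h4
    have := (hs d₀).1
    have h5 := Submodule.finrank_mono h4
    have h6 := (hs d₀).2.2.2.2
    rw [finrank_V2] at h5
    omega
  · rcases lt_trichotomy (k + 1) d with hk | hk | hk
    · simp only [if_pos hk, if_pos (show k < d by omega)]
      exact h k (by omega)
    · subst hk
      simp only [Nat.lt_succ_self, if_true, lt_irrefl, if_false, Nat.sub_self]
      exact h k (by omega)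
    · simp only [if_neg (show ¬ k < d by omega), if_neg (show ¬ k + 1 < d by omega),
        show k + 1 - d = k - d + 1 by omega]
      exact (hs (k - d)).2.2.1
  · rcases lt_trichotomy k d with hk' | hk' | hk'
    · exact if_pos hk'
    · subst hk'
      simp only [lt_irrefl, if_false, Nat.sub_self]
      rfl
    · obtain rfl : k = d + 1 := by omega
      simp only [if_neg (show ¬ d + 1 < d by omega), Nat.add_sub_cancel_left]
      rfl

end TwoVarAux

open TwoVarAux in
theorem twoVarP : TwoVarStm.{u} := by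
  intro D _ a₁ a₂ d₀ J f₁ f₂ h1 h2 hV hC m1 m2 hU
  have fd : ∀ d, FiniteDimensional D (J d) := fun d => Submodule.finiteDimensional_of_le (hV d)
  refine ⟨fun d => (Submodule.finrank_mono (hV d)).trans (finrank_V2 d).le,
    fun d => mac (hC d), ?_, fun d hd hv => ?_⟩
  · by_contra hn
    have h3 : J a₁ = ⊥ := Submodule.finrank_eq_zero.1 (by omega)
    rw [h3, Submodule.mem_bot] at m1
    obtain ⟨d, rfl⟩ : ∃ d, a₂ = d + 1 := ⟨a₂ - 1, by omega⟩
    have e1 : ∀ k ≤ d, (if k ≤ d then ⊥ else Submodule.span D {f₂} :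
      Submodule D (ℕ × ℕ →₀ D)) = ⊥ := fun k hk => if_pos hk
    have e2 : (if d + 1 ≤ d then ⊥ else Submodule.span D {f₂} :
      Submodule D (ℕ × ℕ →₀ D)) = Submodule.span D {f₂} := if_neg (by omega)
    refine @key D _ (fun k => if k ≤ d then ⊥ else Submodule.span D {f₂}) d d₀
      (by rw [e1 d le_rfl]; infer_instance) (by rw [e2]; infer_instance) (fun k hk p hp => ?_)
      ?_ ?_ fun U hc he => hU U hc ?_ ?_
    · rw [e1 k hk, Submodule.mem_bot] at hp
      simp [hp]
    · rw [e1 d le_rfl, e2, finrank_bot]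
      simpa using finrank_span_le_card (R := D) ({f₂} : Set (ℕ × ℕ →₀ D))
    · rw [e1 d le_rfl, finrank_bot]
      exact Nat.zero_le _
    · rw [m1]
      exact zero_mem _
    · rw [he _ le_rfl, e2]
      exact Submodule.mem_span_singleton_self _
  · by_contra hn
    refine key (J := J) (d := d) (d₀ := d₀) (fun k _ => hC k) (by omega) hv
      fun U hc he => hU U hc ?_ ?_
    · rw [he _ (by omega)]
      exact m1
    · rw [he _ hd]
      exact m2

end Vale.Agent.P200G
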