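import Mathlib
import Vale.Agent.P200G.Stm2

/-! Divisibility of the rank. -/

namespace Vale.Agent.P200G

open Module MvPolynomial TensorProduct Vale.Agent.P200

universe u

namespace VDivAux

variable {F E : Type u} [Field F] [DivisionRing E] [Algebra F E] {τ a n r : ℕ}
  {φ : Fin r → MvPolynomial (Fin n) F →ₗ[F] F}

theorem finG [FiniteDimensional F E] : FinG (evV E τ a φ) := by
  classical
  let b := Module.finBasis F E
  refine ⟨Finset.univ.image fun x : (Fin τ → Fin a) × Fin (finrank F E) =>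
    Pi.single x.1 (inE E τ a φ (b x.2)), eq_top_iff.2 fun v _ => ?_⟩
  rw [← Finset.univ_sum_single v]
  refine Submodule.sum_mem _ fun ν _ => ?_
  induction v ν using TensorProduct.induction_on with
  | zero => simp
  | add x y hx hy => rw [Pi.single_add]; exact add_mem hx hy
  | tmul e y =>
    obtain ⟨p, rfl⟩ := mkR_surj τ a φ y
    rw [← b.sum_repr e, sum_tmul, ← LinearMap.single_apply F (fun _ => Ar E τ a φ), map_sum]
    refine Submodule.sum_mem _ fun i _ => ?_
    rw [← smul_tmul', map_smul, LinearMap.single_apply]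
    refine Submodule.smul_mem _ _ (Submodule.subset_span ⟨p, _, Finset.mem_coe.2
      (Finset.mem_image_of_mem _ (Finset.mem_univ (ν, i))), funext fun ν' => ?_⟩)
    rw [evV_apply]
    by_cases h : ν' = ν
    · subst h
      rw [Pi.single_eq_same, Pi.single_eq_same, evA_comm, inE_mul_evA]
    · rw [Pi.single_eq_of_ne h, Pi.single_eq_of_ne h, mul_zero]

variable [NeZero a]

theorem hom {γ : Gr F (Ar E τ a φ) (Gt τ a)}
    (h : ∀ g, γ.pc g = Asp E τ a φ {α | Finsupp.weight chi α = g})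
    {p : MvPolynomial (Yt τ a n) F} {x : Gt τ a} (hp : p.IsWeightedHomogeneous chi x) :
    (γ.pi posn).Hom (evV E τ a φ p) x := by
  refine Gr.hom_of_mem fun g w hw => (γ.mem_pi_pc _).2 fun ν => ?_
  have h1 := (γ.mem_pi_pc _).1 hw ν
  rw [h] at h1 ⊢
  rw [evV_apply]
  refine Asp_mul E τ a φ (T := {α | Finsupp.weight chi α = x}) (fun α hα β hβ => ?_)
    (evA_mem_Asp E τ a φ fun α hα => hp (mem_support_iff.1 hα)) h1
  change Finsupp.weight chi (α + β) = _
  rw [map_add, hα.out, hβ.out]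
  abel

theorem sum_chi (m : Fin τ) (i : Fin a → Fin n) :
    ∑ j, chi (m, j, i j) = ((0, (a : ℤ)) : Gt τ a) := by
  refine Prod.ext ?_ ?_
  · simp only [Prod.fst_sum, chi, Finset.sum_sub_distrib]
    exact sub_eq_zero.2 (Equiv.sum_comp (Equiv.addRight (1 : Fin a))
      fun j => (Pi.single (m, j) 1 : Fin τ × Fin a → ℤ)).symm
  · simp [Prod.snd_sum, chi]

theorem xi_hom (ψ : MvPolynomial (Fin n) F →ₗ[F] F) (x : Fin τ × Fin n) :
    (xi τ a ψ x).IsWeightedHomogeneous chi (((0, (a : ℤ)) : Gt τ a) - chi (x.1, 0, x.2)) := by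
  refine IsWeightedHomogeneous.sum _ _ _ fun i hi => ?_
  have h := IsWeightedHomogeneous.prod (w := chi (τ := τ)) (Finset.univ.erase (0 : Fin a))
    (fun j => (X (x.1, j, i j) : MvPolynomial (Yt τ a n) F)) (fun j => chi (x.1, j, i j))
    fun j _ => isWeightedHomogeneous_X F _ _
  rw [← (Finset.mem_filter.1 hi).2, ← sum_chi x.1 i,
    ← Finset.sum_erase_add _ _ (Finset.mem_univ 0), add_sub_cancel_right]
  exact h.C_mul _

theorem sum_xi (ψ : MvPolynomial (Fin n) F →ₗ[F] F) :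
    ∑ x : Fin τ × Fin n, xi τ a ψ x * X (x.1, 0, x.2) = Om τ a ψ := by
  rw [Fintype.sum_prod_type, Om]
  refine Finset.sum_congr rfl fun m _ => ?_
  rw [← Finset.sum_fiberwise Finset.univ fun i : Fin a → Fin n => i 0]
  refine Finset.sum_congr rfl fun k _ => ?_
  rw [xi, Finset.sum_mul]
  refine Finset.sum_congr rfl fun i hi => ?_
  rw [← Finset.prod_erase_mul _ _ (Finset.mem_univ (0 : Fin a)), (Finset.mem_filter.1 hi).2,
    mul_assoc]

theorem weight_snd (α : Yt τ a n →₀ ℕ) :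
    Finsupp.weight (fun _ => (1 : ℤ)) α = (Finsupp.weight chi α).2 := by
  simp only [Finsupp.weight_apply, Finsupp.sum, Prod.snd_sum, Prod.smul_snd, chi]

end VDivAux

open VDivAux in
theorem vDivP (hTate : TateStm.{u}) (hCodim : CodimStm.{u}) (hCoarse : CoarseStm.{u})
    (hPoly : PolyStm) (hDetect : DetectStm) (hInv : InvStm.{u}) : VDivStm.{u} := by
  intro F E _ _ _ _ τ a n r _ φ ζ γ γ' M hφ hτ hζ hγ hγE hγ' hM hSt hES hSm
  have hcard : Fintype.card (Yt τ a n) = τ * (a * n) := by simp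
  obtain ⟨κ, η, h1, h2, h3⟩ := hTate F E _ (Gt τ a) (Yt τ a n) (Fin τ × Fin n) (γ.pi posn)
    (evV E τ a φ) chi r (r + τ + 1) (0, (a : ℤ)) (fun x => (x.1, 0, x.2))
    (fun k => xi τ a (φ k)) M finG (fun u => hom hγ (isWeightedHomogeneous_X F _ _))
    (fun g e v => funext fun ν => hγE _ e (v ν))
    (fun p e v => funext fun ν => by
      rw [evV_apply, Pi.smul_apply, Pi.smul_apply, evV_apply, ← inE_mul, ← inE_mul, ← mul_assoc,
        evA_comm, mul_assoc])
    (fun x y h => Prod.ext (congrArg (fun z : Yt τ a n => z.1) h)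
      (congrArg (fun z : Yt τ a n => z.2.2) h))
    (fun k x => hom hγ (xi_hom _ x))
    (fun k => LinearMap.ext fun v => funext fun ν => by
      rw [sum_xi, evV_apply, evA_Om, zero_mul]
      rfl)
    hM hSt hES fun σ hσ hc => hCodim F τ a n r φ hφ hτ σ (fun m i => hσ (m, i))
      (by simpa using hc)
  obtain ⟨h4, h5⟩ := hCoarse F _ (Gt τ a) (Yt τ a n) (γ.pi posn) (γ'.pi fun _ => 0)
    (AddMonoidHom.snd _ _) chi M (fun g w hw => (γ'.mem_pi_pc _).2 fun ν => by
      have h := (γ.mem_pi_pc _).1 hw ν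
      rw [hγ] at h
      rw [hγ']
      refine Asp_mono E τ a φ (fun α hα => ?_) h
      change Finsupp.weight _ α = _
      rw [weight_snd, hα.out]
      rfl) (fun _ => rfl) hM
  refine ⟨h4, fun c q hc hq => ?_⟩
  obtain ⟨k', h6, h7⟩ := h5 _ h1
  rw [← hc, add_comm, pow_add, map_mul, Module.End.mul_apply, hq, act_cf] at h6
  obtain rfl := cf_injective h6
  have h8 := (hPoly ℤ).2 (AddMonoidHom.id ℤ) (-1) 1 r q fun _ => rfl
  simp only [neg_neg, Pi.one_apply, one_mul, AddMonoidHom.id_apply] at h8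
  obtain ⟨i1, i2⟩ := hInv F E τ a n r φ ζ γ M hζ hγ hM hSm
  have h9 := hDetect τ a n r _ _ h1 i1 i2
  have h10 := (hPoly (Gt τ a)).2 (AddMonoidHom.snd _ _) (0, (a : ℤ))
    (fun g => ∏ m, g.1 (m, 0)) r κ fun g => by simp
  have h11 := (hPoly (Gt τ a)).1 _ (Fin τ ⊕ Fin r) chi (r + τ + 1) Finset.univ
    (Sum.elim (fun m => (Pi.evalAddMonoidHom (fun _ : Fin τ × Fin a => ℤ) (m, 0)).comp
      (AddMonoidHom.fst _ _)) fun _ => AddMonoidHom.snd _ _) (by simp; omega) η h2
  simp only [Fintype.prod_sum_type, Sum.elim_inl, Sum.elim_inr, Finset.prod_const,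
    Finset.card_univ, Fintype.card_fin] at h11
  have h12 : (finrank F E : ℤ) ∣ mom (fun g => ∏ m, g.1 (m, 0)) κ :=
    Finset.dvd_sum fun g _ => (h3 g).mul_right _
  have h13 : (-1) ^ r * (r.factorial : ℤ) * mom 1 q =
      a ^ τ * (a ^ r * r.factorial * mom (fun g => ∏ m, g.1 (m, 0)) κ + 0) := by
    rw [← h8, h7]
    refine h9.trans ?_
    rw [mom_add]
    exact congrArg _ (congrArg₂ _ h10 h11)
  obtain ⟨t, ht⟩ := h12
  refine ⟨(-1) ^ r * t, mul_left_cancel₀ (a := (-1) ^ r * (r.factorial : ℤ))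
    (mul_ne_zero (pow_ne_zero _ (by norm_num)) (Nat.cast_ne_zero.2 r.factorial_ne_zero)) ?_⟩
  have h14 : ((-1 : ℤ) ^ r) * (-1) ^ r = 1 := by rw [← mul_pow]; simp
  rw [h13, ht]
  push_cast
  linear_combination (-(a : ℤ) ^ τ * a ^ r * r.factorial * finrank F E * t) * h14

end Vale.Agent.P200G
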