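import Mathlib
import Vale.Agent.P200G.Stm2

/-! The rank of subspaces of the module of row vectors. -/

namespace Vale.Agent.P200G

open Module MvPolynomial TensorProduct

universe u

namespace VRankAux

theorem gen_hg {F W Y : Type*} [Field F] [AddCommGroup W] [Module F W] {γ : Gr F W ℤ}
    {ev : MvPolynomial Y F →ₐ[F] Module.End F W} (h : ∀ u, γ.Hom (ev (X u)) 1) {g : ℤ} {v : W}
    (hv : v ∈ γ.pc g) : γ.Hg (gen ev {v}) := by
  let T : Submodule F W := ⨅ g', (gen ev {v}).comap (γ.π g')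
  have hT : St ev T := St.of_X fun u z hz => by
    simp only [T, Submodule.mem_iInf, Submodule.mem_comap] at hz ⊢
    intro g'
    rw [← sub_add_cancel g' 1, h u]
    exact st_gen _ _ _ (hz _)
  have hle : gen ev {v} ≤ T := hT.gen_le (by
    rintro _ rfl
    simp only [T, SetLike.mem_coe, Submodule.mem_iInf, Submodule.mem_comap]
    intro g'
    by_cases hg : g' = g
    · rw [hg, γ.mem_pc.1 hv]
      exact subset_gen _ rfl
    · rw [γ.π_of_mem_ne hv hg]
      exact zero_mem _)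
  intro g' z hz
  exact (Submodule.mem_iInf _).1 (hle hz) g'

variable {F : Type*} [Field F] (E : Type*) [DivisionRing E] [Algebra F E] (τ a : ℕ) {n r : ℕ}
  (φ : Fin r → MvPolynomial (Fin n) F →ₗ[F] F)

theorem tors {q : MvPolynomial (Yt τ a n) F} (h : ∀ x, q * x ∈ idl τ a φ → x ∈ idl τ a φ)
    {x : Ar E τ a φ} (hx : evA E τ a φ q * x = 0) : x = 0 := by
  have h1 : Function.Injective (LinearMap.mulLeft F (mkR τ a φ q)) := by
    rw [injective_iff_map_eq_zero]
    intro y hy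
    obtain ⟨p, rfl⟩ := mkR_surj τ a φ y
    rw [LinearMap.mulLeft_apply, ← map_mul, mkR_eq_zero] at hy
    exact (mkR_eq_zero τ a φ).2 (h p hy)
  have h2 := Module.Flat.lTensor_preserves_injective_linearMap (M := E) _ h1
  have h3 : ∀ x : Ar E τ a φ,
      (LinearMap.mulLeft F (mkR τ a φ q)).lTensor E x = evA E τ a φ q * x := by
    intro x
    induction x using TensorProduct.induction_on with
    | zero => simp
    | tmul e y => simp [evA]
    | add x y hx hy => rw [map_add, mul_add, hx, hy]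
  exact (injective_iff_map_eq_zero _).1 h2 x ((h3 x).trans hx)

theorem evV_single (p : MvPolynomial (Yt τ a n) F) (ν : Fin τ → Fin a) (x : Ar E τ a φ) :
    evV E τ a φ p (Pi.single ν x) = Pi.single ν (evA E τ a φ p * x) := by
  funext ν'
  rw [evV_apply]
  by_cases h : ν' = ν
  · rw [h, Pi.single_eq_same, Pi.single_eq_same]
  · rw [Pi.single_eq_of_ne h, Pi.single_eq_of_ne h, mul_zero]

theorem gens [FiniteDimensional F E] {Y' : Type*} (z : Y' → MvPolynomial (Yt τ a n) F)
    (s : Finset (MvPolynomial (Yt τ a n) F))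
    (h : ∀ x, ∃ c : MvPolynomial (Yt τ a n) F → MvPolynomial Y' F,
      x - ∑ b ∈ s, aeval z (c b) * b ∈ idl τ a φ) :
    ∃ S : Finset ((Fin τ → Fin a) → Ar E τ a φ), S.card ≤ finrank F E * a ^ τ * s.card ∧
      gen ((evV E τ a φ).comp (aeval z)) (S : Set ((Fin τ → Fin a) → Ar E τ a φ)) = ⊤ := by
  classical
  let bas := Module.finBasis F E
  let f : (Fin (finrank F E) × (Fin τ → Fin a)) × MvPolynomial (Yt τ a n) F →
      (Fin τ → Fin a) → Ar E τ a φ :=
    fun t => Pi.single t.1.2 (inE E τ a φ (bas t.1.1) * evA E τ a φ t.2)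
  refine ⟨(Finset.univ ×ˢ s).image f, Finset.card_image_le.trans (by simp), ?_⟩
  set N := gen ((evV E τ a φ).comp (aeval z))
    (((Finset.univ ×ˢ s).image f : Finset _) : Set ((Fin τ → Fin a) → Ar E τ a φ)) with hN
  have key : ∀ ν (x : Ar E τ a φ),
      x ∈ N.comap (LinearMap.single F (fun _ : Fin τ → Fin a => Ar E τ a φ) ν) := by
    intro ν x
    induction x using TensorProduct.induction_on with
    | zero => exact zero_mem _
    | add x y hx hy => exact add_mem hx hy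
    | tmul e y =>
      obtain ⟨p, rfl⟩ := mkR_surj τ a φ y
      obtain ⟨c, hc⟩ := h p
      rw [← mkR_eq_zero, map_sub, sub_eq_zero] at hc
      rw [hc, ← bas.sum_repr e, sum_tmul, map_sum]
      refine Submodule.sum_mem _ fun i _ => ?_
      rw [← smul_tmul', tmul_sum]
      refine Submodule.smul_mem _ _ (Submodule.sum_mem _ fun b hb => ?_)
      rw [← inE_mul_evA, map_mul, ← mul_assoc, ← evA_comm E τ a φ (aeval z (c b)), mul_assoc,
        Submodule.mem_comap,
        LinearMap.single_apply, ← evV_single]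
      refine st_gen _ (c b) _ (subset_gen _ ?_)
      exact Finset.mem_coe.2 (Finset.mem_image.2
        ⟨((i, ν), b), Finset.mem_product.2 ⟨Finset.mem_univ _, hb⟩, rfl⟩)
  refine eq_top_iff.2 fun w _ => ?_
  rw [← Finset.univ_sum_single w]
  exact Submodule.sum_mem _ fun ν _ => key ν (w ν)

theorem hom (γ' : Gr F (Ar E τ a φ) ℤ)
    (hγ : ∀ g, γ'.pc g = Asp E τ a φ {α | Finsupp.weight (fun _ => (1 : ℤ)) α = g})
    {p : MvPolynomial (Yt τ a n) F} (hp : p.IsHomogeneous 1) :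
    (γ'.pi fun _ : Fin τ → Fin a => 0).Hom (evV E τ a φ p) 1 := by
  refine Gr.hom_of_mem fun g w hw => ?_
  rw [Gr.mem_pi_pc] at hw ⊢
  intro ν
  have h1 := hw ν
  rw [hγ] at h1 ⊢
  rw [evV_apply]
  refine Asp_mul E τ a φ (T := {α | Finsupp.weight (fun _ => (1 : ℤ)) α = 1}) ?_
    (evA_mem_Asp E τ a φ fun α hα => ?_) h1
  · intro α hα β hβ
    simp only [Set.mem_ofPred_eq] at hα hβ ⊢
    rw [map_add, hα, hβ]
    ring
  · have h2 : Finsupp.weight (1 : Yt τ a n → ℕ) α = 1 := hp (mem_support_iff.1 hα)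
    simp only [Set.mem_ofPred_eq, Finsupp.weight_apply, Finsupp.sum, Pi.one_apply, smul_eq_mul,
      mul_one, nsmul_eq_mul] at h2 ⊢
    exact_mod_cast h2

end VRankAux

open VRankAux in
theorem vRankP (hRank : RankStm.{u}) (hTheta : ThetaStm.{u}) : VRankStm.{u} := by
  intro F E _ _ _ _ τ a n r _ φ γ' hE hr hγ
  obtain ⟨Y', _, z, s, h1, h2, h3, h4, h5⟩ := hTheta F τ a n r φ hE hr
  obtain ⟨S, hS, hgen⟩ := gens E τ a φ z s h5
  set ev := (evV E τ a φ).comp (aeval z) with hev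
  have hhom : ∀ u, (γ'.pi fun _ : Fin τ → Fin a => 0).Hom (ev (X u)) 1 := fun u => by
    rw [hev, AlgHom.comp_apply, aeval_X]
    exact hom E τ a φ γ' hγ (h2 u)
  have R := hRank F _ Y' (γ'.pi fun _ : Fin τ → Fin a => 0) ev ⟨S, hgen⟩ hhom
  refine ⟨Fintype.card Y', h1, fun Z B hZ hB sZ sB hBZ => ?_⟩
  have sZ' : St ev Z := fun p => sZ _
  have sB' : St ev B := fun p => sB _
  obtain ⟨q, q1, q2, q3, -⟩ := R Z B hZ hB sZ' sB' hBZ
  refine ⟨q, q1, q2, fun hT => ?_, fun hB0 hZ0 => ?_⟩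
  · refine (q3 S (by rw [hT]; exact Set.subset_univ _) (by rw [hgen]; simp)).trans ?_
    exact_mod_cast hS.trans (Nat.mul_le_mul_left _ h3)
  · obtain ⟨v0, hv0, hne⟩ := (Submodule.ne_bot_iff Z).1 hZ0
    obtain ⟨g, hg⟩ : ∃ g, (γ'.pi fun _ : Fin τ → Fin a => 0).π g v0 ≠ 0 := by
      by_contra hc
      exact hne ((γ'.pi fun _ : Fin τ → Fin a => 0).ext_π fun g => not_not.1 fun h => hc ⟨g, h⟩)
    set v := (γ'.pi fun _ : Fin τ → Fin a => 0).π g v0 with hv
    have hZ' := gen_hg hhom ((γ'.pi fun _ : Fin τ → Fin a => 0).π_mem_pc g v0)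
    rw [← hv] at hZ'
    have hle : gen ev {v} ≤ Z := sZ'.gen_le (Set.singleton_subset_iff.2 (hZ g v0 hv0))
    obtain ⟨q', a1, a2, -, -⟩ := R Z _ hZ hZ' sZ' (st_gen _) hle
    obtain ⟨q'', b1, -, -, b4⟩ := R _ ⊥ hZ' (Gr.hg_bot _) (st_gen _) st_bot bot_le
    have b5 := b4 v (subset_gen _ rfl) le_sup_right fun p hp => by
      by_contra hp0
      refine hg (funext fun ν => tors E τ a φ (h4 p hp0) ?_)
      exact congrFun ((Submodule.mem_bot F).1 hp) ν
    have e : q = q' + q'' := cf_injective (by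
      rw [cf_add, ← q1, ← a1, ← b1, ← map_add, hB0, sub_add_sub_cancel])
    rw [e, mom_add]
    omega

end Vale.Agent.P200G
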