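import Mathlib
import Vale.Agent.P200G.Final
import Vale.Agent.P200G.Forms
import Vale.Agent.P200G.Trans
import Vale.Agent.P200G.Dbl
import Vale.Agent.P200G.Supp
import Vale.Agent.P200G.Rank
import Vale.Agent.P200G.Tate
import Vale.Agent.P200G.VDiv
import Vale.Agent.P200G.VRank
import Vale.Agent.P200G.HomDom
import Vale.Agent.P200G.CodimB
import Vale.Agent.P200G.Codim
import Vale.Agent.P200G.Cat
import Vale.Agent.P200G.Gain
import Vale.Agent.P200G.CodimA
import Vale.Agent.P200G.Monic
import Vale.Agent.P200G.Theta
import Vale.Agent.P200G.GrA
import Vale.Agent.P200G.Inv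
import Vale.Agent.P200G.Hd
import Vale.Agent.P200G.Block
import Vale.Agent.P200G.Indep
import Vale.Agent.P200G.FinP
import Vale.Agent.P200G.FinB
import Vale.Agent.P200G.Pack
import Vale.Agent.P200G.StepF
import Vale.Agent.P200G.Step
import Vale.Agent.P200G.Tower
import Vale.Agent.P200G.Row
import Vale.Agent.P200G.Colen
import Vale.Agent.P200G.Ech
import Vale.Agent.P200G.Dual
import Vale.Agent.P200G.TwoVar
import Vale.Agent.P200G.Slice
import Vale.Agent.P200G.Lpp
import Vale.Agent.P200G.Closed
import Vale.Agent.P200G.Noeth
import Vale.Agent.P200G.Base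
import Vale.Agent.P200G.Car
import Vale.Agent.P200G.Lam
import Vale.Agent.P200G.Coarse
import Vale.Agent.P200G.Poly
import Vale.Agent.P200G.Detect
import Vale.Agent.P200G.GrDom
import Vale.Agent.P200G.QB
import Vale.Agent.P200G.Pow

/-! Assembly of the steps. -/

namespace Vale.Agent.P200G

universe u

theorem colenA : ColenStm.{u} := colenP

theorem echA : EchStm.{u} := echP

theorem grAA : GrAStm.{u} := grAP

theorem noethA : NoethStm.{u} := noethP

theorem baseA : BaseStm.{u} := baseP noethA

theorem suppA : SuppStm.{u} := suppP noethA baseA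

theorem dblA : DblStm.{u} := dblP suppA

theorem carA : CarStm.{u} := carP

theorem lamA : LamStm.{u} := lamP

theorem tateA : TateStm.{u} := tateP dblA carA lamA

theorem codimAA : CodimAStm.{u} := codimAP

theorem catA : CatStm.{u} := catP

theorem gainA : GainStm.{u} := gainP

theorem codimBA : CodimBStm.{u} := codimBP catA gainA

theorem codimA : CodimStm.{u} := codimP codimAA codimBA

theorem coarseA : CoarseStm.{u} := coarseP

theorem polyA : PolyStm := polyP

theorem detectA : DetectStm := detectP

theorem invA : InvStm.{u} := invP

theorem vDivA : VDivStm.{u} := vDivP tateA codimA coarseA polyA detectA invA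

theorem rankA : RankStm.{u} := rankP noethA baseA

theorem monicA : MonicStm.{u} := monicP

theorem thetaA : ThetaStm.{u} := thetaP monicA

theorem vRankA : VRankStm.{u} := vRankP rankA thetaA

theorem homDomA : HomDomStm.{u} := homDomP grAA vDivA vRankA

theorem hdA : HdStm.{u} := hdP grAA

theorem grDomA : GrDomStm.{u} := grDomP

theorem powA : PowStm.{u} := powP

theorem blockA : BlockStm.{u} := blockP powA

theorem indepA : IndepStm.{u} := indepP

theorem packA : PackStm.{u} := packP

theorem finPA : FinPStm.{u} := finPP

theorem finBA : FinBStm.{u} := finBP finPA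

theorem stepFA : StepFStm.{u} := stepFP homDomA hdA grDomA blockA indepA packA finBA

theorem qBA : QBStm.{u} := qBP

theorem stepA : StepStm.{u} := stepP stepFA qBA

theorem towerA : TowerStm.{u} := towerP stepA

theorem rowA : RowStm.{u} := rowP

theorem dualA : DualStm.{u} := dualP

theorem formsA : FormsStm.{u} := formsP colenA echA towerA powA rowA dualA

theorem transA : TransStm.{u} := transP

theorem twoVarA : TwoVarStm.{u} := twoVarP

theorem sliceA : SliceStm.{u} := sliceP

theorem lppA : LppStm := lppP

theorem closedA : ClosedStm.{u} := closedP colenA formsA transA sliceA twoVarA lppA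

end Vale.Agent.P200G
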