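import Mathlib
import Vale.Agent.P200G.Stm2

/-! Subquotients killed by all variables. -/

namespace Vale.Agent.P200G

open Module MvPolynomial

universe u

namespace BaseAux

variable {F W G Y : Type*} [Field F] [AddCommGroup W] [Module F W]

theorem ev_sub {ev : MvPolynomial Y F →ₐ[F] Module.End F W} {Z B : Submodule F W}
    (hB : St ev B) (h : ∀ u, ∀ z ∈ Z, ev (X u) z ∈ B) (p : MvPolynomial Y F) {w : W}
    (hw : w ∈ Z) : ev p w - constantCoeff p • w ∈ B := by
  induction p using MvPolynomial.induction_on with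
  | C a =>
    rw [constantCoeff_C, ← algebraMap_eq, AlgHom.commutes, Module.algebraMap_end_apply, sub_self]
    exact B.zero_mem
  | add p q hp hq =>
    rw [map_add, map_add, LinearMap.add_apply, add_smul, add_sub_add_comm]
    exact B.add_mem hp hq
  | mul_X p u _ =>
    rw [map_mul, map_mul, constantCoeff_X, mul_zero, zero_smul, sub_zero]
    exact hB p _ (h u w hw)

theorem gen_le {ev : MvPolynomial Y F →ₐ[F] Module.End F W} {Z B : Submodule F W}
    (hB : St ev B) (h : ∀ u, ∀ z ∈ Z, ev (X u) z ∈ B) {s : Set W} (hs : s ⊆ Z) :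
    gen ev s ≤ B ⊔ Submodule.span F s := by
  rw [gen, Submodule.span_le]
  rintro _ ⟨p, w, hw, rfl⟩
  rw [← sub_add_cancel (ev p w) (constantCoeff p • w)]
  exact Submodule.add_mem_sup (ev_sub hB h p (hs hw))
    (Submodule.smul_mem _ _ (Submodule.subset_span hw))

theorem π_sum (γ : Gr F W G) {t : Finset G} {g : G} (hg : g ∉ t) (w : W) :
    γ.π g ((∑ g' ∈ t, γ.π g') w) = 0 ∧ (∑ g' ∈ t, γ.π g') (γ.π g w) = 0 := by
  rw [LinearMap.sum_apply, LinearMap.sum_apply, map_sum]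
  exact ⟨Finset.sum_eq_zero fun g' hg' => γ.orth _ _ _ fun h => hg (h ▸ hg'),
    Finset.sum_eq_zero fun g' hg' => γ.orth _ _ _ fun h => hg (h ▸ hg')⟩

theorem rank_sum (γ : Gr F W G) {Z : Submodule F W} (hZ : γ.Hg Z) (t : Finset G) :
    FiniteDimensional F (Z.map (∑ g ∈ t, γ.π g)) ∧
      finrank F (Z.map (∑ g ∈ t, γ.π g)) = ∑ g ∈ t, finrank F (Z.map (γ.π g)) := by
  classical
  induction t using Finset.induction_on with
  | empty =>
    rw [Finset.sum_empty, Finset.sum_empty, Submodule.map_zero]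
    exact ⟨inferInstance, finrank_bot F W⟩
  | insert g t hg ih =>
    obtain ⟨h1, h2⟩ := ih
    have e : Z.map (γ.π g + ∑ g' ∈ t, γ.π g') = Z.map (γ.π g) ⊔ Z.map (∑ g' ∈ t, γ.π g') := by
      refine le_antisymm (Submodule.map_add_le _ _ _) (sup_le ?_ ?_)
      · rintro _ ⟨z, hz, rfl⟩
        exact ⟨γ.π g z, hZ g z hz, by rw [LinearMap.add_apply, γ.idem, (π_sum γ hg z).2, add_zero]⟩
      · rintro _ ⟨z, hz, rfl⟩
        refine ⟨z - γ.π g z, Z.sub_mem hz (hZ g z hz), ?_⟩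
        rw [LinearMap.add_apply, map_sub, map_sub, γ.idem, (π_sum γ hg z).2, sub_self, zero_add,
          sub_zero]
    have d : Z.map (γ.π g) ⊓ Z.map (∑ g' ∈ t, γ.π g') = ⊥ := by
      rw [eq_bot_iff]
      rintro x ⟨⟨a, -, ha⟩, ⟨b, -, hb⟩⟩
      rw [Submodule.mem_bot, ← ha, ← γ.idem, ha, ← hb, (π_sum γ hg b).1]
    have k := Submodule.finrank_sup_add_finrank_inf_eq (Z.map (γ.π g)) (Z.map (∑ g' ∈ t, γ.π g'))
    rw [d, finrank_bot, add_zero, h2] at k
    rw [Finset.sum_insert hg, Finset.sum_insert hg, e]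
    exact ⟨inferInstance, k⟩

theorem sum_le (γ : Gr F W G) {Z B : Submodule F W} (hZ : γ.Hg Z) (hB : γ.Hg B) (t : Finset G)
    {s : Finset W} (hs : Z ≤ B ⊔ Submodule.span F (s : Set W)) :
    ∑ g ∈ t, (γ.h Z g - γ.h B g) ≤ s.card := by
  classical
  obtain ⟨-, z2⟩ := rank_sum γ hZ t
  obtain ⟨b1, b2⟩ := rank_sum γ hB t
  have h1 := Submodule.map_mono (f := ∑ g ∈ t, γ.π g) hs
  rw [Submodule.map_sup, Submodule.map_span, ← Finset.coe_image] at h1
  have h2 := Submodule.finrank_mono h1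
  have h3 := Submodule.finrank_sup_add_finrank_inf_eq (B.map (∑ g ∈ t, γ.π g))
    (Submodule.span F ((s.image ⇑(∑ g ∈ t, γ.π g) : Finset W) : Set W))
  have h4 : finrank F (Submodule.span F ((s.image ⇑(∑ g ∈ t, γ.π g) : Finset W) : Set W)) ≤
      s.card := (finrank_span_finset_le_card _).trans Finset.card_image_le
  have h5 : ∑ g ∈ t, finrank F (Z.map (γ.π g)) ≤ ∑ g ∈ t, finrank F (B.map (γ.π g)) + s.card := by
    omega
  simp only [Gr.h]
  rw [Finset.sum_sub_distrib, ← Nat.cast_sum, ← Nat.cast_sum]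
  omega

end BaseAux

open BaseAux in
theorem baseP (hNoeth : NoethStm.{u}) : BaseStm.{u} := by
  classical
  intro F W G Y _ _ _ _ _ γ ev hf Z B hZ hB sZ sB hle hX
  obtain ⟨s0, hs0⟩ := (hNoeth F W Y ev hf).1 Z sZ
  have h0 : Z ≤ B ⊔ Submodule.span F (s0 : Set W) :=
    hs0.ge.trans (gen_le sB hX ((subset_gen _).trans hs0.le))
  choose sp _ hsp using γ.exists_supp
  have h1 : ∀ g, (γ.h Z - γ.h B) g ≠ 0 → g ∈ s0.biUnion sp := by
    intro g hg
    by_contra hn
    refine hg (sub_eq_zero.2 (le_antisymm ?_ (γ.h_mono hle g)))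
    refine Int.ofNat_le.2 (Submodule.finrank_mono ((Submodule.map_mono h0).trans ?_))
    rw [Submodule.map_sup, Submodule.map_span]
    refine sup_le le_rfl (Submodule.span_le.2 ?_)
    rintro _ ⟨w, hw, rfl⟩
    rw [hsp w g fun h => hn (Finset.mem_biUnion.2 ⟨w, hw, h⟩)]
    exact Submodule.zero_mem _
  have e : cf (AddMonoidAlgebra.ofCoeff (Finsupp.onFinset _ _ h1)) = γ.h Z - γ.h B := rfl
  have m : mom 1 (AddMonoidAlgebra.ofCoeff (Finsupp.onFinset _ _ h1)) =
      ∑ g ∈ s0.biUnion sp, (γ.h Z g - γ.h B g) := by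
    rw [mom_eq_sum 1 _ (s := s0.biUnion sp) (by rw [e]; exact h1), e]
    exact Finset.sum_congr rfl fun g _ => mul_one _
  have p : ∀ g, 0 ≤ γ.h Z g - γ.h B g := fun g => sub_nonneg.2 (γ.h_mono hle g)
  refine ⟨_, e, ?_, fun s h2 h3 => ?_, fun hn => ?_⟩
  · rw [m]
    exact Finset.sum_nonneg fun g _ => p g
  · rw [m]
    exact sum_le γ hZ hB _ (h3.trans (sup_le le_sup_left (gen_le sB hX h2)))
  · obtain ⟨z, z1, z2⟩ := SetLike.not_le_iff_exists.1 hn
    obtain ⟨g, hg⟩ := not_forall.1 fun h => z2 (γ.mem_of_π_mem h)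
    have l : B.map (γ.π g) < Z.map (γ.π g) := by
      refine lt_of_le_of_ne (Submodule.map_mono hle) fun h => hg ?_
      have : γ.π g z ∈ B.map (γ.π g) := h ▸ Submodule.mem_map_of_mem z1
      rw [hB.map_eq_inf] at this
      exact this.1
    have l2 : 0 < γ.h Z g - γ.h B g :=
      sub_pos.2 (Int.ofNat_lt.2 (Submodule.finrank_lt_finrank_of_lt l))
    rw [m]
    exact Finset.sum_pos' (fun g _ => p g) ⟨g, h1 g l2.ne', l2⟩

end Vale.Agent.P200G
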