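import Mathlib
import Vale.Agent.P200G.Stm2

namespace Vale.Agent.P200G

open Module MvPolynomial TensorProduct

universe u

namespace InvAux

variable {τ a n r : ℕ} [NeZero a]

/-- Rotation of all blocks. -/
def rotS (s : Fin τ → Fin a) : Gt τ a →+ Gt τ a where
  toFun g := (fun x => g.1 (x.1, x.2 - s x.1), g.2)
  map_zero' := rfl
  map_add' _ _ := rfl

theorem rotS_apply (s : Fin τ → Fin a) (g : Gt τ a) :
    rotS s g = (fun x => g.1 (x.1, x.2 - s x.1), g.2) := rfl

theorem rot_eq (m : Fin τ) (g : Gt τ a) : rot m g = rotS (Pi.single m 1) g := by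
  rw [rotS_apply, rot]
  congr 1
  funext x
  by_cases h : x.1 = m
  · rw [if_pos h, h, Pi.single_eq_same]
  · rw [if_neg h, Pi.single_eq_of_ne h, sub_zero]

theorem rotS_add (s s' : Fin τ → Fin a) (g : Gt τ a) : rotS s (rotS s' g) = rotS (s + s') g := by
  simp only [rotS_apply, Pi.add_apply, sub_sub]

theorem rotS_zero (g : Gt τ a) : rotS 0 g = g := by
  simp only [rotS_apply, Pi.zero_apply, sub_zero]

theorem single_sh (s : Fin τ → Fin a) (m : Fin τ) (j : Fin a) (x : Fin τ × Fin a) :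
    (Pi.single (m, j + s m) 1 : Fin τ × Fin a → ℤ) x =
      (Pi.single (m, j) 1 : Fin τ × Fin a → ℤ) (x.1, x.2 - s x.1) := by
  obtain ⟨m', j'⟩ := x
  simp only [Pi.single_apply, Prod.mk.injEq]
  refine if_congr (and_congr_right fun h => ?_) rfl rfl
  rw [h, sub_eq_iff_eq_add]

theorem chi_shY (s : Fin τ → Fin a) (u : Yt τ a n) : chi (shY s u) = rotS s (chi u) := by
  rw [rotS_apply]
  refine Prod.ext (funext fun x => ?_) rfl
  simp only [chi, shY, Pi.sub_apply]
  rw [add_right_comm, single_sh, single_sh]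

theorem weight_shY (s : Fin τ → Fin a) (α : Yt τ a n →₀ ℕ) :
    Finsupp.weight chi (α.mapDomain (shY s)) = rotS s (Finsupp.weight chi α) := by
  induction α using Finsupp.induction_linear with
  | zero => simp
  | add α β h h' => rw [Finsupp.mapDomain_add, map_add, map_add, map_add, h, h']
  | single u k =>
    rw [Finsupp.mapDomain_single, Finsupp.weight_single, Finsupp.weight_single, map_nsmul, chi_shY]

theorem rotS_posn (s ν : Fin τ → Fin a) : rotS s (posn ν) = posn (ν + s) := by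
  rw [rotS_apply]
  refine Prod.ext (funext fun x => ?_) rfl
  simp only [posn, Pi.add_apply, eq_sub_iff_add_eq]

theorem sum_chi (u : Yt τ a n) (m : Fin τ) : ∑ j, (chi u).1 (m, j) = 0 := by
  simp only [chi, Pi.sub_apply, Finset.sum_sub_distrib, Pi.single_apply, Prod.mk.injEq]
  by_cases h : m = u.1 <;> simp [h]

theorem sum_weight (α : Yt τ a n →₀ ℕ) (m : Fin τ) :
    ∑ j, (Finsupp.weight chi α).1 (m, j) = 0 := by
  induction α using Finsupp.induction_linear with
  | zero => simp
  | add α β h h' =>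
    simp only [map_add, Prod.fst_add, Pi.add_apply, Finset.sum_add_distrib, h, h', add_zero]
  | single u k =>
    simp only [Finsupp.weight_single, Prod.smul_fst, Pi.smul_apply, ← Finset.smul_sum, sum_chi,
      smul_zero]

omit [NeZero a] in
theorem sum_posn (ν : Fin τ → Fin a) (m : Fin τ) : ∑ j, (posn ν).1 (m, j) = 1 := by
  simp [posn]

variable {F E : Type*} [Field F] [DivisionRing E] [Algebra F E]
  (φ : Fin r → MvPolynomial (Fin n) F →ₗ[F] F)

theorem shA_neg (s : Fin τ → Fin a) (x : Ar E τ a φ) :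
    shA E τ a φ (-s) (shA E τ a φ s x) = x := by
  induction x using TensorProduct.induction_on with
  | zero => simp
  | add x y hx hy => rw [map_add, map_add, hx, hy]
  | tmul e y =>
    obtain ⟨p, rfl⟩ := mkR_surj τ a φ y
    rw [← inE_mul_evA, map_mul, map_mul, shA_inE, shA_inE, shA_evA, shA_evA, rename_rename]
    have : shY (-s) ∘ shY (n := n) s = id := by
      funext u
      simp [shY]
    rw [this, rename_id]
    rfl

theorem Sm_apply (ζ : F) (m : Fin τ) (v : (Fin τ → Fin a) → Ar E τ a φ) (ν : Fin τ → Fin a) :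
    Sm E τ a φ ζ m v ν =
      cz ζ m (ν - Pi.single m 1) • shA E τ a φ (Pi.single m 1) (v (ν - Pi.single m 1)) := rfl

theorem Sm_inj {ζ : F} (hζ : ζ ^ a = 1) (m : Fin τ) : Function.Injective (Sm E τ a φ ζ m) := by
  have h0 : ζ ≠ 0 := by
    rintro rfl
    rw [zero_pow (NeZero.ne a)] at hζ
    exact zero_ne_one hζ
  rw [injective_iff_map_eq_zero]
  intro v hv
  funext ν
  have h1 := congrFun hv (ν + Pi.single m 1)
  rw [Sm_apply, add_sub_cancel_right, Pi.zero_apply, cz,
    smul_eq_zero_iff_right (pow_ne_zero _ h0)] at h1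
  rw [← shA_neg φ (Pi.single m 1) (v ν), h1, map_zero]
  rfl

theorem Sm_mem (ζ : F) (γ : Gr F (Ar E τ a φ) (Gt τ a))
    (hγ : ∀ g, γ.pc g = Asp E τ a φ {α | Finsupp.weight chi α = g}) (m : Fin τ) {g : Gt τ a}
    {v : (Fin τ → Fin a) → Ar E τ a φ} (hv : v ∈ (γ.pi posn).pc g) :
    Sm E τ a φ ζ m v ∈ (γ.pi posn).pc (rot m g) := by
  rw [Gr.mem_pi_pc] at hv ⊢
  intro ν
  rw [Sm_apply, hγ]
  refine Submodule.smul_mem _ _ (shA_mem_Asp E τ a φ _ ?_ (hγ _ ▸ hv (ν - Pi.single m 1)))
  intro α hα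
  rw [Set.mem_ofPred_eq] at hα ⊢
  rw [weight_shY, hα, map_sub, rotS_posn, sub_add_cancel, rot_eq]

end InvAux

open InvAux in
theorem invP : InvStm.{u} := by
  intro F E _ _ _ τ a n r _ φ ζ γ M hζ hγ hM hS
  constructor
  · intro m
    have h1 : ∀ g, (γ.pi posn).h M g ≤ (γ.pi posn).h M (rot m g) := by
      intro g
      refine Int.ofNat_le.mpr ?_
      rw [(Submodule.equivMapOfInjective _ (Sm_inj φ hζ m) (M.map ((γ.pi posn).π g))).finrank_eq]
      refine Submodule.finrank_mono ?_
      rw [hM.map_eq_inf, hM.map_eq_inf]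
      rintro _ ⟨v, hv, rfl⟩
      exact ⟨hS m v hv.1, Sm_mem φ ζ γ hγ m hv.2⟩
    have h2 : ∀ (k : ℕ) g, (γ.pi posn).h M g ≤
        (γ.pi posn).h M (rotS (k • Pi.single m 1) g) := by
      intro k g
      induction k with
      | zero => rw [zero_smul, rotS_zero]
      | succ k ih =>
        refine ih.trans ((h1 _).trans_eq ?_)
        rw [rot_eq, rotS_add, succ_nsmul']
    intro g
    refine le_antisymm ?_ (h1 g)
    obtain ⟨k, hk⟩ := Nat.exists_eq_succ_of_ne_zero (NeZero.ne a)
    refine (h2 k _).trans_eq ?_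
    have h3 : a • (Pi.single m 1 : Fin τ → Fin a) = 0 := by
      funext m'
      have := card_nsmul_eq_zero (G := Fin a) (x := (Pi.single m 1 : Fin τ → Fin a) m')
      rwa [Fintype.card_fin] at this
    rw [rot_eq, rotS_add, ← succ_nsmul, ← Nat.succ_eq_add_one, ← hk, h3, rotS_zero]
  · intro g hg m
    have h1 : M.map ((γ.pi posn).π g) ≠ ⊥ := by
      intro h
      apply hg
      rw [Gr.h, h, finrank_bot]
      rfl
    obtain ⟨v, hv, hv0⟩ := Submodule.exists_mem_ne_zero_of_ne_bot h1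
    rw [hM.map_eq_inf] at hv
    obtain ⟨ν, hν⟩ := Function.ne_iff.1 hv0
    have h2 := (γ.mem_pi_pc posn).1 hv.2 ν
    rw [hγ] at h2
    have h3 : ∃ α : Yt τ a n →₀ ℕ, Finsupp.weight chi α = g - posn ν := by
      by_contra hn
      refine hν ?_
      have h4 : Asp E τ a φ {α | Finsupp.weight chi α = g - posn ν} ≤ ⊥ := by
        rw [Asp, Submodule.span_le]
        rintro _ ⟨e, α, hα, rfl⟩
        exact (hn ⟨α, hα⟩).elim
      exact h4 h2
    obtain ⟨α, hα⟩ := h3
    have h5 := sum_weight α m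
    rw [hα] at h5
    simp only [Prod.fst_sub, Pi.sub_apply, Finset.sum_sub_distrib, sum_posn] at h5
    omega

end Vale.Agent.P200G
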